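import Crest.Agent.R231.O.Omega

/-! R231, block O: birth levels of the generators and dual cocycles.
`exists_isOm`: `exists_functional` for the graded submodule `map dd (sup Ω) ⊔ sup (Ω ∩ Lv lev)`; a generator is not in it
(`exists_lt_of_mem_Lv` and the definition of `lev`); `dichot` shows the value `1` on every generator.
`lev_step`: `Gen.con`, `con_mem`, `lev_compare`. -/

set_option autoImplicit false
set_option linter.unusedVariables false
set_option linter.unusedSectionVars false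
open Set
open scoped Classical

noncomputable section
namespace Crest.Agent.R231
namespace Setup
variable {n : ℕ} {G : Setup n}

theorem Gen.lv_nonneg {x y : M n} {k : ℕ} {θ : Ch (Cur n)} {l : ℝ} (h : G.Gen x y k θ) (hl : θ ∈ sup (Lv n l)) :
    0 ≤ l := by
  by_contra hneg
  have h0 : θ ∈ sup (∅ : Set (Cur n)) := by
    refine sup_mono ?_ (mem_sup_inter h.1 hl)
    rintro p ⟨hp, hp'⟩
    have h1 : 0 ≤ p.1 := hp.1.1
    have h2 : p.1 < l := hp'
    exact absurd (h1.trans h2.le) hneg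
  rw [sup_empty, Submodule.mem_bot] at h0
  exact h.2.2.2 (h0 ▸ Null.zero x y)

theorem lev_nonneg (x y : M n) (k : ℕ) : 0 ≤ G.lev x y k := by
  exact Real.sInf_nonneg fun l ⟨θ, h, hl⟩ => h.lv_nonneg hl

theorem lev_le {x y : M n} {k : ℕ} {θ : Ch (Cur n)} {l : ℝ} (h : G.Gen x y k θ) (hl : θ ∈ sup (Lv n l)) :
    G.lev x y k ≤ l := by
  exact csInf_le ⟨0, fun l ⟨θ, h, hl⟩ => h.lv_nonneg hl⟩ ⟨θ, h, hl⟩

theorem exists_rep (G : Setup n) (hn : 2 ≤ n) (x y : M n) (k : ℕ) :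
    ∃ θ, G.Gen x y k θ ∧ θ ∈ sup (G.Om x y ∩ Lv n (G.lev x y k + 1)) := by
  obtain ⟨θ0, h0⟩ := G.exists_gen hn x y k
  obtain ⟨l0, hl0⟩ := exists_mem_Lv θ0
  obtain ⟨l, ⟨θ, h, hl⟩, hlt⟩ := exists_lt_of_csInf_lt (s := {l | ∃ θ, G.Gen x y k θ ∧ θ ∈ sup (Lv n l)})
    ⟨l0, θ0, h0, hl0⟩ (lt_add_one (G.lev x y k))
  have hsub : Lv n l ⊆ Lv n (G.lev x y k + 1) := fun p (hp : p.1 < l) => show p.1 < _ from hp.trans hlt
  exact ⟨θ, h, mem_sup_inter h.1 (sup_mono hsub hl)⟩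

theorem exists_isOm (G : Setup n) (hn : 2 ≤ n) (x y : M n) (k : ℕ) : ∃ ω, G.IsOm x y k ω := by
  obtain ⟨θ0, h0⟩ := G.exists_gen hn x y k
  have hS : ∀ i c, c ∈ (sup (G.Om x y)).map dd ⊔ sup (G.Om x y ∩ Lv n (G.lev x y k)) →
      pr i c ∈ (sup (G.Om x y)).map dd ⊔ sup (G.Om x y ∩ Lv n (G.lev x y k)) := fun i c hc =>
    pr_Bdy (A := G.Om x y) (B := G.Om x y ∩ Lv n (G.lev x y k)) i hc
  have hnot : θ0 ∉ (sup (G.Om x y)).map dd ⊔ sup (G.Om x y ∩ Lv n (G.lev x y k)) := by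
    intro hm
    obtain ⟨w, hw, hc⟩ := (mem_Bdy (A := G.Om x y) (B := G.Om x y ∩ Lv n (G.lev x y k))).1 hm
    have hc' := pr_mem (k * (n - 1)) hc
    rw [map_add, h0.2.1, ← dd_pr] at hc'
    have hg : G.Gen x y k (θ0 + dd (pr (k * (n - 1) + 1) w)) := by
      refine ⟨sup_mono inter_subset_left hc', h0.2.1.add (hom_pr _ _).dd, by rw [map_add, h0.2.2.1, dd_dd, add_zero],
        fun hN => h0.2.2.2 ?_⟩
      have := hN.add ⟨_, pr_mem (k * (n - 1) + 1) hw, rfl⟩
      rwa [add_assoc, add_self, add_zero] at this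
    obtain ⟨l', hl', hm'⟩ := exists_lt_of_mem_Lv hc'
    exact absurd (lev_le hg (sup_mono inter_subset_right hm')) (not_le.2 hl')
  obtain ⟨φ, h1, h2, h3⟩ := exists_functional hS h0.2.1 hnot
  have hdd : ∀ w ∈ sup (G.Om x y), φ (dd w) = 0 := fun w hw =>
    h2 _ (Submodule.mem_sup_left (Submodule.mem_map_of_mem hw))
  refine ⟨φ, h1, hdd, fun c hc => h2 _ (Submodule.mem_sup_right hc), fun θ hθ => ?_⟩
  obtain ⟨w, hw, hwe⟩ := (h0.dichot hn hθ.1 hθ.2.1 hθ.2.2.1).resolve_left hθ.2.2.2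
  have := hdd w hw
  rw [hwe, map_add, h3] at this
  rcases F2_cases (φ θ) with h | h
  · rw [h, zero_add] at this
    exact absurd this one_ne_zero
  · exact h

theorem IsOm.null {x y : M n} {k : ℕ} {ω : Ch (Cur n) →ₗ[F2] F2} (h : G.IsOm x y k ω) {c : Ch (Cur n)}
    (hc : G.Null x y c) : ω c = 0 := by
  obtain ⟨w, hw, rfl⟩ := hc
  exact h.2.1 w hw

theorem IsOm.eq_zero_iff {x y : M n} {k : ℕ} {ω : Ch (Cur n) →ₗ[F2] F2} (h : G.IsOm x y k ω) {c : Ch (Cur n)}
    (hc : c ∈ sup (G.Om x y)) (hh : Hom (k * (n - 1)) c) (hd : dd c = 0) : ω c = 0 ↔ G.Null x y c := by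
  refine ⟨fun h0 => by_contra fun hN => ?_, h.null⟩
  rw [h.2.2.2 c ⟨hc, hh, hd, hN⟩] at h0
  exact one_ne_zero h0

theorem lev_compare (G : Setup n) (hn : 2 ≤ n) : ∃ C, 0 ≤ C ∧ ∀ (a b a' b' : Bool) (k : ℕ),
    G.lev (pl n a) (pl n b) k ≤ G.lev (pl n a') (pl n b') k + C := by
  choose u hu using fun a b : Bool => G.exists_path hn (pl n a) (pl n b)
  have hu0 : ∀ a b, 0 ≤ (u a b).1 := fun a b => (hu a b).1.1
  set D := (u true true).1 + (u true false).1 + (u false true).1 + (u false false).1 with hD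
  have hle : ∀ a b, (u a b).1 ≤ D := by
    intro a b
    have := hu0 true true
    have := hu0 true false
    have := hu0 false true
    have := hu0 false false
    cases a <;> cases b <;> linarith
  have hD0 : 0 ≤ D := (hu0 true true).trans (hle _ _)
  refine ⟨1 + 2 * D, by linarith, fun a b a' b' k => ?_⟩
  obtain ⟨θ, hθ, hl⟩ := G.exists_rep hn (pl n a') (pl n b') k
  have h1 := lev_le (hθ.trans (hu a a') (hu b' b))
    (sup_mono inter_subset_right (trans_mem (hu a a') (hu b' b) hl))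
  linarith [hle a a', hle b' b]

theorem lev_step (G : Setup n) (hn : 2 ≤ n) : ∃ C, 0 ≤ C ∧ ∀ (a b a' b' : Bool) (k : ℕ),
    G.lev (pl n a) (pl n b) (k + 1) ≤ G.lev (pl n a') (pl n b') k + C := by
  obtain ⟨C, hC, hcmp⟩ := G.lev_compare hn
  obtain ⟨Pl⟩ := G.exists_pole (north n)
  have hP := Fib.C_nonneg Pl
  refine ⟨2 * C + 1 + 2 * Pl.C, by linarith, fun a b a' b' k => ?_⟩
  obtain ⟨θ, hθ, hl⟩ := G.exists_rep hn (north n) (anti (north n)) k
  have h1 := ((G.pathFib (anti (north n))).con_mem Pl (by rw [pathFib_L]; exact hl) hθ.2.2.1).1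
  rw [pathFib_L] at h1
  have h2 := lev_le (hθ.con hn Pl) (sup_mono inter_subset_right h1)
  have h3 := hcmp a b false false (k + 1)
  have h4 := hcmp true false a' b' k
  simp only [pl, if_true, Bool.false_eq_true, if_false] at h3 h4 ⊢
  linarith

end Setup
end Crest.Agent.R231
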