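import Crest.Agent.R231.O.Cross
import Crest.Agent.R231.O.Lev

/-! R231, block O: consequences of the crossover lemma.
In `crossover` take `ω` with `IsOm p q i`, `σ = lev p q i`, `θ` from `exists_rep q q (i+1)`; then
`aug y = ω (mp snd kap) = 1` (`aug_mp`, `aug_cap`, `snd_kap`, `Gen.wang`), so `y ~ pt u` for a fixed `u ∈ Ω(q,p)` at a bounded level
(`bars0`, `lev_step`) and `cc y x ~ cc (pt u) x` = transport of `x`.  `c` has degree `d - (i+1)(n-1)` (`kap_hom/kap_lt`, `Hom.cap`, `Hom.cap_lt`).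
`bars`: reduce to homogeneous `x` (`Null.pr`, `exists_sum_pr`) in `Ω(p,p)` (`trans_null`); `d = 0`: `bars0`; else `i = (d-1)/(n-1)`, `c` is a
`0`-chain (or `0`), `c ~ aug c • pt u'` at level `l - σ + C`, and `aug c = 0` because `cc θ (pt u')` is a generator while `x` is null.
`coef`: for a generator `x`, `cc θ c ~ cc (pt u) x` is not null, so `c` is not null.  `gen_cc`: from `coef`-type argument, `dichot` and transport
(`cc_assoc`, `cc_pt_left/right`, `trans_back`); the case `i = 0` by `gen_pt`, `dichot`. -/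

set_option autoImplicit false
set_option linter.unusedVariables false
set_option linter.unusedSectionVars false
open Set
open scoped Classical

noncomputable section
namespace Crest.Agent.R231
namespace Setup
variable {n : ℕ} {G : Setup n}

theorem Null.dd_eq {x y : M n} {c : Ch (Cur n)} (h : G.Null x y c) : dd c = 0 := by
  obtain ⟨w, -, rfl⟩ := h; exact dd_dd w

theorem Null.mem {x y : M n} {c : Ch (Cur n)} (h : G.Null x y c) : c ∈ sup (G.Om x y) := by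
  obtain ⟨w, hw, rfl⟩ := h; exact dd_mem hw

theorem Null.of_add {x y : M n} {a b : Ch (Cur n)} (h : G.Null x y (a + b)) (hb : G.Null x y b) : G.Null x y a := by
  convert h.add hb using 1; ch2

theorem Gen.pt_cc {x y z : M n} {u : Cur n} (hu : u ∈ G.Om x y) {k : ℕ} {θ : Ch (Cur n)} (h : G.Gen y z k θ) :
    G.Gen x z k (cc (pt u) θ) := by
  rw [cc_pt_left hu h.1]; exact h.trans hu (cst_mem z)

theorem Gen.cc_pt {x y z : M n} {u : Cur n} (hu : u ∈ G.Om y z) {k : ℕ} {θ : Ch (Cur n)} (h : G.Gen x y k θ) :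
    G.Gen x z k (cc θ (pt u)) := by
  rw [cc_pt_right h.1 hu]; exact h.trans (cst_mem x) hu

theorem Gen.null_add (hn : 2 ≤ n) {x y : M n} {k : ℕ} {θ θ' : Ch (Cur n)} (h : G.Gen x y k θ) (h' : G.Gen x y k θ') :
    G.Null x y (θ + θ') := (h'.dichot hn h.1 h.2.1 h.2.2.1).resolve_left h.2.2.2

theorem null_pt (hn : 2 ≤ n) {x y : M n} {u : Cur n} (hu : u ∈ G.Om x y) {c : Ch (Cur n)} (hc : c ∈ sup (G.Om x y))
    (hh : Hom 0 c) (ha : aug c = 1) : G.Null x y (c + pt u) := by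
  refine ((gen_pt hu).dichot hn hc (by simpa using hh) hh.dd_zero).resolve_left ?_
  rintro ⟨w, -, rfl⟩
  rw [aug_dd] at ha
  exact zero_ne_one ha

theorem exists_paths (G : Setup n) (hn : 2 ≤ n) : ∃ (u : Bool → Bool → Cur n) (D : ℝ), 0 ≤ D ∧
    ∀ a b, u a b ∈ G.Om (pl n a) (pl n b) ∧ (u a b).1 ≤ D := by
  choose u hu using fun a b : Bool => exists_path (G := G) hn (pl n a) (pl n b)
  obtain ⟨D, hD⟩ := (Set.finite_range fun ab : Bool × Bool => (u ab.1 ab.2).1).bddAbove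
  exact ⟨u, D, (hu true true).1.1.trans (hD ⟨(true, true), rfl⟩), fun a b => ⟨hu a b, hD ⟨(a, b), rfl⟩⟩⟩

theorem sup_Lv_mono {A : Set (Cur n)} {l l' : ℝ} (h : l ≤ l') : sup (A ∩ Lv n l) ≤ sup (A ∩ Lv n l') :=
  sup_mono fun x hx => ⟨hx.1, lt_of_lt_of_le hx.2 h⟩

theorem cross' (hn : 2 ≤ n) {T : Ch (M n × M n) →ₗ[F2] F2} (hT : IsDiag G T) {p : M n} {i d : ℕ} {A l : ℝ}
    {ω : Ch (Cur n) →ₗ[F2] F2} (hω : G.IsOm p (anti p) i ω) {θ x : Ch (Cur n)} (hθ : G.Gen (anti p) (anti p) (i + 1) θ)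
    (hθl : θ ∈ sup (Lv n A)) (hx : x ∈ sup (G.Om p p ∩ Lv n l)) (hxh : Hom d x) (hxd : dd x = 0)
    (hed : i * (n - 1) < d) :
    ∃ k₀, ∀ k, k₀ ≤ k → ∀ c : Ch (Cur n),
      c = mp Prod.snd (cap (ω ∘ₗ mp Prod.fst) (G.kap (T ∘ₗ mp (fun z => (anti p, z))) k (anti p) x)) →
      c ∈ sup (G.Om (anti p) p ∩ Lv n (l - G.lev p (anti p) i + (2 * G.δ + 1))) ∧ dd c = 0 ∧
      (∀ j, (d ≤ (i + 1) * (n - 1) + j ∧ j = 0) ∨ d = (i + 1) * (n - 1) + j → Hom j c) ∧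
      ∃ y ∈ sup (G.Om (anti p) p ∩ Lv n (A - G.lev p (anti p) i + (2 * G.δ + 1))), Hom 0 y ∧ aug y = 1 ∧
      ∃ W ∈ sup (G.Om (anti p) p ∩ Lv n (l + A - G.lev p (anti p) i + (2 * G.δ + 1))), dd W = cc y x + cc θ c := by
  obtain ⟨Pp⟩ := G.exists_pole p
  obtain ⟨Pq⟩ := G.exists_pole (anti p)
  obtain ⟨k₀, hk⟩ := crossover hn hT Pp Pq hω.1 hω.2.1 hω.2.2.1 (mem_sup_inter hθ.1 hθl)
    (by simpa only [add_mul, one_mul] using hθ.2.1) hθ.2.2.1 hx hxh hxd hed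
  obtain ⟨k₁, hk₁⟩ := exists_SmK Pp hθ.1
  refine ⟨max k₀ k₁, fun k h c hc => ?_⟩
  obtain ⟨h1, h2, h3, h4, h5⟩ := hk k ((le_max_left _ _).trans h) c _ hc rfl
  have hTp := (hT.2.2.2 p Pp).1
  have hTq := (hT.2.2.2 _ Pq).2
  refine ⟨h1, h2, fun j hj => ?_, _, h3, h4, ?_, h5⟩
  · have hd := hω.1.comp_mp (Prod.fst : Cur n × Cur n → Cur n)
    rw [hc]
    rcases lt_or_ge (d + 1) n with h' | h'
    · rw [kap_lt Pq hTq hxh h', map_zero, map_zero]; exact Hom.zero _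
    · obtain ⟨e, he⟩ := Nat.exists_eq_add_of_le h'
      have h6 := kap_hom Pq hTq (k := k) hxh he
      rw [add_mul, one_mul] at hj
      rcases lt_or_ge e (i * (n - 1)) with h'' | h''
      · rw [h6.cap_lt hd h'', map_zero]; exact Hom.zero _
      · rw [show e = i * (n - 1) + j by omega] at h6
        exact (h6.cap hd).mp _
  · obtain ⟨s1, s2⟩ := snd_kap Pp hTp hθ.1 (hk₁ k ((le_max_right _ _).trans h))
    rw [aug_mp, aug_cap, LinearMap.comp_apply, s2]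
    exact hω.2.2.2 _ (hθ.wang hn Pp hTp s1)

theorem bars1 (G : Setup n) (hn : 2 ≤ n) : ∃ C, 0 ≤ C ∧ ∀ (a : Bool) (l : ℝ) (d : ℕ) (c : Ch (Cur n)),
    c ∈ sup (G.Om (pl n a) (pl n a) ∩ Lv n l) → Hom d c → G.Null (pl n a) (pl n a) c →
    ∃ w ∈ sup (G.Om (pl n a) (pl n a) ∩ Lv n (l + C)), dd w = c := by
  obtain ⟨C₀, hC₀, b0⟩ := G.bars0 hn
  obtain ⟨C₁, hC₁, b1⟩ := G.lev_step hn
  obtain ⟨u, D, hD, hu⟩ := G.exists_paths hn
  obtain ⟨T, hT⟩ := G.exists_diag hn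
  have hδ := G.δ_pos
  refine ⟨C₀ + C₁ + 3 * D + 2 * G.δ + 3, by positivity, fun a l d x hx hh hN => ?_⟩
  rcases Nat.eq_zero_or_pos d with rfl | hd
  · obtain ⟨w, hw, e⟩ := b0 a a l x hx hh (by obtain ⟨w, -, rfl⟩ := hN; exact aug_dd w)
    exact ⟨w, sup_Lv_mono (by linarith) hw, e⟩
  obtain ⟨i, i1, i2⟩ : ∃ i, i * (n - 1) < d ∧ d ≤ (i + 1) * (n - 1) := by
    have h1 := Nat.div_mul_le_self (d - 1) (n - 1)
    have h2 := (Nat.div_lt_iff_lt_mul (x := d - 1) (y := (d - 1) / (n - 1) + 1) (show 0 < n - 1 by omega)).1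
      (Nat.lt_succ_self _)
    exact ⟨(d - 1) / (n - 1), by omega, by omega⟩
  obtain ⟨ω, hω⟩ := G.exists_isOm hn (pl n a) (anti (pl n a)) i
  obtain ⟨θ, hθ, hθl⟩ := G.exists_rep hn (anti (pl n a)) (anti (pl n a)) (i + 1)
  obtain ⟨k, hk⟩ := cross' hn hT hω hθ (sup_mono inter_subset_right hθl) hx hh hN.dd_eq i1
  obtain ⟨c, hc⟩ : ∃ c, c = mp Prod.snd (cap (ω ∘ₗ mp Prod.fst)
    (G.kap (T ∘ₗ mp (fun z => (anti (pl n a), z))) k (anti (pl n a)) x)) := ⟨_, rfl⟩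
  obtain ⟨c1, c2, c3, y, y1, y2, y3, W, W1, W2⟩ := hk k le_rfl c hc
  replace c3 := c3 0 (Or.inl ⟨i2, rfl⟩)
  have s := b1 (!a) (!a) a (!a) i
  obtain ⟨u1, u2⟩ := hu (!a) a
  replace b0 := b0 (!a) a
  rw [pl_not] at s u1 b0
  have x1 : x ∈ sup (G.Om (pl n a) (pl n a)) := sup_mono inter_subset_left hx
  have y1' : y ∈ sup (G.Om (anti (pl n a)) (pl n a)) := sup_mono inter_subset_left y1
  have c1' : c ∈ sup (G.Om (anti (pl n a)) (pl n a)) := sup_mono inter_subset_left c1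
  have ac : aug c = 0 := by
    refine (F2_cases _).resolve_right fun h => (hθ.cc_pt u1).2.2.2 ?_
    have h1 := (null_pt hn u1 c1' c3 h).cc_right hθ.1 hθ.2.2.1
    rw [cc_add_right, add_comm] at h1
    refine h1.of_add (Null.of_add ⟨W, sup_mono inter_subset_left W1, W2.trans (add_comm _ _)⟩ ?_)
    exact hN.cc_right y1' y2.dd_zero
  obtain ⟨w₀, m₀, e₀⟩ := b0 (C₁ + D + 2 * G.δ + 2) (y + pt (u (!a) a))
    (add_mem (sup_Lv_mono (by linarith) y1) (pt_mem ⟨u1, show (u (!a) a).1 < _ by linarith⟩)) (y2.add (hom_pt _))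
    (by rw [map_add, y3, aug_pt]; rfl)
  obtain ⟨w₁, m₁, e₁⟩ := b0 _ c c1 c3 ac
  have hz : W + cc w₀ x + cc θ w₁ ∈ sup (G.Om (anti (pl n a)) (pl n a) ∩ Lv n (l + (C₀ + C₁ + D + 2 * G.δ + 3))) :=
    add_mem (add_mem (sup_Lv_mono (by linarith) W1) (sup_Lv_mono (by linarith) (cc_mem_Lv m₀ hx)))
      (sup_Lv_mono (by linarith) (cc_mem_Lv hθl m₁))
  obtain ⟨z, z1, z2⟩ := trans_null u1 (cst_mem (pl n a)) (sup_Lv_mono (by linarith) hx) hN.dd_eq hz (by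
    rw [← cc_pt_left u1 x1, map_add, map_add, W2, dd_cc (sup_mono inter_subset_left m₀) x1,
      dd_cc hθ.1 (sup_mono inter_subset_left m₁), e₀, e₁, hN.dd_eq, hθ.2.2.1, cc_add_left, cc_zero_left, cc_zero_right]
    ch2)
  exact ⟨z, sup_Lv_mono (by rw [cst_fst]; linarith) z1, z2⟩

theorem bars (G : Setup n) (hn : 2 ≤ n) : ∃ C, 0 ≤ C ∧ ∀ (a b : Bool) (l : ℝ) (c : Ch (Cur n)),
    c ∈ sup (G.Om (pl n a) (pl n b) ∩ Lv n l) → G.Null (pl n a) (pl n b) c →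
    ∃ w ∈ sup (G.Om (pl n a) (pl n b) ∩ Lv n (l + C)), dd w = c := by
  obtain ⟨C, hC, b1⟩ := G.bars1 hn
  obtain ⟨u, D, hD, hu⟩ := G.exists_paths hn
  have b2 : ∀ (a : Bool) (l : ℝ) (c : Ch (Cur n)), c ∈ sup (G.Om (pl n a) (pl n a) ∩ Lv n l) →
      G.Null (pl n a) (pl n a) c → ∃ w ∈ sup (G.Om (pl n a) (pl n a) ∩ Lv n (l + C)), dd w = c := fun a l c hc hN => by
    obtain ⟨N, -, e⟩ := exists_sum_pr c
    choose w hw hw' using fun d => b1 a l d _ (pr_mem d hc) (hom_pr d c) (hN.pr d)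
    exact ⟨∑ d ∈ Finset.range N, w d, sum_mem fun d _ => hw d, by rw [map_sum]; simp only [hw', e]⟩
  refine ⟨C + 3 * D, by positivity, fun a b l c hc hN => ?_⟩
  obtain ⟨u1, u2⟩ := hu b a
  have u0 := u1.1.1
  obtain ⟨w, hw, e⟩ := b2 a _ _ (trans_mem (cst_mem _) u1 hc)
    ((null_trans_iff (cst_mem _) u1 hN.mem hN.dd_eq).2 hN)
  rw [cst_fst] at hw
  obtain ⟨z, z1, z2⟩ := trans_null (cst_mem _) u1 (sup_Lv_mono (by linarith) hc) hN.dd_eq hw e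
  exact ⟨z, sup_Lv_mono (by rw [cst_fst]; linarith) z1, z2⟩

/-- the `(i, j)` coefficient of the cut of a generator of degree `i + j + 1` -/
theorem coef (hn : 2 ≤ n) {T : Ch (M n × M n) →ₗ[F2] F2} (hT : IsDiag G T) (a : Bool) {i j : ℕ}
    {ω : Ch (Cur n) →ₗ[F2] F2} (hω : G.IsOm (pl n a) (pl n (!a)) i ω) {x : Ch (Cur n)} {l : ℝ}
    (hx : G.Gen (pl n a) (pl n a) (i + j + 1) x) (hl : x ∈ sup (Lv n l)) :
    ∃ k₀, ∀ k, k₀ ≤ k → ∀ c : Ch (Cur n),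
      c = mp Prod.snd (cap (ω ∘ₗ mp Prod.fst) (G.kap (T ∘ₗ mp (fun z => (pl n (!a), z))) k (pl n (!a)) x)) →
      G.Gen (pl n (!a)) (pl n a) j c ∧ c ∈ sup (Lv n (l - G.lev (pl n a) (pl n (!a)) i + (2 * G.δ + 1))) ∧
      ∀ θ, G.Gen (pl n (!a)) (pl n (!a)) (i + 1) θ → ¬ G.Null (pl n (!a)) (pl n a) (cc θ c) := by
  rw [pl_not] at hω ⊢
  obtain ⟨θ₀, hθ₀⟩ := G.exists_gen hn (anti (pl n a)) (anti (pl n a)) (i + 1)
  obtain ⟨A, hA⟩ := exists_mem_Lv θ₀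
  obtain ⟨u, hu⟩ := exists_path (G := G) hn (anti (pl n a)) (pl n a)
  obtain ⟨k₀, hk⟩ := cross' hn hT hω hθ₀ hA (mem_sup_inter hx.1 hl) hx.2.1 hx.2.2.1
    (Nat.mul_lt_mul_of_pos_right (by omega) (by omega))
  refine ⟨k₀, fun k h c hc => ?_⟩
  obtain ⟨c1, c2, c3, y, y1, y2, y3, W, W1, W2⟩ := hk k h c hc
  have c1' : c ∈ sup (G.Om (anti (pl n a)) (pl n a)) := sup_mono inter_subset_left c1
  have h0 : ¬ G.Null (anti (pl n a)) (pl n a) (cc θ₀ c) := fun h => (hx.pt_cc hu).2.2.2 <| by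
    have h1 := (null_pt hn hu (sup_mono inter_subset_left y1) y2 y3).cc_left hx.1 hx.2.2.1
    rw [cc_add_left, add_comm] at h1
    exact h1.of_add (Null.of_add ⟨W, sup_mono inter_subset_left W1, W2⟩ h)
  refine ⟨⟨c1', c3 _ (Or.inr (by ring)), c2, fun h => h0 (h.cc_right hθ₀.1 hθ₀.2.2.1)⟩,
    sup_mono inter_subset_right c1, fun θ hθ h => h0 ?_⟩
  have h1 := (hθ₀.null_add hn hθ).cc_left c1' c2
  rw [cc_add_left] at h1
  exact h1.of_add h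

theorem gen_cc (hn : 2 ≤ n) {x y z : M n} {i j : ℕ} {θ θ' : Ch (Cur n)} (h : G.Gen x y i θ) (h' : G.Gen y z j θ') :
    G.Gen x z (i + j) (cc θ θ') := by
  refine ⟨cc_mem h.1 h'.1, by rw [add_mul]; exact cc_hom h.2.1 h'.2.1,
    by rw [dd_cc h.1 h'.1, h.2.2.1, h'.2.2.1, cc_zero_left, cc_zero_right, add_zero], fun hN => ?_⟩
  rcases i with _ | i
  · obtain ⟨u, hu⟩ := exists_path (G := G) hn x y
    have h1 := ((gen_pt hu).null_add hn h).cc_left h'.1 h'.2.2.1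
    rw [cc_add_left] at h1
    exact (h'.pt_cc hu).2.2.2 (h1.of_add hN)
  · obtain ⟨T, hT⟩ := G.exists_diag hn
    obtain ⟨ω, hω⟩ := G.exists_isOm hn (pl n true) (pl n (!true)) i
    obtain ⟨x₀, hx₀⟩ := G.exists_gen hn (pl n true) (pl n true) (i + j + 1)
    obtain ⟨l, hl⟩ := exists_mem_Lv x₀
    obtain ⟨k, hk⟩ := coef hn hT true hω hx₀ hl
    obtain ⟨c, c1, c2⟩ : ∃ c, G.Gen (pl n (!true)) (pl n true) j c ∧
        ∀ θ, G.Gen (pl n (!true)) (pl n (!true)) (i + 1) θ → ¬ G.Null (pl n (!true)) (pl n true) (cc θ c) :=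
      ⟨_, (hk k le_rfl _ rfl).1, (hk k le_rfl _ rfl).2.2⟩
    obtain ⟨u, hu⟩ := exists_path (G := G) hn (pl n (!true)) x
    obtain ⟨v, hv⟩ := exists_path (G := G) hn y (pl n (!true))
    obtain ⟨w, hw⟩ := exists_path (G := G) hn z (pl n true)
    have g1 := h.pt_cc hu
    refine c2 _ (g1.cc_pt hv) ?_
    have h1 := ((c1.pt_cc hv).null_add hn (h'.cc_pt hw)).cc_right g1.1 g1.2.2.1
    rw [cc_add_right, ← cc_assoc g1.1 (pt_mem hv) c1.1, cc_assoc (pt_mem hu) h.1 (h'.cc_pt hw).1,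
      ← cc_assoc h.1 h'.1 (pt_mem hw)] at h1
    exact h1.of_add ((hN.cc_left (pt_mem hw) (dd_pt _)).cc_right (pt_mem hu) (dd_pt _))

theorem lev_super (G : Setup n) (hn : 2 ≤ n) : ∃ C, 0 ≤ C ∧ ∀ (a : Bool) (i j : ℕ),
    G.lev (pl n a) (pl n a) i + G.lev (pl n a) (pl n a) j ≤ G.lev (pl n a) (pl n a) (i + j + 1) + C := by
  obtain ⟨C, hC, b⟩ := G.lev_compare hn
  obtain ⟨T, hT⟩ := G.exists_diag hn
  have hδ := G.δ_pos
  refine ⟨2 * C + 2 * G.δ + 2, by positivity, fun a i j => ?_⟩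
  obtain ⟨ω, hω⟩ := G.exists_isOm hn (pl n a) (pl n (!a)) i
  obtain ⟨x, hx, hl⟩ := G.exists_rep hn (pl n a) (pl n a) (i + j + 1)
  obtain ⟨k, hk⟩ := coef hn hT a hω hx (sup_mono inter_subset_right hl)
  obtain ⟨c1, c2, -⟩ := hk k le_rfl _ rfl
  linarith [lev_le c1 c2, b a a a (!a) i, b a a (!a) a j]

end Setup
end Crest.Agent.R231
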