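import Crest.Agent.R231.O.Delta

/-! R231, block O: filtered homology of the space `CP` of closed paths through the Gysin sequence of `loopFib`
(Thom point `p = pl true`, retraction to the fibre over `q = pl false`).  `C` denotes a constant independent of everything.
* `reduce`: a cycle `c` of level `< l` whose Thom image is null: `bars` for `Ω(p,p)`, `key` (`y = 0`), `rt_hty`, `rt_mem`.
* `barsCP`: reduce to homogeneous `c` of degree `i`; `Th c` is null (`Th_Bdy`); `reduce` gives `c₁` (take its degree `i` part); if `c₁` is null in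
  `Ω(q,q)` use `bars`.  Otherwise `i = k (n-1)`, `c₁` is a generator (`vanish`), `lev q q k ≤ l + C`, `c₁ = dd w` globally (`w` of degree `i+1`, so `k ≥ 1` by `aug`);
  `y = Th w` is a cycle of degree `(k-1)(n-1)` in `Ω(p,p)`, not null (else `key`, `fib_inj` make `c₁` null); let `θ` be from `exists_rep p p (k-1)`;
  `key`, `con_of_Bdy` give `c₁ ~ con θ` in `Ω(q,q)`, at level `l + C` by `bars` (`s_nonneg`, `lev_super`/`lev_compare` bound `lev p p (k-1) ≤ lev q q k + C`);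
  `con θ ~ dd (bx θ)` by `rt_hty`.
* `exists_Phi`: degree by degree (`exists_functional` or `LinearMap.exists_extend`): the degree-`i` cycles with null Thom image form a subspace of
  codimension `≤ 1` containing the boundaries (`dichot`, `vanish`, `Th_indep`, `Th_Bdy`); assemble with `lift (fun q => φ q.dim (cb q))`.
* `Th_rev`: `nm (rev x) = rev (nm x)`, `st (rev x) = st x` on closed paths; naturality of `sdk`, `cap`.
* `upCP`: if `Th c` is not null, `i = n + k (n-1)`, `θ` from `exists_rep p p k`; `key` gives `c + bx θ + dd u = b` over `Kᶜ`; `con θ` is null in `Ω(q,q)`, so bounds at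
  level `lev + C` (`bars`), giving `b'` over `Kᶜ` of bounded level with `dd b' = dd (bx θ)`; `c' = bx θ + b'`, and `b + b'` retracts to a cycle of `Ω(q,q)`. -/

set_option autoImplicit false
set_option linter.unusedVariables false
set_option linter.unusedSectionVars false
open Set
open scoped Classical

noncomputable section
namespace Crest.Agent.R231
namespace Setup
variable {n : ℕ} {G : Setup n}

variable (Pl : Pole G (pl n true)) {T : Ch (M n) →ₗ[F2] F2}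

theorem pl_false : pl n false = anti (pl n true) := pl_not true

theorem lev_mono (G : Setup n) (hn : 2 ≤ n) : ∃ C, 0 ≤ C ∧ ∀ (a b : Bool) (k m : ℕ), k ≤ m →
    G.lev (pl n a) (pl n a) k ≤ G.lev (pl n b) (pl n b) m + C := by
  obtain ⟨C, hC, h⟩ := G.lev_compare hn
  obtain ⟨C', hC', h'⟩ := G.lev_super hn
  refine ⟨C + C', by positivity, fun a b k m hk => ?_⟩
  rcases hk.eq_or_lt with rfl | hk
  · linarith [h a a b b k]
  · obtain ⟨j, rfl⟩ := Nat.exists_eq_add_of_lt hk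
    linarith [h a a b b k, h' b k j, lev_nonneg (G := G) (pl n b) (pl n b) j]

theorem gen_of_not_null (hn : 2 ≤ n) {x y : M n} {i : ℕ} {c : Ch (Cur n)} (hc : c ∈ sup (G.Om x y)) (hh : Hom i c)
    (hd : dd c = 0) (h : ¬ G.Null x y c) : ∃ k, i = k * (n - 1) ∧ G.Gen x y k c := by
  by_contra! H
  exact h (vanish hn hc hh hd fun k hk => H k hk ⟨hc, hk ▸ hh, hd, h⟩)

theorem dd_pr_cyc {X : Type} [TopologicalSpace X] {c : Ch X} (hd : dd c = 0) (i : ℕ) : dd (pr i c) = 0 := by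
  cases i with
  | zero => exact dd_pr_zero c
  | succ i => rw [dd_pr, hd, map_zero]

theorem CP_L {c : Ch (Cur n)} (hc : c ∈ sup G.CP) : ∃ l, c ∈ sup (G.loopFib.L univ l) :=
  G.loopFib.exists_L (sup_mono (A := G.CP) (B := G.loopFib.ov univ) (fun x hx => ⟨hx, trivial⟩) hc)

theorem Om_L {a : M n} {c : Ch (Cur n)} (hc : c ∈ sup (G.Om a a)) : ∃ l, c ∈ sup (G.loopFib.L {a} l) :=
  G.loopFib.exists_L (by rwa [loopFib_ov])

theorem L_Om {a : M n} {l : ℝ} {c : Ch (Cur n)} (hc : c ∈ sup (G.loopFib.L {a} l)) : c ∈ sup (G.Om a a) := by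
  rw [loopFib_L] at hc; exact sup_mono inter_subset_left hc

theorem L_CP {A : Set (M n)} {l l' : ℝ} {c : Ch (Cur n)} (hc : c ∈ sup (G.loopFib.L A l)) (h : l ≤ l') :
    c ∈ sup (G.CP ∩ Lv n l') := by
  rw [← loopFib_L_univ]; exact sup_mono (G.loopFib.L_mono (subset_univ _) h) hc

theorem Om_CP {a : M n} : G.Om a a ⊆ G.CP := fun x hx => ⟨hx.1, hx.2.1.trans hx.2.2.symm⟩

theorem Th_Om (hT : Pl.IsThom T) {k : ℕ} {c : Ch (Cur n)} (hc : c ∈ sup G.CP) (hs : G.loopFib.Sm Pl k c) :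
    G.loopFib.Th (pl n true) T k c ∈ sup (G.Om (pl n true) (pl n true)) := by
  obtain ⟨l, hl⟩ := CP_L hc
  exact L_Om (G.loopFib.Th_mem Pl hT hl hs)

theorem Th_gen (hn : 2 ≤ n) (hT : Pl.IsThom T) {i k : ℕ} {c : Ch (Cur n)} (hc : c ∈ sup G.CP) (hh : Hom i c)
    (hd : dd c ∈ sup (G.loopFib.ov {pl n true}ᶜ)) (hs : G.loopFib.Sm Pl k c)
    (h : ¬ G.Null (pl n true) (pl n true) (G.loopFib.Th (pl n true) T k c)) :
    ∃ j, i = n + j * (n - 1) ∧ G.Gen (pl n true) (pl n true) j (G.loopFib.Th (pl n true) T k c) := by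
  rcases lt_or_ge i n with h' | h'
  · exact (h (by rw [G.loopFib.Th_lt Pl hT k hh h']; exact Null.zero _ _)).elim
  · obtain ⟨d, rfl⟩ := Nat.exists_eq_add_of_le h'
    obtain ⟨j, rfl, hj⟩ := gen_of_not_null hn (Th_Om Pl hT hc hs) (G.loopFib.Th_hom Pl hT k hh)
      (by rw [G.loopFib.dd_Th Pl hT hc hs, G.loopFib.Th_zero Pl hT k hd]) h
    exact ⟨j, rfl, hj⟩

theorem Th_null (hT : Pl.IsThom T) {k : ℕ} {w : Ch (Cur n)} (hw : w ∈ sup G.CP) (hs : G.loopFib.Sm Pl k (dd w)) :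
    G.Null (pl n true) (pl n true) (G.loopFib.Th (pl n true) T k (dd w)) := by
  obtain ⟨l, hl⟩ := CP_L hw
  obtain ⟨z, hz, e⟩ := G.loopFib.Th_Bdy Pl hT (l := l) (mem_Bdy.2 ⟨w, hl, by rw [add_self]; exact zero_mem _⟩) hs
  exact ⟨z, L_Om hz, e⟩

theorem key' (hT : Pl.IsThom T) {k : ℕ} {w y : Ch (Cur n)} (hw : w ∈ sup G.CP)
    (hd : dd w ∈ sup (G.loopFib.ov Pl.Kᶜ)) (hs : G.loopFib.Sm Pl k w) (hy : y ∈ sup (G.Om (pl n true) (pl n true)))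
    (h : G.Null (pl n true) (pl n true) (G.loopFib.Th (pl n true) T k w + y)) (l₀ : ℝ) :
    ∃ l, l₀ ≤ l ∧ w + G.loopFib.bx Pl y ∈ Bdy (G.loopFib.L univ l) (G.loopFib.L Pl.Kᶜ l) := by
  obtain ⟨z, hz, e⟩ := h
  obtain ⟨l₁, h1⟩ := CP_L hw
  obtain ⟨l₂, h2⟩ := G.loopFib.exists_L hd
  obtain ⟨l₃, h3⟩ := Om_L hy
  obtain ⟨l₄, h4⟩ := Om_L hz
  obtain ⟨l, hl⟩ := (Set.toFinite {l₀, l₁, l₂, l₃, l₄}).bddAbove
  have m := fun {A : Set (M n)} {l' : ℝ} (h : l' ∈ ({l₀, l₁, l₂, l₃, l₄} : Set ℝ)) =>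
    sup_mono (G.loopFib.L_mono (A := A) subset_rfl (hl h))
  exact ⟨_, by linarith [hl (a := l₀) (by simp), Fib.C_nonneg Pl], G.loopFib.key Pl hT
    (mem_Cyc.2 ⟨m (by simp) h1, m (by simp) h2⟩) hs (m (by simp) h3) (m (by simp) h4) e⟩

theorem Om_ov_K : G.Om (pl n false) (pl n false) ⊆ G.loopFib.ov Pl.Kᶜ := fun x hx =>
  ⟨Om_CP hx, by rw [show G.loopFib.e x = anti (pl n true) from hx.2.1.trans pl_false]; exact Fib.anti_notMem_K Pl⟩

theorem ov_K_p : G.loopFib.ov Pl.Kᶜ ⊆ G.loopFib.ov {pl n true}ᶜ := fun x hx => ⟨hx.1, Fib.K_compl_sub Pl hx.2⟩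

theorem exists_thom (G : Setup n) (hn : 2 ≤ n) : ∃ (Pl : Pole G (pl n true)) (T : Ch (M n) →ₗ[F2] F2), Pl.IsThom T := by
  obtain ⟨Pl⟩ := G.exists_pole (pl n true)
  obtain ⟨T, hT⟩ := G.exists_diag hn
  exact ⟨Pl, _, (hT.2.2.2 _ Pl).1⟩

theorem reduce (hn : 2 ≤ n) (hT : Pl.IsThom T) : ∃ C, 0 ≤ C ∧ ∀ (l : ℝ) (k : ℕ) (c : Ch (Cur n)),
    c ∈ sup (G.CP ∩ Lv n l) → dd c = 0 → G.loopFib.Sm Pl k c →
    G.Null (pl n true) (pl n true) (G.loopFib.Th (pl n true) T k c) →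
    ∃ c₁ ∈ sup (G.Om (pl n false) (pl n false) ∩ Lv n (l + C)), dd c₁ = 0 ∧
      ∃ w ∈ sup (G.CP ∩ Lv n (l + C)), dd w = c + c₁ := by
  obtain ⟨Cb, hCb, b⟩ := G.bars hn
  have hC := Fib.C_nonneg Pl
  refine ⟨5 * Pl.C + Cb, by positivity, fun l k c hc hd hs hN => ?_⟩
  rw [← loopFib_L_univ] at hc
  have h1 := G.loopFib.Th_mem Pl hT hc hs
  rw [loopFib_L] at h1
  obtain ⟨z, hz, e⟩ := b true true _ _ h1 hN
  rw [← loopFib_L] at hz
  obtain ⟨u, hu, h2⟩ := mem_Bdy.1 (G.loopFib.key Pl hT (mem_Cyc.2 ⟨sup_mono (G.loopFib.L_mono subset_rfl (by linarith)) hc,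
    by rw [hd]; exact zero_mem _⟩) hs (zero_mem _) hz (by rw [e, add_zero]))
  rw [map_zero, add_zero] at h2
  have h3 : dd (c + dd u) = 0 := by rw [map_add, hd, dd_dd, add_zero]
  obtain ⟨z', hz', e'⟩ := G.loopFib.rt_hty Pl h2 h3
  have h4 := G.loopFib.rt_mem Pl h2
  rw [loopFib_L, ← pl_false] at h4
  refine ⟨_, sup_Lv_mono (by linarith) h4, by rw [G.loopFib.dd_rt Pl h2, h3, map_zero], u + z',
    add_mem (L_CP hu (by linarith)) (L_CP hz' (by linarith)), ?_⟩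
  rw [map_add, e']; ch2

theorem reduce' (hn : 2 ≤ n) (hT : Pl.IsThom T) : ∃ C, 0 ≤ C ∧ ∀ (l : ℝ) (i k : ℕ) (c : Ch (Cur n)),
    c ∈ sup (G.CP ∩ Lv n l) → Hom i c → dd c = 0 → G.loopFib.Sm Pl k c →
    G.Null (pl n true) (pl n true) (G.loopFib.Th (pl n true) T k c) →
    ∃ c₁ ∈ sup (G.Om (pl n false) (pl n false) ∩ Lv n (l + C)), Hom i c₁ ∧ dd c₁ = 0 ∧
      ∃ w ∈ sup (G.CP ∩ Lv n (l + C)), dd w = c + c₁ := by
  obtain ⟨C, hC, h⟩ := reduce Pl hn hT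
  refine ⟨C, hC, fun l i k c hc hh hd hs hN => ?_⟩
  obtain ⟨c₁, m, d, w, m', e⟩ := h l k c hc hd hs hN
  exact ⟨_, pr_mem i m, hom_pr i _, dd_pr_cyc d i, _, pr_mem (i + 1) m', by rw [dd_pr, e, map_add, hh]⟩

theorem barsCP1 (G : Setup n) (hn : 2 ≤ n) : ∃ C, 0 ≤ C ∧ ∀ (l : ℝ) (i : ℕ) (c : Ch (Cur n)), c ∈ sup (G.CP ∩ Lv n l) →
    Hom i c → (∃ w ∈ sup G.CP, dd w = c) → ∃ w ∈ sup (G.CP ∩ Lv n (l + C)), dd w = c := by
  obtain ⟨Pl, T, hT⟩ := G.exists_thom hn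
  obtain ⟨Cb, hCb, b⟩ := G.bars hn
  obtain ⟨Cr, hCr, r⟩ := reduce' Pl hn hT
  obtain ⟨Cm, hCm, m⟩ := G.lev_mono hn
  have hC := Fib.C_nonneg Pl
  refine ⟨Cr + Cm + 1 + 2 * Pl.C + Cb, by positivity, ?_⟩
  rintro l i _ hc hh ⟨w₀, hw₀, rfl⟩
  obtain ⟨k, hk⟩ := G.loopFib.exists_Sm Pl (dd_mem hw₀)
  obtain ⟨c₁, m₁, h₁, d₁, w₁, n₁, e₁⟩ := r l i k _ hc hh (dd_dd _) (hk k le_rfl) (Th_null Pl hT hw₀ (hk k le_rfl))
  have m₁' := sup_mono inter_subset_left m₁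
  by_cases hN : G.Null (pl n false) (pl n false) c₁
  · obtain ⟨z, hz, e⟩ := b false false _ _ m₁ hN
    refine ⟨w₁ + z, add_mem (sup_Lv_mono (by linarith) n₁) (sup_Lv_mono (by linarith)
      (sup_mono (inter_subset_inter_left _ Om_CP) hz)), ?_⟩
    rw [map_add, e₁, e]; ch2
  obtain ⟨j, hj, g₁⟩ := gen_of_not_null hn m₁' h₁ d₁ hN
  have l1 := lev_le g₁ (sup_mono inter_subset_right m₁)
  obtain ⟨w, hw, hwh, e⟩ : ∃ w ∈ sup G.CP, Hom (i + 1) w ∧ dd w = c₁ :=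
    ⟨_, pr_mem (i + 1) (add_mem hw₀ (sup_mono inter_subset_left n₁)), hom_pr _ _, by
      rw [dd_pr, map_add, e₁, ← add_assoc, add_self, zero_add, h₁]⟩
  obtain ⟨k', hk'⟩ := G.loopFib.exists_Sm Pl hw
  have hs := hk' k' le_rfl
  have hdw : dd w ∈ sup (G.loopFib.ov Pl.Kᶜ) := e ▸ sup_mono (Om_ov_K Pl) m₁'
  have m₂ : c₁ ∈ sup (G.loopFib.L {anti (pl n true)} (l + Cr)) := by rwa [loopFib_L, ← pl_false]
  obtain ⟨j', hj', g₂⟩ := Th_gen Pl hn hT hw hwh (sup_mono (ov_K_p Pl) hdw) hs fun h => hN <| by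
    obtain ⟨l', hl', h2⟩ := key' Pl hT hw hdw hs (zero_mem _) (by rwa [add_zero]) (l + Cr)
    obtain ⟨u, hu, h3⟩ := mem_Bdy.1 h2
    obtain ⟨z, hz, e'⟩ := G.loopFib.fib_inj Pl (sup_mono (G.loopFib.L_mono subset_rfl hl') m₂) h3
      (by rw [map_zero, add_zero, map_add, dd_dd, add_zero, e])
    exact ⟨z, pl_false (n := n) ▸ L_Om hz, e'⟩
  have hjj : j' ≤ j := by
    by_contra! H
    have := Nat.mul_le_mul_right (n - 1) H.le
    omega
  obtain ⟨θ, g₃, t₃⟩ := G.exists_rep hn (pl n true) (pl n true) j'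
  have t₄ : θ ∈ sup (G.loopFib.L {pl n true} (l + Cr + Cm + 1)) := by
    rw [loopFib_L]; exact sup_Lv_mono (by linarith [m true false j' j hjj]) t₃
  obtain ⟨l', hl', h2⟩ := key' Pl hT hw hdw hs g₃.1 (g₂.null_add hn g₃) (l + Cr + Cm + 1)
  obtain ⟨z₁, m₃, e₃⟩ := G.loopFib.con_of_Bdy Pl (sup_mono (G.loopFib.L_mono subset_rfl (by linarith)) m₂) e
    (sup_mono (G.loopFib.L_mono subset_rfl hl') t₄) g₃.2.2.1 h2
  have t₅ := (G.loopFib.con_mem Pl t₄ g₃.2.2.1).1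
  rw [loopFib_L, ← pl_false] at t₅
  obtain ⟨z₂, m₄, e₄⟩ := b false false _ _ (add_mem (sup_Lv_mono (by linarith) m₁) t₅)
    ⟨z₁, pl_false (n := n) ▸ L_Om m₃, e₃⟩
  have t₆ := G.loopFib.dd_bx_mem Pl t₄
  rw [g₃.2.2.1, map_zero, add_zero] at t₆
  obtain ⟨z₃, m₅, e₅⟩ := G.loopFib.rt_hty Pl t₆ (dd_dd _)
  refine ⟨w₁ + z₂ + z₃ + G.loopFib.bx Pl θ, add_mem (add_mem (add_mem (sup_Lv_mono (by linarith) n₁)
    (sup_Lv_mono (by linarith) (sup_mono (inter_subset_inter_left _ Om_CP) m₄))) (L_CP m₅ (by linarith)))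
    (L_CP (G.loopFib.bx_mem Pl t₄) (by linarith)), ?_⟩
  rw [map_add, map_add, map_add, e₁, e₄, e₅]
  change _ + (_ + mp (G.loopFib.rt Pl) (dd (G.loopFib.bx Pl θ))) + _ + _ = _
  ch2

theorem barsCP (G : Setup n) (hn : 2 ≤ n) : ∃ C, 0 ≤ C ∧ ∀ (l : ℝ) (c : Ch (Cur n)), c ∈ sup (G.CP ∩ Lv n l) →
    (∃ w ∈ sup G.CP, dd w = c) → ∃ w ∈ sup (G.CP ∩ Lv n (l + C)), dd w = c := by
  obtain ⟨C, hC, b⟩ := G.barsCP1 hn
  refine ⟨C, hC, ?_⟩
  rintro l c hc ⟨w₀, hw₀, e₀⟩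
  obtain ⟨N, -, e⟩ := exists_sum_pr c
  choose w hw hw' using fun d => b l d _ (pr_mem d hc) (hom_pr d c) ⟨_, pr_mem (d + 1) hw₀, by rw [dd_pr, e₀]⟩
  exact ⟨∑ d ∈ Finset.range N, w d, sum_mem fun d _ => hw d, by rw [map_sum]; simp only [hw', e]⟩

theorem Th_null_iff (hT : Pl.IsThom T) {k k' : ℕ} {c : Ch (Cur n)} (hc : c ∈ sup G.CP) (hd : dd c = 0)
    (hs : G.loopFib.Sm Pl k c) (hs' : G.loopFib.Sm Pl k' c)
    (h : G.Null (pl n true) (pl n true) (G.loopFib.Th (pl n true) T k' c)) :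
    G.Null (pl n true) (pl n true) (G.loopFib.Th (pl n true) T k c) := by
  obtain ⟨l, hl⟩ := CP_L hc
  obtain ⟨z, hz, e⟩ := G.loopFib.Th_indep Pl hT hl (by rw [hd]; exact zero_mem _) hs hs'
  exact Null.of_add ⟨z, L_Om hz, e⟩ h

theorem exists_phi (hn : 2 ≤ n) (hT : Pl.IsThom T) (i : ℕ) : ∃ φ : Ch (Cur n) →ₗ[F2] F2,
    ∀ (k : ℕ) (c : Ch (Cur n)), c ∈ sup G.CP → Hom i c → dd c = 0 → G.loopFib.Sm Pl k c →
      (φ c = 0 ↔ G.Null (pl n true) (pl n true) (G.loopFib.Th (pl n true) T k c)) := by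
  let N : Submodule F2 (Ch (Cur n)) :=
    { carrier := {c | c ∈ sup G.CP ∧ dd c = 0 ∧ ∃ k, G.loopFib.Sm Pl k c ∧
        G.Null (pl n true) (pl n true) (G.loopFib.Th (pl n true) T k c)}
      zero_mem' := ⟨zero_mem _, map_zero _, 0, Fib.Sm.of_mem _ Pl (zero_mem _), by rw [map_zero]; exact Null.zero _ _⟩
      add_mem' := by
        rintro a b ⟨a1, a2, k, a3, a4⟩ ⟨b1, b2, k', b3, b4⟩
        have a5 := a3.mono _ Pl (le_max_left k k')
        have b5 := b3.mono _ Pl (le_max_right k k')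
        refine ⟨add_mem a1 b1, by rw [map_add, a2, b2, add_zero], _, a5.add _ Pl b5, ?_⟩
        rw [map_add]
        exact (Th_null_iff Pl hT a1 a2 a5 a3 a4).add (Th_null_iff Pl hT b1 b2 b5 b3 b4)
      smul_mem' := fun r a ha => by
        rcases F2_cases r with rfl | rfl
        · rw [zero_smul]
          exact ⟨zero_mem _, map_zero _, 0, Fib.Sm.of_mem _ Pl (zero_mem _), by rw [map_zero]; exact Null.zero _ _⟩
        · rwa [one_smul] }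
  by_cases H : ∃ x ∈ sup G.CP, Hom i x ∧ dd x = 0 ∧ x ∉ N
  · obtain ⟨x, x1, x2, x3, x4⟩ := H
    obtain ⟨φ, h1, h2⟩ := Submodule.exists_le_ker_of_notMem x4
    refine ⟨φ, fun k c c1 c2 c3 c4 => ⟨fun h => by_contra fun h' => h1 ?_, fun h => h2 ⟨c1, c3, k, c4, h⟩⟩⟩
    obtain ⟨k₀, hk⟩ := G.loopFib.exists_Sm Pl x1
    have a5 := c4.mono _ Pl (le_max_left k k₀)
    have b5 := hk _ (le_max_right k k₀)
    obtain ⟨j, hj, g⟩ := Th_gen Pl hn hT c1 c2 (by rw [c3]; exact zero_mem _) a5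
      fun h'' => h' (Th_null_iff Pl hT c1 c3 c4 a5 h'')
    obtain ⟨j', hj', g'⟩ := Th_gen Pl hn hT x1 x2 (by rw [x3]; exact zero_mem _) b5 fun h'' => x4 ⟨x1, x3, _, b5, h''⟩
    obtain rfl : j = j' := Nat.eq_of_mul_eq_mul_right (show 0 < n - 1 by omega) (by omega)
    have : φ (c + x) = 0 := h2 ⟨add_mem c1 x1, by rw [map_add, c3, x3, add_zero], _, a5.add _ Pl b5, by
      rw [map_add]; exact g.null_add hn g'⟩
    rwa [map_add, h, zero_add] at this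
  · refine ⟨0, fun k c c1 c2 c3 c4 => ⟨fun _ => ?_, fun _ => rfl⟩⟩
    obtain ⟨-, -, k', s, h⟩ : c ∈ N := by_contra fun h => H ⟨c, c1, c2, c3, h⟩
    exact Th_null_iff Pl hT c1 c3 c4 s h

theorem exists_Phi (hn : 2 ≤ n) (hT : Pl.IsThom T) : ∃ Φ : Ch (Cur n) →ₗ[F2] F2,
    (∀ w ∈ sup G.CP, Φ (dd w) = 0) ∧
    ∀ (i k : ℕ) (c : Ch (Cur n)), c ∈ sup G.CP → Hom i c → dd c = 0 → G.loopFib.Sm Pl k c →
      (Φ c = 0 ↔ G.Null (pl n true) (pl n true) (G.loopFib.Th (pl n true) T k c)) := by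
  choose φ hφ using exists_phi Pl hn hT
  let Φ : Ch (Cur n) →ₗ[F2] F2 := lift fun q => φ q.dim (cb q)
  have h1 : ∀ i c, Hom i c → Φ c = φ i c := fun i c hc =>
    hom_induction (p := fun c => Φ c = φ i c) hc (mem_sup_univ c) (by simp)
      (fun q _ hq _ => by rw [← hq]; exact lift_cb _ _ fun h => by rw [cb_degen h, map_zero])
      fun a b ha hb => by rw [map_add, map_add, ha, hb]
  refine ⟨Φ, fun w hw => ?_, fun i k c c1 c2 c3 c4 => by rw [h1 i c c2]; exact hφ i k c c1 c2 c3 c4⟩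
  obtain ⟨N, -, e⟩ := exists_sum_pr (dd w)
  rw [← e, map_sum]
  refine Finset.sum_eq_zero fun i _ => ?_
  have m := pr_mem (i + 1) hw
  obtain ⟨k, hk⟩ := G.loopFib.exists_Sm Pl (dd_mem m)
  rw [h1 i _ (hom_pr _ _), ← dd_pr]
  exact (hφ i k _ (dd_mem m) (hom_pr _ _).dd (dd_dd _) (hk k le_rfl)).2 (Th_null Pl hT m (hk k le_rfl))

theorem Th_rev (hT : Pl.IsThom T) {k : ℕ} {c : Ch (Cur n)} (hc : c ∈ sup G.CP) (hs : G.loopFib.Sm Pl k c) :
    G.loopFib.Sm Pl k (mp rev c) ∧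
      G.loopFib.Th (pl n true) T k (mp rev c) = mp rev (G.loopFib.Th (pl n true) T k c) := by
  have r1 : ∀ x ∈ G.CP, rev x ∈ G.Om x.st x.st := fun x hx => rev_mem ⟨hx.1, rfl, hx.2.symm⟩
  have r2 : ∀ A, MapsTo rev (G.loopFib.ov A) (G.loopFib.ov A) := fun A x hx =>
    ⟨Om_CP (r1 x hx.1), by rw [show G.loopFib.e (rev x) = G.loopFib.e x from (r1 x hx.1).2.1]; exact hx.2⟩
  have cr : ContinuousOn (rev : Cur n → Cur n) G.CP := continuousOn_rev.mono fun x hx => hx.1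
  have s1 := sdk_mem k hc
  constructor
  · obtain ⟨a, ha, b, hb, e⟩ := Submodule.mem_sup.1 hs
    unfold Fib.Sm
    rw [← mp_sdk k hc cr, ← e, map_add]
    exact Submodule.add_mem_sup (mp_mem ha (r2 _)) (mp_mem hb (r2 _))
  · have s2 := G.loopFib.cap_small Pl hT hs
    show mp _ (cap _ (sdk k _)) = mp rev (mp _ (cap _ (sdk k c)))
    rw [← mp_sdk k hc cr, ← mp_cap s1 cr, cap_congr (ψ := T ∘ₗ mp G.loopFib.e) s1,
      mp_comp s2 (cr.mono G.loopFib.ov_sub_P), mp_comp s2 (G.loopFib.continuousOn_nm Pl)]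
    · refine mp_congr s2 fun x hx => ?_
      have g : G.gp _ x.st ∈ G.Om _ x.st := gp_mem (Pl.U_small _ hx.2)
      have g' := rev_mem g
      have x1 : x ∈ G.Om x.st x.st := ⟨hx.1.1, rfl, hx.1.2.symm⟩
      show conc (G.gp _ (rev x).st) (conc (rev x) (rev (G.gp _ (rev x).st))) =
        rev (conc (G.gp _ x.st) (conc x (rev (G.gp _ x.st))))
      rw [(r1 x hx.1).2.1, rev_conc g.1 (conc_mem x1 g').1 (g.2.2.trans (conc_mem x1 g').2.1.symm),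
        rev_conc x1.1 g'.1 (x1.2.2.trans g'.2.1.symm), rev_rev, conc_assoc g.1 (r1 x hx.1).1 g'.1]
    · intro x hx
      simp only [LinearMap.comp_apply]
      rw [mp_comp hx cr]
      exact congrArg T (mp_congr hx fun y hy => (r1 y hy).2.1)

theorem upq (hn : 2 ≤ n) {x y : M n} {i : ℕ} {c : Ch (Cur n)} (hc : c ∈ sup (G.Om x y)) (hh : Hom i c) (hd : dd c = 0) :
    ∃ c' ∈ sup (G.Om x y ∩ Lv n (G.lev x y (i / (n - 1)) + 1)), G.Null x y (c + c') := by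
  by_cases h : G.Null x y c
  · exact ⟨0, zero_mem _, by rwa [add_zero]⟩
  · obtain ⟨k, rfl, g⟩ := gen_of_not_null hn hc hh hd h
    obtain ⟨θ, g', m⟩ := G.exists_rep hn x y k
    exact ⟨θ, by rwa [Nat.mul_div_cancel _ (by omega)], g.null_add hn g'⟩

theorem upCP (G : Setup n) (hn : 2 ≤ n) : ∃ C, 0 ≤ C ∧ ∀ (i : ℕ) (c : Ch (Cur n)), c ∈ sup G.CP → Hom i c → dd c = 0 →
    ∃ c' ∈ sup (G.CP ∩ Lv n (G.lev (pl n false) (pl n false) (i / (n - 1)) + C)), ∃ w ∈ sup G.CP, dd w = c + c' := by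
  obtain ⟨Pl, T, hT⟩ := G.exists_thom hn
  obtain ⟨Cb, hCb, b⟩ := G.bars hn
  obtain ⟨Cr, hCr, r⟩ := reduce' Pl hn hT
  obtain ⟨Cm, hCm, m⟩ := G.lev_mono hn
  have hC := Fib.C_nonneg Pl
  refine ⟨Cm + 1 + 2 * Pl.C + Cb, by positivity, fun i c hc hh hd => ?_⟩
  obtain ⟨k, hk⟩ := G.loopFib.exists_Sm Pl hc
  have hs := hk k le_rfl
  suffices H : ∃ c₀ ∈ sup (G.CP ∩ Lv n (G.lev (pl n false) (pl n false) (i / (n - 1)) + (Cm + 1 + 2 * Pl.C + Cb))),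
      ∃ c₁ ∈ sup (G.Om (pl n false) (pl n false)), dd c₁ = 0 ∧ ∃ w ∈ sup G.CP, dd w = c + c₀ + c₁ by
    obtain ⟨c₀, m₀, c₁, m₁, d₁, w, hw, e⟩ := H
    obtain ⟨c', m', z, hz, e'⟩ := upq hn (pr_mem i m₁) (hom_pr i _) (dd_pr_cyc d₁ i)
    refine ⟨pr i c₀ + c', add_mem (pr_mem i m₀) (sup_Lv_mono (by linarith) (sup_mono (inter_subset_inter_left _ Om_CP) m')),
      pr (i + 1) w + z, add_mem (pr_mem _ hw) (sup_mono Om_CP hz), ?_⟩
    rw [map_add, dd_pr, e, e', map_add, map_add, hh]; ch2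
  by_cases hN : G.Null (pl n true) (pl n true) (G.loopFib.Th (pl n true) T k c)
  · obtain ⟨l, hl⟩ := exists_mem_Lv c
    obtain ⟨c₁, m₁, -, d₁, w, hw, e⟩ := r l i k c (mem_sup_inter hc hl) hh hd hs hN
    exact ⟨0, zero_mem _, c₁, sup_mono inter_subset_left m₁, d₁, w, sup_mono inter_subset_left hw, by rw [e, add_zero]⟩
  obtain ⟨j, hj, g⟩ := Th_gen Pl hn hT hc hh (by rw [hd]; exact zero_mem _) hs hN
  obtain ⟨θ, g₃, t₃⟩ := G.exists_rep hn (pl n true) (pl n true) j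
  set s := G.lev (pl n false) (pl n false) (i / (n - 1))
  have t₄ : θ ∈ sup (G.loopFib.L {pl n true} (s + Cm + 1)) := by
    have := m true false j (i / (n - 1)) ((Nat.le_div_iff_mul_le (by omega)).2 (by omega))
    rw [loopFib_L]; exact sup_Lv_mono (by linarith) t₃
  obtain ⟨l, hl, h2⟩ := key' Pl hT hc (by rw [hd]; exact zero_mem _) hs g₃.1 (g.null_add hn g₃)
    (s + Cm + 1 + 2 * Pl.C + Cb)
  obtain ⟨u, hu, h3⟩ := mem_Bdy.1 h2
  have t₅ := (G.loopFib.con_mem Pl t₄ g₃.2.2.1).1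
  rw [loopFib_L, ← pl_false] at t₅
  have e₃ : dd (c + G.loopFib.bx Pl θ + dd u) = dd (G.loopFib.bx Pl θ) := by
    rw [map_add, map_add, hd, dd_dd, zero_add, add_zero]
  obtain ⟨z₂, m₄, e₄⟩ := b false false _ _ t₅ ⟨_, pl_false (n := n) ▸ L_Om (G.loopFib.rt_mem Pl h3), by
    rw [G.loopFib.dd_rt Pl h3, e₃]; rfl⟩
  have t₆ := G.loopFib.dd_bx_mem Pl t₄
  rw [g₃.2.2.1, map_zero, add_zero] at t₆
  obtain ⟨z₃, m₅, e₅⟩ := G.loopFib.rt_hty Pl t₆ (dd_dd _)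
  have m₆ : z₂ ∈ sup (G.loopFib.L Pl.Kᶜ (s + Cm + 1 + 2 * Pl.C + Cb)) := by
    refine sup_mono ?_ m₄
    exact fun x hx => ⟨(Om_ov_K Pl hx.1).1, (Om_ov_K Pl hx.1).2, hx.2⟩
  have m₇ := add_mem h3 (add_mem (sup_mono (G.loopFib.L_mono subset_rfl hl) m₆)
    (sup_mono (G.loopFib.L_mono subset_rfl (by linarith)) m₅))
  have d₇ : dd (c + G.loopFib.bx Pl θ + dd u + (z₂ + z₃)) = 0 := by
    rw [map_add, e₃, map_add, e₄, e₅]
    change _ + (mp (G.loopFib.rt Pl) (dd (G.loopFib.bx Pl θ)) + _) = _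
    ch2
  obtain ⟨z₄, m₈, e₈⟩ := G.loopFib.rt_hty Pl m₇ d₇
  refine ⟨G.loopFib.bx Pl θ + (z₂ + z₃), add_mem (L_CP (G.loopFib.bx_mem Pl t₄) (by linarith))
    (add_mem (L_CP m₆ (by linarith)) (L_CP m₅ (by linarith))), _, pl_false (n := n) ▸ L_Om (G.loopFib.rt_mem Pl m₇),
    by rw [G.loopFib.dd_rt Pl m₇, d₇, map_zero], u + z₄,
    add_mem (sup_mono G.loopFib.L_sub_P hu) (sup_mono G.loopFib.L_sub_P m₈), ?_⟩
  rw [map_add, e₈]; ch2

theorem lowCP (G : Setup n) (hn : 2 ≤ n) : ∃ C, 0 ≤ C ∧ ∀ (l : ℝ) (i : ℕ) (c : Ch (Cur n)), c ∈ sup (G.CP ∩ Lv n l) →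
    Hom i c → dd c = 0 → (¬ ∃ w ∈ sup G.CP, dd w = c) →
    G.lev (pl n false) (pl n false) (i / (n - 1) - 2) ≤ l + C := by
  obtain ⟨Pl, T, hT⟩ := G.exists_thom hn
  obtain ⟨Cr, hCr, r⟩ := reduce' Pl hn hT
  obtain ⟨Cm, hCm, m⟩ := G.lev_mono hn
  have hC := Fib.C_nonneg Pl
  refine ⟨Cr + Cm + Pl.C, by positivity, fun l i c hc hh hd hb => ?_⟩
  have hc' := sup_mono inter_subset_left hc
  obtain ⟨k, hk⟩ := G.loopFib.exists_Sm Pl hc'
  have hs := hk k le_rfl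
  by_cases hN : G.Null (pl n true) (pl n true) (G.loopFib.Th (pl n true) T k c)
  · obtain ⟨c₁, m₁, h₁, d₁, w, hw, e⟩ := r l i k c hc hh hd hs hN
    obtain ⟨j, rfl, g⟩ := gen_of_not_null hn (sup_mono inter_subset_left m₁) h₁ d₁ fun ⟨z, hz, e'⟩ =>
      hb ⟨w + z, add_mem (sup_mono inter_subset_left hw) (sup_mono Om_CP hz), by rw [map_add, e, e']; ch2⟩
    rw [Nat.mul_div_cancel _ (by omega)]
    linarith [lev_le g (sup_mono inter_subset_right m₁), m false false (j - 2) j (by omega)]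
  · obtain ⟨j, hj, g⟩ := Th_gen Pl hn hT hc' hh (by rw [hd]; exact zero_mem _) hs hN
    have h1 := G.loopFib.Th_mem Pl hT (l := l) (by rwa [loopFib_L_univ]) hs
    rw [loopFib_L] at h1
    have h2 : i / (n - 1) < j + 3 := (Nat.div_lt_iff_lt_mul (by omega)).2 (by rw [add_mul]; omega)
    linarith [lev_le g (sup_mono inter_subset_right h1), m false true (i / (n - 1) - 2) j (by omega)]

end Setup
end Crest.Agent.R231
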