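import Crest.Agent.R231.O.Cross0

/-! R231, block O: the crossover lemma (heart of the uniform bound on bars).
`q = anti p`, `θ ∈ Ω(q,q)`, `x ∈ Ω(p,p)`.  `Z = cr (cr (seg 0 1) θ) (cr (seg 0 1) x)` in `(ℝ × Cur) × (ℝ × Cur)`,
`E ((s,θ),(t,x)) = (θ.at s, x.at t)`, `a = conc' (hd t x) (tl s θ) ∈ Ω(p,q)`, `b = conc' (hd s θ) (tl t x) ∈ Ω(q,p)`, defined on
`D = {ρ (θ.at s) (x.at t) < δ}`, `a.1 + b.1 = θ.1 + x.1 + 2ρ`.  `W₀ = mp b (cap (ω ∘ mp a) (cap (T ∘ mp E) (sdk k Z)))` with `k` so large that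
`sdk k Z` is small for the open cover `{E ∉ Δ}`, `D ∩ {a.1 < σ}`, `D ∩ {a.1 > σ - 1}` (`small3`; the sets are relatively open in the support);
then the inner cap lies in the last two sets, the outer one in the last, and `W₀` has level `< l + A - σ + 2δ + 1`.
`dd W₀` = the same expression on the four faces of `sdk k (dd Z)` (`dd_cap`, the cochains are cocycles on the supports; the faces are small too,
each face separately, by taking `k` large).  `sdk_cr`, `cr_pt_left`, `cap_cr_fst/snd` (with `cap_congr`):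
* `s = 0`: `(T-cap) = cr (pt 0 × sdk θ) u'`, `b` factors through `snd`, `deg θ > e`: zero by `cap_deg_snd`;
* `t = 1`: `b` factors through `fst`, `deg x > e`: zero by `cap_deg_fst`;
* `s = 1`: `a` factors through `snd`, `b = conc θ (cut ..).2` (`conc'_eq_left`): gives `cc (sdk k θ) c`;
* `t = 0`: `a` factors through `fst`, `b = conc (cut ..).1 x` (`conc'_eq_right`): gives `cc y (sdk k x)`.
Finally replace `sdk k θ`, `sdk k x` by `θ`, `x` with `sdkH`.  The levels of `c` and `y` come from the same support argument on the faces. -/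

set_option autoImplicit false
set_option linter.unusedVariables false
set_option linter.unusedSectionVars false
open Set
open scoped Classical

noncomputable section
namespace Crest.Agent.R231
namespace Setup
variable {n : ℕ} {G : Setup n}

/-- one factor of the crossover: the cut chain capped with `ω` on one piece -/
theorem side {z a b : M n} {T : Ch (M n) →ₗ[F2] F2} (hT : ∀ c ∈ sup ({z}ᶜ : Set (M n)), T c = 0)
    {s o : Cur n × Cur n → Cur n} (hs : Continuous s) (ho : Continuous o)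
    (hso : ∀ w, (s w).1 + (o w).1 = w.1.1 + w.2.1) {Ω₁ Ω₂ : Set (Cur n)}
    (h1 : MapsTo s (G.Om a z ×ˢ G.Om z b) Ω₁) (h2 : MapsTo o (G.Om a z ×ˢ G.Om z b) Ω₂)
    {ω : Ch (Cur n) →ₗ[F2] F2} {σ l : ℝ} (hω : ∀ c ∈ sup (Ω₁ ∩ Lv n σ), ω c = 0)
    {x : Ch (Cur n)} (hx : x ∈ sup (G.Om a b ∩ Lv n l)) :
    ∃ k₀, ∀ k, k₀ ≤ k → ∀ u : Ch (ℝ × Cur n),
      u = cap (T ∘ₗ mp (fun q : ℝ × Cur n => q.2.at q.1)) (sdk k (cr (seg 0 1) x)) →
      u ∈ sup {q : ℝ × Cur n | q ∈ Icc (0 : ℝ) 1 ×ˢ (G.Om a b ∩ Lv n l) ∧ G.ρ z (q.2.at q.1) < G.δ} ∧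
      mp o (cap (ω ∘ₗ mp s) (G.kap T k z x)) =
        mp (fun q => o (G.cut z q)) (cap (ω ∘ₗ mp (fun q => s (G.cut z q))) u) ∧
      mp o (cap (ω ∘ₗ mp s) (G.kap T k z x)) ∈ sup (Ω₂ ∩ Lv n (l - σ + (2 * G.δ + 1))) := by
  set S : Set (ℝ × Cur n) := Icc (0 : ℝ) 1 ×ˢ (G.Om a b ∩ Lv n l) with hS
  set D : Set (ℝ × Cur n) := {q | q ∈ S ∧ G.ρ z (q.2.at q.1) < G.δ} with hD
  have hat : ContinuousOn (fun q : ℝ × Cur n => q.2.at q.1) S :=
    (continuousOn_at (G := G)).mono fun q hq => ⟨trivial, hq.2.1.1⟩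
  have hcut : ContinuousOn (G.cut z) D := continuousOn_cut.mono fun q hq => ⟨hq.1.1, hq.1.2.1.1, hq.2⟩
  have hE : ContinuousOn (fun q : ℝ × Cur n => (z, q.2.at q.1)) S := continuousOn_const.prodMk hat
  obtain ⟨k₀, hk⟩ := small_ED G hE (f := fun q => (s (G.cut z q)).1)
    (continuous_fst.comp_continuousOn (hs.comp_continuousOn hcut)) σ (cr_mem seg01_mem hx)
  refine ⟨k₀, fun k hkk u hu => ?_⟩
  obtain ⟨c1, c2⟩ := cap_two (φ₁ := T ∘ₗ mp (fun q : ℝ × Cur n => q.2.at q.1))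
    (φ₂ := ω ∘ₗ mp (fun q => s (G.cut z q))) (fun y hy => hT _ (mp_mem hy fun q hq h => hq.2 h.symm))
    (fun y hy => hω _ (mp_mem hy fun q hq =>
      ⟨h1 (cut_mem hq.1.1.1 hq.1.1.2.1 hq.1.2).1, hq.2⟩)) (hk k hkk)
  rw [← hu] at c1 c2
  have huD : u ∈ sup D := sup_mono (union_subset (fun q hq => hq.1) fun q hq => hq.1) c1
  have e1 : mp o (cap (ω ∘ₗ mp s) (G.kap T k z x)) =
      mp (fun q => o (G.cut z q)) (cap (ω ∘ₗ mp (fun q => s (G.cut z q))) u) := by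
    rw [kap, ← hu, ← mp_cap huD hcut, mp_comp (cap_mem _ huD) hcut]
    exact congrArg _ (cap_congr huD fun y hy => by simp only [LinearMap.comp_apply, mp_comp hy hcut])
  refine ⟨huD, e1, ?_⟩
  rw [e1]
  refine mp_mem c2 fun q hq => ?_
  obtain ⟨m1, m2⟩ := cut_mem hq.1.1.1 hq.1.1.2.1 hq.1.2
  refine ⟨h2 m1, ?_⟩
  have h3 := hso (G.cut z q)
  have h4 : q.2.1 < l := hq.1.1.2.2
  have h5 : G.ρ z (q.2.at q.1) < G.δ := hq.1.2
  have h6 : σ - 1 < (s (G.cut z q)).1 := hq.2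
  show (o (G.cut z q)).1 < _
  linarith

/-- the pair of points compared in the crossover -/
def crE (z : (ℝ × Cur n) × (ℝ × Cur n)) : M n × M n := (z.1.2.at z.1.1, z.2.2.at z.2.1)
variable (G) in
def crA (z : (ℝ × Cur n) × (ℝ × Cur n)) : Cur n := G.conc' (hd z.2.1 z.2.2) (tl z.1.1 z.1.2)
variable (G) in
def crB (z : (ℝ × Cur n) × (ℝ × Cur n)) : Cur n := G.conc' (hd z.1.1 z.1.2) (tl z.2.1 z.2.2)

theorem crA_mem {a b c d : M n} {z : (ℝ × Cur n) × (ℝ × Cur n)} (h1 : z.1.1 ∈ Icc (0 : ℝ) 1) (h2 : z.1.2 ∈ G.Om a b)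
    (h3 : z.2.1 ∈ Icc (0 : ℝ) 1) (h4 : z.2.2 ∈ G.Om c d) (h : G.ρ (crE z).1 (crE z).2 < G.δ) :
    G.crA z ∈ G.Om c b ∧ G.crB z ∈ G.Om a d ∧ (G.crA z).1 + (G.crB z).1 < z.1.2.1 + z.2.2.1 + 2 * G.δ := by
  have a1 := hd_mem h4.1 h3
  have a2 := tl_mem h2.1 h1
  have b1 := hd_mem h2.1 h1
  have b2 := tl_mem h4.1 h3
  have h' : G.ρ (z.1.2.at z.1.1) (z.2.2.at z.2.1) < G.δ := h
  have hA := conc'_mem a1.1 a2.1 (by rw [a1.2.2, a2.2.1, G.ρ_comm]; exact h')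
  have hB := conc'_mem b1.1 b2.1 (by rw [b1.2.2, b2.2.1]; exact h')
  rw [a1.2.1, a2.2.2, h4.2.1, h2.2.2, a1.2.2, a2.2.1, G.ρ_comm] at hA
  rw [b1.2.1, b2.2.2, h2.2.1, h4.2.2, b1.2.2, b2.2.1] at hB
  refine ⟨hA.1, hB.1, ?_⟩
  rw [crA, crB, hA.2, hB.2]
  simp only [hd_fst, tl_fst]
  linarith

theorem crE_cont : ContinuousOn (crE : (ℝ × Cur n) × (ℝ × Cur n) → _) {z | z.1.2 ∈ G.PS ∧ z.2.2 ∈ G.PS} :=
  ((continuousOn_at (G := G)).comp continuousOn_fst fun z hz => ⟨trivial, hz.1⟩).prodMk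
    ((continuousOn_at (G := G)).comp continuousOn_snd fun z hz => ⟨trivial, hz.2⟩)

theorem crAB_cont : ContinuousOn G.crA {z | (z.1.1 ∈ Icc (0 : ℝ) 1 ∧ z.1.2 ∈ G.PS ∧ z.2.1 ∈ Icc (0 : ℝ) 1 ∧ z.2.2 ∈ G.PS) ∧
      G.ρ (crE z).1 (crE z).2 < G.δ} ∧
    ContinuousOn G.crB {z | (z.1.1 ∈ Icc (0 : ℝ) 1 ∧ z.1.2 ∈ G.PS ∧ z.2.1 ∈ Icc (0 : ℝ) 1 ∧ z.2.2 ∈ G.PS) ∧
      G.ρ (crE z).1 (crE z).2 < G.δ} := by
  constructor
  · refine (continuousOn_conc' (G := G)).comp (f := fun z : (ℝ × Cur n) × (ℝ × Cur n) => (hd z.2.1 z.2.2, tl z.1.1 z.1.2))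
      (((continuousOn_hd (G := G)).comp continuousOn_snd fun z hz => ⟨hz.1.2.2.1, hz.1.2.2.2⟩).prodMk
        ((continuousOn_tl (G := G)).comp continuousOn_fst fun z hz => ⟨hz.1.1, hz.1.2.1⟩)) fun z hz => ?_
    have a1 := hd_mem hz.1.2.2.2 hz.1.2.2.1
    have a2 := tl_mem hz.1.2.1 hz.1.1
    exact ⟨a1.1, a2.1, by rw [a1.2.2, a2.2.1, G.ρ_comm]; exact hz.2⟩
  · refine (continuousOn_conc' (G := G)).comp (f := fun z : (ℝ × Cur n) × (ℝ × Cur n) => (hd z.1.1 z.1.2, tl z.2.1 z.2.2))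
      (((continuousOn_hd (G := G)).comp continuousOn_fst fun z hz => ⟨hz.1.1, hz.1.2.1⟩).prodMk
        ((continuousOn_tl (G := G)).comp continuousOn_snd fun z hz => ⟨hz.1.2.2.1, hz.1.2.2.2⟩)) fun z hz => ?_
    have a1 := hd_mem hz.1.2.1 hz.1.1
    have a2 := tl_mem hz.1.2.2.2 hz.1.2.2.1
    exact ⟨a1.1, a2.1, by rw [a1.2.2, a2.2.1]; exact hz.2⟩

theorem hom_cr_pt (t : ℝ) {i : ℕ} {x : Ch (Cur n)} (h : Hom i x) : Hom i (cr (pt t) x) := by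
  simpa using (hom_pt t).cr h

theorem crossover (hn : 2 ≤ n) {T : Ch (M n × M n) →ₗ[F2] F2} (hT : IsDiag G T) {p : M n} (Pp : Pole G p)
    (Pq : Pole G (anti p)) {e d : ℕ} {σ A l : ℝ} {ω : Ch (Cur n) →ₗ[F2] F2} (hω : Deg e ω)
    (hω1 : ∀ w ∈ sup (G.Om p (anti p)), ω (dd w) = 0) (hω2 : ∀ c ∈ sup (G.Om p (anti p) ∩ Lv n σ), ω c = 0)
    {θ x : Ch (Cur n)} (hθ : θ ∈ sup (G.Om (anti p) (anti p) ∩ Lv n A)) (hθh : Hom (e + (n - 1)) θ) (hθd : dd θ = 0)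
    (hx : x ∈ sup (G.Om p p ∩ Lv n l)) (hxh : Hom d x) (hxd : dd x = 0) (hed : e < d) :
    ∃ k₀, ∀ k, k₀ ≤ k → ∀ c y : Ch (Cur n),
      c = mp Prod.snd (cap (ω ∘ₗ mp Prod.fst) (G.kap (T ∘ₗ mp (fun z => (anti p, z))) k (anti p) x)) →
      y = mp Prod.fst (cap (ω ∘ₗ mp Prod.snd) (G.kap (T ∘ₗ mp (fun z => (z, p))) k p θ)) →
      c ∈ sup (G.Om (anti p) p ∩ Lv n (l - σ + (2 * G.δ + 1))) ∧ dd c = 0 ∧
      y ∈ sup (G.Om (anti p) p ∩ Lv n (A - σ + (2 * G.δ + 1))) ∧ Hom 0 y ∧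
      ∃ W ∈ sup (G.Om (anti p) p ∩ Lv n (l + A - σ + (2 * G.δ + 1))), dd W = cc y x + cc θ c := by
  set q := anti p with hq
  have hqp : q ≠ p := anti_ne p
  obtain ⟨hTdeg, hTd, hTv, hTp⟩ := hT
  have hT2 := (hTp q Pq).2
  have hT1 := (hTp p Pp).1
  set T₂ := T ∘ₗ mp (fun z : M n => (q, z)) with hT₂
  set T₁ := T ∘ₗ mp (fun z : M n => (z, p)) with hT₁
  have hx' : x ∈ sup (G.Om p p) := sup_mono inter_subset_left hx
  have hθ' : θ ∈ sup (G.Om q q) := sup_mono inter_subset_left hθ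
  obtain ⟨k₁, hk₁⟩ := side (G := G) hT2.2.2.1 (s := Prod.fst) (o := Prod.snd) continuous_fst continuous_snd
    (fun _ => rfl) (fun w hw => hw.1) (fun w hw => hw.2) hω2 hx
  obtain ⟨k₂, hk₂⟩ := side (G := G) hT1.2.2.1 (s := Prod.snd) (o := Prod.fst) continuous_snd continuous_fst
    (fun _ => add_comm _ _) (fun w hw => hw.2) (fun w hw => hw.1) hω2 hθ
  obtain ⟨k₃, hk₃⟩ := exists_SmK Pq hx'
  set Sθ : Set (ℝ × Cur n) := Icc (0 : ℝ) 1 ×ˢ (G.Om q q ∩ Lv n A) with hSθ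
  set Sx : Set (ℝ × Cur n) := Icc (0 : ℝ) 1 ×ˢ (G.Om p p ∩ Lv n l) with hSx
  set D : Set ((ℝ × Cur n) × (ℝ × Cur n)) := {z | z ∈ Sθ ×ˢ Sx ∧ G.ρ (crE z).1 (crE z).2 < G.δ} with hD
  have hE : ContinuousOn crE (Sθ ×ˢ Sx) := (crE_cont (G := G)).mono fun z hz => ⟨hz.1.2.1.1, hz.2.2.1.1⟩
  have hA : ContinuousOn G.crA D :=
    crAB_cont.1.mono fun z hz => ⟨⟨hz.1.1.1, hz.1.1.2.1.1, hz.1.2.1, hz.1.2.2.1.1⟩, hz.2⟩
  have hB : ContinuousOn G.crB D :=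
    crAB_cont.2.mono fun z hz => ⟨⟨hz.1.1.1, hz.1.1.2.1.1, hz.1.2.1, hz.1.2.2.1.1⟩, hz.2⟩
  have hDm : ∀ z ∈ D, G.crA z ∈ G.Om p q ∧ G.crB z ∈ G.Om q p ∧
      (G.crA z).1 + (G.crB z).1 < z.1.2.1 + z.2.2.1 + 2 * G.δ := fun z hz =>
    crA_mem hz.1.1.1 hz.1.1.2.1 hz.1.2.1 hz.1.2.2.1 hz.2
  have hu : cr (seg 0 1) θ ∈ sup Sθ := cr_mem seg01_mem hθ
  have hv : cr (seg 0 1) x ∈ sup Sx := cr_mem seg01_mem hx
  obtain ⟨k₄, hk₄⟩ := small_ED G hE (f := fun z => (G.crA z).1) (continuous_fst.comp_continuousOn hA) σ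
    (cr_mem hu hv)
  refine ⟨max (max k₁ k₂) (max k₃ k₄), fun k hk c y hc hy => ?_⟩
  simp only [max_le_iff] at hk
  obtain ⟨hu', ec, mc⟩ := hk₁ k hk.1.1 _ rfl
  obtain ⟨hv', ey, my⟩ := hk₂ k hk.1.2 _ rfl
  rw [← hc] at ec mc
  rw [← hy] at ey my
  set u' := cap (T₂ ∘ₗ mp (fun q : ℝ × Cur n => q.2.at q.1)) (sdk k (cr (seg 0 1) x)) with hu'd
  set v' := cap (T₁ ∘ₗ mp (fun q : ℝ × Cur n => q.2.at q.1)) (sdk k (cr (seg 0 1) θ)) with hv'd
  set Dx : Set (ℝ × Cur n) := {w | w ∈ Sx ∧ G.ρ q (w.2.at w.1) < G.δ} with hDx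
  set Dθ : Set (ℝ × Cur n) := {w | w ∈ Sθ ∧ G.ρ p (w.2.at w.1) < G.δ} with hDθ
  have cutx : ContinuousOn (G.cut q) Dx := continuousOn_cut.mono fun w hw => ⟨hw.1.1, hw.1.2.1.1, hw.2⟩
  have cutθ : ContinuousOn (G.cut p) Dθ := continuousOn_cut.mono fun w hw => ⟨hw.1.1, hw.1.2.1.1, hw.2⟩
  have hatx : ContinuousOn (fun w : ℝ × Cur n => w.2.at w.1) Sx :=
    (continuousOn_at (G := G)).mono fun w hw => ⟨trivial, hw.2.1.1⟩
  have hatθ : ContinuousOn (fun w : ℝ × Cur n => w.2.at w.1) Sθ :=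
    (continuousOn_at (G := G)).mono fun w hw => ⟨trivial, hw.2.1.1⟩
  -- `c` is a cycle
  have hkm := kap_mem Pq hT2 (hk₃ k hk.2.1)
  have hdc : dd c = 0 := by
    rw [hc, ← mp_dd (mem_sup_univ _) continuous_snd.continuousOn,
      dd_cap_of (S := G.Om p q ×ˢ G.Om q p) (fun w hw => ?_) hkm,
      dd_kap Pq hT2 hx' hxd hqp.symm hqp.symm (hk₃ k hk.2.1), map_zero, map_zero]
    rw [LinearMap.comp_apply, mp_dd (mem_sup_univ _) continuous_fst.continuousOn]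
    exact hω1 _ (mp_mem hw fun w hw => hw.1)
  have hy0 : Hom 0 y := by
    rw [hy]
    exact (Hom.cap (d := 0) (hω.comp_mp _) (kap_hom Pp hT1 hθh (by omega))).mp _
  refine ⟨mc, hdc, my, hy0, ?_⟩
  -- the double cap product
  set φ₁ := T ∘ₗ mp (crE (n := n)) with hφ₁
  set φ₂ := ω ∘ₗ mp G.crA with hφ₂
  have hφ₂d : Deg e φ₂ := hω.comp_mp _
  obtain ⟨c1, c2⟩ := cap_two (φ₁ := φ₁) (φ₂ := φ₂) (fun w hw => hTv _ (mp_mem hw fun z hz => hz.2))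
    (fun w hw => hω2 _ (mp_mem hw fun z hz => ⟨(hDm z hz.1).1, hz.2⟩)) (hk₄ k hk.2.2)
  set Z := sdk k (cr (cr (seg 0 1) θ) (cr (seg 0 1) x)) with hZ
  have hZ' : Z ∈ sup (Sθ ×ˢ Sx) := sdk_mem k (cr_mem hu hv)
  have c1' : cap φ₁ Z ∈ sup D := sup_mono (union_subset (fun z hz => hz.1) fun z hz => hz.1) c1
  have hW : mp G.crB (cap φ₂ (cap φ₁ Z)) ∈ sup (G.Om q p ∩ Lv n (l + A - σ + (2 * G.δ + 1))) := by
    refine mp_mem c2 fun z hz => ⟨(hDm z hz.1).2.1, ?_⟩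
    have h1 := (hDm z hz.1).2.2
    have h2 : z.1.2.1 < A := hz.1.1.1.2.2
    have h3 : z.2.2.1 < l := hz.1.1.2.2.2
    have h4 : σ - 1 < (G.crA z).1 := hz.2
    show (G.crB z).1 < _
    linarith
  have hdW : dd (mp G.crB (cap φ₂ (cap φ₁ Z))) = mp G.crB (cap φ₂ (cap φ₁ (dd Z))) := by
    rw [← mp_dd (cap_mem _ c1') hB, dd_cap_of (S := D) (fun w hw => ?_) c1',
      dd_cap_of (S := Sθ ×ˢ Sx) (fun w hw => ?_) hZ']
    · rw [hφ₁, LinearMap.comp_apply, mp_dd hw hE, hTd]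
    · rw [hφ₂, LinearMap.comp_apply, mp_dd hw hA]
      exact hω1 _ (mp_mem hw fun z hz => (hDm z hz).1)
  have hdZ : dd Z = cr (cr (pt 0) (sdk k θ)) (sdk k (cr (seg 0 1) x)) + cr (cr (pt 1) (sdk k θ)) (sdk k (cr (seg 0 1) x)) +
      cr (sdk k (cr (seg 0 1) θ)) (cr (pt 0) (sdk k x)) + cr (sdk k (cr (seg 0 1) θ)) (cr (pt 1) (sdk k x)) := by
    rw [hZ, dd_sdk, dd_cr, dd_cr (seg 0 1) θ, dd_cr (seg 0 1) x, hθd, hxd, dd_seg]
    have sp : ∀ (t : ℝ) (w : Ch (Cur n)), sdk k (cr (pt t) w) = cr (pt t) (sdk k w) := fun t w => by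
      rw [sdk_cr, sdk_pt]
    simp only [map_zero, add_zero, map_add, LinearMap.add_apply,
      sdk_cr k (cr (pt _) θ), sdk_cr k (cr (seg 0 1) θ), add_assoc, sp]
  -- first cap on the faces
  have fs : ∀ t : ℝ, (∀ w ∈ G.Om q q, Cur.at w t = q) →
      cap φ₁ (cr (cr (pt t) (sdk k θ)) (sdk k (cr (seg 0 1) x))) = cr (cr (pt t) (sdk k θ)) u' := fun t ht => by
    rw [hu'd, ← cap_cr_snd]
    refine cap_congr (cr_mem (cr_mem (pt_mem (mem_singleton t)) (sdk_mem k hθ')) (sdk_mem k hv)) fun w hw => ?_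
    have h1 : mp Prod.snd w ∈ sup Sx := mp_mem hw fun z hz => hz.2
    simp only [hφ₁, hT₂, LinearMap.comp_apply]
    rw [mp_comp h1 hatx, mp_comp (mem_sup_univ _) continuous_snd.continuousOn]
    refine congrArg T (mp_congr hw fun z hz => ?_)
    have : z.1.1 = t := hz.1.1
    rw [crE, this, ht _ hz.1.2]
  have ft : ∀ t : ℝ, (∀ w ∈ G.Om p p, Cur.at w t = p) →
      cap φ₁ (cr (sdk k (cr (seg 0 1) θ)) (cr (pt t) (sdk k x))) = cr v' (cr (pt t) (sdk k x)) := fun t ht => by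
    rw [hv'd, ← cap_cr_fst]
    refine cap_congr (cr_mem (sdk_mem k hu) (cr_mem (pt_mem (mem_singleton t)) (sdk_mem k hx'))) fun w hw => ?_
    have h1 : mp Prod.fst w ∈ sup Sθ := mp_mem hw fun z hz => hz.1
    simp only [hφ₁, hT₁, LinearMap.comp_apply]
    rw [mp_comp h1 hatθ, mp_comp (mem_sup_univ _) continuous_fst.continuousOn]
    refine congrArg T (mp_congr hw fun z hz => ?_)
    have : z.2.1 = t := hz.2.1
    rw [crE, this, ht _ hz.2.2]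
  have mU : ∀ t : ℝ, cr (pt t) (sdk k θ) ∈ sup (({t} : Set ℝ) ×ˢ G.Om q q) := fun t =>
    cr_mem (pt_mem (mem_singleton t)) (sdk_mem k hθ')
  have mV : ∀ t : ℝ, cr (pt t) (sdk k x) ∈ sup (({t} : Set ℝ) ×ˢ G.Om p p) := fun t =>
    cr_mem (pt_mem (mem_singleton t)) (sdk_mem k hx')
  have c2x : ContinuousOn (fun w => (G.cut q w).2) Dx := continuous_snd.comp_continuousOn cutx
  have c1θ : ContinuousOn (fun w => (G.cut p w).1) Dθ := continuous_fst.comp_continuousOn cutθ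
  have f0 : mp G.crB (cap φ₂ (cr (cr (pt 0) (sdk k θ)) u')) = 0 := by
    have hm := cap_mem φ₂ (cr_mem (mU 0) hu')
    rw [mp_congr (g := fun z => (G.cut q z.2).2) hm fun z hz => ?_,
      ← mp_comp (f := Prod.snd) (mem_sup_univ _) continuous_snd.continuousOn (fun w => (G.cut q w).2),
      cap_deg_snd hφ₂d (hom_cr_pt 0 (hθh.sdk k)) _ (by omega), map_zero]
    have : z.1.1 = 0 := hz.1.1
    rw [crB, this, hd_zero hz.1.2.1, hz.1.2.2.1, cut]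
  have f3 : mp G.crB (cap φ₂ (cr v' (cr (pt 1) (sdk k x)))) = 0 := by
    have hm := cap_mem φ₂ (cr_mem hv' (mV 1))
    rw [mp_congr (g := fun z => (G.cut p z.1).1) hm fun z hz => ?_,
      ← mp_comp (f := Prod.fst) (mem_sup_univ _) continuous_fst.continuousOn (fun w => (G.cut p w).1),
      cap_deg_fst hφ₂d _ (hom_cr_pt 1 (hxh.sdk k)) hed, map_zero]
    have : z.2.1 = 1 := hz.2.1
    rw [crB, this, tl_one hz.2.2.1, hz.2.2.2.2, cut]
  have f1 : mp G.crB (cap φ₂ (cr (cr (pt 1) (sdk k θ)) u')) = cc (sdk k θ) c := by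
    have e1 : cap φ₂ (cr (cr (pt 1) (sdk k θ)) u') =
        cr (cr (pt 1) (sdk k θ)) (cap (ω ∘ₗ mp (fun w => (G.cut q w).1)) u') := by
      rw [← cap_cr_snd (ω ∘ₗ mp (fun w => (G.cut q w).1))]
      refine cap_congr (cr_mem (mU 1) hu') fun w hw => ?_
      simp only [hφ₂, LinearMap.comp_apply]
      rw [mp_comp (mem_sup_univ _) continuous_snd.continuousOn]
      refine congrArg ω (mp_congr hw fun z hz => ?_)
      have : z.1.1 = 1 := hz.1.1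
      rw [crA, this, tl_one hz.1.2.1, hz.1.2.2.2, cut]
    have hm := cap_mem (ω ∘ₗ mp (fun w => (G.cut q w).1)) hu'
    have e2 : sdk k θ = mp Prod.snd (cr (pt (1 : ℝ)) (sdk k θ)) := by rw [mp_snd_cr, aug_pt, one_smul]
    rw [e1, ec, cc, e2, ← mp_cr (mU 1) hm continuous_snd.continuousOn c2x, ← e2,
      mp_comp (f := fun z : (ℝ × Cur n) × (ℝ × Cur n) => (z.1.2, (G.cut q z.2).2)) (cr_mem (mU 1) hm) ((continuous_snd.comp continuous_fst).continuousOn.prodMk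
        (c2x.comp continuousOn_snd fun z hz => hz.2))]
    refine mp_congr (cr_mem (mU 1) hm) fun z hz => ?_
    have h1 : z.1.1 = 1 := hz.1.1
    have h2 := tl_mem hz.2.1.2.1.1 hz.2.1.1
    rw [crB, h1, hd_one hz.1.2.1, conc'_eq_left hz.1.2.1 h2.1 (by rw [hz.1.2.2.2, h2.2.1]; exact hz.2.2),
      hz.1.2.2.2, cut]
  have f2 : mp G.crB (cap φ₂ (cr v' (cr (pt 0) (sdk k x)))) = cc y (sdk k x) := by
    have e1 : cap φ₂ (cr v' (cr (pt 0) (sdk k x))) =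
        cr (cap (ω ∘ₗ mp (fun w => (G.cut p w).2)) v') (cr (pt 0) (sdk k x)) := by
      rw [← cap_cr_fst (ω ∘ₗ mp (fun w => (G.cut p w).2))]
      refine cap_congr (cr_mem hv' (mV 0)) fun w hw => ?_
      simp only [hφ₂, LinearMap.comp_apply]
      rw [mp_comp (mem_sup_univ _) continuous_fst.continuousOn]
      refine congrArg ω (mp_congr hw fun z hz => ?_)
      have : z.2.1 = 0 := hz.2.1
      rw [crA, this, hd_zero hz.2.2.1, hz.2.2.2.1, cut]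
    have hm := cap_mem (ω ∘ₗ mp (fun w => (G.cut p w).2)) hv'
    have e2 : sdk k x = mp Prod.snd (cr (pt (0 : ℝ)) (sdk k x)) := by rw [mp_snd_cr, aug_pt, one_smul]
    rw [e1, ey, cc, e2, ← mp_cr hm (mV 0) c1θ continuous_snd.continuousOn, ← e2,
      mp_comp (f := fun z : (ℝ × Cur n) × (ℝ × Cur n) => ((G.cut p z.1).1, z.2.2)) (cr_mem hm (mV 0)) ((c1θ.comp continuousOn_fst fun z hz => hz.1).prodMk
        (continuous_snd.comp continuous_snd).continuousOn)]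
    refine mp_congr (cr_mem hm (mV 0)) fun z hz => ?_
    have h1 : z.2.1 = 0 := hz.2.1
    have h2 := hd_mem hz.1.1.2.1.1 hz.1.1.1
    rw [crB, h1, tl_zero hz.2.2.1,
      conc'_eq_right h2.1 hz.2.2.1 (by rw [hz.2.2.2.1, h2.2.2, G.ρ_comm]; exact hz.1.2), hz.2.2.2.1, cut]
  have hdW' : dd (mp G.crB (cap φ₂ (cap φ₁ Z))) = cc (sdk k θ) c + cc y (sdk k x) := by
    rw [hdW, hdZ]
    simp only [map_add]
    rw [fs 0 fun w hw => (at_zero w).trans hw.2.1, fs 1 fun w hw => (at_one w).trans hw.2.2,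
      ft 0 fun w hw => (at_zero w).trans hw.2.1, ft 1 fun w hw => (at_one w).trans hw.2.2, f0, f1, f2, f3,
      zero_add, add_zero]
  have m1 := cc_mem_Lv (sdkH_mem k hθ) mc
  have m2 := cc_mem_Lv my (sdkH_mem k hx)
  have mc' : c ∈ sup (G.Om q p) := sup_mono inter_subset_left mc
  have my' : y ∈ sup (G.Om q p) := sup_mono inter_subset_left my
  refine ⟨_, add_mem (add_mem hW (by convert m1 using 4; ring)) (by convert m2 using 4; ring), ?_⟩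
  have d1 := dd_sdkH k θ
  have d2 := dd_sdkH k x
  rw [hθd, map_zero, add_zero] at d1
  rw [hxd, map_zero, add_zero] at d2
  rw [map_add, map_add, hdW', dd_cc (sdkH_mem k hθ') mc', dd_cc my' (sdkH_mem k hx'), d1, d2, hdc, hy0.dd_zero,
    cc_zero_right, cc_zero_left, cc_add_left, cc_add_right, add_zero, zero_add]
  have a1 := add_self (cc (sdk k θ) c)
  have a2 := add_self (cc y (sdk k x))
  calc _ = (cc (sdk k θ) c + cc (sdk k θ) c) + (cc y (sdk k x) + cc y (sdk k x)) + (cc y x + cc θ c) := by abel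
    _ = _ := by rw [a1, a2, zero_add, zero_add]

end Setup
end Crest.Agent.R231
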