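import Crest.Agent.R231.O.Kap

/-! R231, block O: tools for the crossover lemma (double cap products, relatively open covers). -/

set_option autoImplicit false
set_option linter.unusedVariables false
set_option linter.unusedSectionVars false
open Set Filter Topology
open scoped Classical

noncomputable section
namespace Crest.Agent.R231

variable {X Y : Type} [TopologicalSpace X] [TopologicalSpace Y]

theorem cap_two {φ₁ φ₂ : Ch X →ₗ[F2] F2} {A₀ A₁ A₂ : Set X} (h0 : ∀ x ∈ sup A₀, φ₁ x = 0)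
    (h1 : ∀ x ∈ sup A₁, φ₂ x = 0) {c : Ch X} (hc : c ∈ sup A₀ ⊔ sup A₁ ⊔ sup A₂) :
    cap φ₁ c ∈ sup (A₁ ∪ A₂) ∧ cap φ₂ (cap φ₁ c) ∈ sup A₂ := by
  obtain ⟨a, ha, c₂, h₂, rfl⟩ := Submodule.mem_sup.1 hc
  obtain ⟨c₀, h₀, c₁, h₁, rfl⟩ := Submodule.mem_sup.1 ha
  simp only [map_add, cap_zero h₀ h0, zero_add, cap_zero (cap_mem φ₁ h₁) h1]
  exact ⟨add_mem (sup_mono subset_union_left (cap_mem _ h₁)) (sup_mono subset_union_right (cap_mem _ h₂)),
    cap_mem _ (cap_mem _ h₂)⟩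

theorem dd_cap_of {φ : Ch X →ₗ[F2] F2} {S : Set X} (h : ∀ x ∈ sup S, φ (dd x) = 0) {c : Ch X} (hc : c ∈ sup S) :
    dd (cap φ c) = cap φ (dd c) := by
  rw [dd_cap, cap_zero (φ := φ ∘ₗ dd) hc h, add_zero]

theorem exists_open_rel {S A : Set X} (h : ∀ x ∈ A, A ∈ 𝓝[S] x) : ∃ U, IsOpen U ∧ A ⊆ U ∧ S ∩ U ⊆ A := by
  refine ⟨interior (A ∪ Sᶜ), isOpen_interior, fun x hx => ?_, fun x hx => ?_⟩
  · rw [mem_interior_iff_mem_nhds]
    obtain ⟨u, hu, hxu, hs⟩ := mem_nhdsWithin.1 (h x hx)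
    refine Filter.mem_of_superset (hu.mem_nhds hxu) fun y hy => ?_
    by_cases hy' : y ∈ S
    · exact Or.inl (hs ⟨hy, hy'⟩)
    · exact Or.inr hy'
  · rcases interior_subset hx.2 with h | h
    · exact h
    · exact absurd hx.1 h

theorem small_ED {n : ℕ} (G : Setup n) {S : Set X} {E : X → M n × M n} (hE : ContinuousOn E S) {f : X → ℝ}
    (hf : ContinuousOn f {x | x ∈ S ∧ G.ρ (E x).1 (E x).2 < G.δ}) (σ : ℝ) {c : Ch X} (hc : c ∈ sup S) :
    ∃ k₀, ∀ k, k₀ ≤ k → sdk k c ∈ sup {x | x ∈ S ∧ (E x).1 ≠ (E x).2} ⊔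
      sup {x | (x ∈ S ∧ G.ρ (E x).1 (E x).2 < G.δ) ∧ f x < σ} ⊔
      sup {x | (x ∈ S ∧ G.ρ (E x).1 (E x).2 < G.δ) ∧ σ - 1 < f x} := by
  set D := {x | x ∈ S ∧ G.ρ (E x).1 (E x).2 < G.δ} with hD
  have hDn : ∀ x ∈ D, D ∈ 𝓝[S] x := fun x hx => by
    have h1 : ContinuousWithinAt (fun x => G.ρ (E x).1 (E x).2) S x :=
      G.continuous_ρ.continuousAt.comp_continuousWithinAt (hE x hx.1)
    filter_upwards [self_mem_nhdsWithin, h1.eventually_lt_const hx.2] with y h h' using ⟨h, h'⟩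
  have hfw : ∀ x ∈ D, ContinuousWithinAt f S x := fun x hx => (hf x hx).mono_of_mem_nhdsWithin (hDn x hx)
  obtain ⟨U₀, o₀, a₀, b₀⟩ := exists_open_rel (S := S) (A := {x | x ∈ S ∧ (E x).1 ≠ (E x).2}) fun x hx => by
    have h1 : ContinuousWithinAt (fun x => dist (E x).1 (E x).2) S x :=
      continuous_dist.continuousAt.comp_continuousWithinAt (hE x hx.1)
    filter_upwards [self_mem_nhdsWithin, h1.eventually_const_lt (dist_pos.2 hx.2)] with y h h'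
      using ⟨h, dist_pos.1 h'⟩
  obtain ⟨U₁, o₁, a₁, b₁⟩ := exists_open_rel (S := S) (A := {x | x ∈ D ∧ f x < σ}) fun x hx => by
    filter_upwards [hDn x hx.1, (hfw x hx.1).eventually_lt_const hx.2] with y h h' using ⟨h, h'⟩
  obtain ⟨U₂, o₂, a₂, b₂⟩ := exists_open_rel (S := S) (A := {x | x ∈ D ∧ σ - 1 < f x}) fun x hx => by
    filter_upwards [hDn x hx.1, (hfw x hx.1).eventually_const_lt hx.2] with y h h' using ⟨h, h'⟩
  obtain ⟨k₀, hk⟩ := small3 o₀ o₁ o₂ (A := S) (fun x hx => by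
    by_cases h : (E x).1 = (E x).2
    · have hxD : x ∈ D := ⟨hx, by rw [h, G.ρ_self]; exact G.δ_pos⟩
      by_cases h' : f x < σ
      · exact Or.inl (Or.inr (a₁ ⟨hxD, h'⟩))
      · exact Or.inr (a₂ ⟨hxD, by linarith [not_lt.1 h']⟩)
    · exact Or.inl (Or.inl (a₀ ⟨hx, h⟩))) hc
  exact ⟨k₀, fun k h => sup_le_sup (sup_le_sup (sup_mono b₀) (sup_mono b₁)) (sup_mono b₂) (hk k h)⟩

theorem seg01_mem : seg 0 1 ∈ sup (Icc (0 : ℝ) 1) := by
  simpa using seg_mem 0 1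

end Crest.Agent.R231
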