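import Crest.Agent.R231.Act
import Crest.Agent.R231.T.Susp
import Crest.Agent.R231.T.Cap
import Crest.Agent.R231.T.Rv

/-!
# R231, block O: Moore paths, fibrations over the sphere, poles (definitions; FROZEN)

A path is `(T, f) : Cur n` with `f` `1`-Lipschitz for `ρ`, constant on `(-∞,0]` and on `[T,∞)`; the level is the duration `T`.
-/

set_option autoImplicit false
set_option linter.unusedVariables false
open Set
open scoped Classical

noncomputable section
namespace Crest.Agent.R231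

variable {n : ℕ}

def Cur.st (p : Cur n) : M n := p.ev 0
def Cur.fi (p : Cur n) : M n := p.ev p.1
/-- the point at the relative time `u` -/
def Cur.at (p : Cur n) (u : ℝ) : M n := p.ev (u * p.1)
def cst (x : M n) : Cur n := mkC 0 (fun _ => x)
def conc (p q : Cur n) : Cur n := mkC (p.1 + q.1) (fun t => if t ≤ p.1 then p.ev t else q.ev (t - p.1))
/-- initial piece `[0, uT]` -/
def hd (u : ℝ) (p : Cur n) : Cur n := mkC (u * p.1) (fun t => p.ev (min t (u * p.1)))
/-- final piece `[uT, T]` -/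
def tl (u : ℝ) (p : Cur n) : Cur n := mkC ((1 - u) * p.1) (fun t => p.ev (max t 0 + u * p.1))
def rev (p : Cur n) : Cur n := mkC p.1 (fun t => p.ev (p.1 - t))
/-- rotation of a closed path -/
def rot (u : ℝ) (p : Cur n) : Cur n := conc (tl u p) (hd u p)
/-- curves of level `< l` -/
def Lv (n : ℕ) (l : ℝ) : Set (Cur n) := {p | p.1 < l}
def anti (x : M n) : M n := -x
/-- the two poles -/
def pl (n : ℕ) (a : Bool) : M n := if a then north n else anti (north n)

namespace Setup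
variable (G : Setup n)

def PS : Set (Cur n) := {p | 0 ≤ p.1 ∧ (∀ s t, G.ρ (p.ev s) (p.ev t) ≤ |s - t|) ∧
  (∀ t, t ≤ 0 → p.ev t = p.ev 0) ∧ ∀ t, p.1 ≤ t → p.ev t = p.ev p.1}

/-- paths from `x` to `y` -/
def Om (x y : M n) : Set (Cur n) := {p | p ∈ G.PS ∧ p.st = x ∧ p.fi = y}

/-- closed paths -/
def CP : Set (Cur n) := {p | p ∈ G.PS ∧ p.st = p.fi}

/-- the short geodesic as a path -/
def gp (x y : M n) : Cur n := mkC (G.ρ x y) (fun t => G.gs x y (max 0 (min 1 (t / G.ρ x y))))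

/-- concatenation bridging a small gap -/
def conc' (p q : Cur n) : Cur n := conc p (conc (G.gp p.fi q.st) q)

/-- cutting the path `q.2` at the relative time `q.1` and joining both pieces to `z` -/
def cut (z : M n) (q : ℝ × Cur n) : Cur n × Cur n := (G.conc' (hd q.1 q.2) (cst z), G.conc' (cst z) (tl q.1 q.2))

/-- the cut chain of `x` at `z` for the cochain `T` on the sphere -/
def kap (T : Ch (M n) →ₗ[F2] F2) (k : ℕ) (z : M n) (x : Ch (Cur n)) : Ch (Cur n × Cur n) :=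
  mp (G.cut z) (cap (T ∘ₗ mp (fun q : ℝ × Cur n => q.2.at q.1)) (sdk k (cr (seg 0 1) x)))

/-- closed path to loop -/
def toL (p : Cur n) : G.Loop := G.toLoop (mkC p.1 (fun t => p.ev (p.1 * Int.fract t)))

/-- loop to closed path -/
def toP (γ : G.Loop) : Cur n := mkC γ.T (fun t => γ.ev (max 0 (min γ.T t) / γ.T))

/-- null-homologous in `Ω(x,y)` -/
def Null (x y : M n) (c : Ch (Cur n)) : Prop := ∃ w ∈ sup (G.Om x y), dd w = c

/-- a cycle representing a non-zero class of degree `k (n-1)` of `Ω(x,y)` -/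
def Gen (x y : M n) (k : ℕ) (θ : Ch (Cur n)) : Prop :=
  θ ∈ sup (G.Om x y) ∧ Hom (k * (n - 1)) θ ∧ dd θ = 0 ∧ ¬ G.Null x y θ

/-- the level at which the generator of degree `k (n-1)` is born -/
def lev (x y : M n) (k : ℕ) : ℝ := sInf {l | ∃ θ, G.Gen x y k θ ∧ θ ∈ sup (Lv n l)}

/-- a cocycle dual to the generator, vanishing below its level -/
def IsOm (x y : M n) (k : ℕ) (ω : Ch (Cur n) →ₗ[F2] F2) : Prop :=
  Deg (k * (n - 1)) ω ∧ (∀ w ∈ sup (G.Om x y), ω (dd w) = 0) ∧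
    (∀ c ∈ sup (G.Om x y ∩ Lv n (G.lev x y k)), ω c = 0) ∧ ∀ θ, G.Gen x y k θ → ω θ = 1

end Setup

/-- a space over the sphere with a level function and a path-lifting action -/
structure Fib (G : Setup n) (X : Type) [TopologicalSpace X] where
  P : Set X
  lv : X → ℝ
  lv_cont : Continuous lv
  e : X → M n
  e_cont : ContinuousOn e P
  act : Cur n × X → X
  act_cont : ContinuousOn act {q | q.1 ∈ G.PS ∧ q.2 ∈ P ∧ q.1.fi = e q.2}
  act_mem : ∀ v x, v ∈ G.PS → x ∈ P → v.fi = e x → act (v, x) ∈ P ∧ e (act (v, x)) = v.st ∧ lv (act (v, x)) ≤ lv x + 2 * v.1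
  act_cst : ∀ x ∈ P, act (cst (e x), x) = x
  act_conc : ∀ v w x, v ∈ G.PS → w ∈ G.PS → x ∈ P → v.fi = w.st → w.fi = e x → act (conc v w, x) = act (v, act (w, x))

/-- chart about `p` (cube radii `1 < 2 < 3`) and a bounded family of paths from `-p` to the points outside the small cube -/
structure Pole (G : Setup n) (p : M n) where
  ch : (Fin n → ℝ) → M n
  ci : M n → (Fin n → ℝ)
  U : Set (M n)
  U_open : IsOpen U
  ch_cont : ContinuousOn ch (Metric.ball 0 3)
  ci_cont : ContinuousOn ci U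
  ch_mem : MapsTo ch (Metric.ball 0 3) U
  ci_mem : MapsTo ci U (Metric.ball 0 3)
  ci_ch : ∀ x ∈ Metric.ball (0 : Fin n → ℝ) 3, ci (ch x) = x
  ch_ci : ∀ z ∈ U, ch (ci z) = z
  ch_zero : ch 0 = p
  U_small : ∀ z ∈ U, G.ρ p z < G.δ
  anti_notMem : anti p ∉ U
  v : M n → Cur n
  Cv : ℝ
  Cv_nonneg : 0 ≤ Cv
  v_cont : ContinuousOn v (ch '' Metric.closedBall 0 1)ᶜ
  v_mem : ∀ z, z ∉ ch '' Metric.closedBall 0 1 →
    v z ∈ G.Om (anti p) z ∧ (v z).1 ≤ Cv ∧ ∀ t, (v z).ev t ∉ ch '' Metric.closedBall 0 1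
  v_anti : ∀ t, (v (anti p)).ev t = anti p

namespace Pole
variable {G : Setup n} {p : M n} (Pl : Pole G p)
/-- the small closed cube about `p` -/
def K : Set (M n) := Pl.ch '' Metric.closedBall 0 1
/-- the local fundamental chain at `p` -/
def β : Ch (M n) := mp Pl.ch (fund n 2)
/-- the constant by which the Gysin constructions raise the level -/
def C : ℝ := 10 * G.δ + 4 * Pl.Cv
/-- point Thom cocycle at `p` -/
def IsThom (T : Ch (M n) →ₗ[F2] F2) : Prop :=
  Deg n T ∧ (∀ c, T (dd c) = 0) ∧ (∀ c ∈ sup ({p}ᶜ : Set (M n)), T c = 0) ∧ T Pl.β = 1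
end Pole

/-- diagonal Thom cocycle -/
def IsDiag (G : Setup n) (T : Ch (M n × M n) →ₗ[F2] F2) : Prop :=
  Deg n T ∧ (∀ c, T (dd c) = 0) ∧ (∀ c ∈ sup {q : M n × M n | q.1 ≠ q.2}, T c = 0) ∧
    ∀ (p : M n) (Pl : Pole G p), Pl.IsThom (T ∘ₗ mp (fun z => (z, p))) ∧ Pl.IsThom (T ∘ₗ mp (fun z => (p, z)))

namespace Fib
variable {G : Setup n} {X : Type} [TopologicalSpace X] (F : Fib G X)
/-- the part of `P` over `A` of level `< l` -/
def L (A : Set (M n)) (l : ℝ) : Set X := {x | x ∈ F.P ∧ F.e x ∈ A ∧ F.lv x < l}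
/-- the part of `P` over `A` -/
def ov (A : Set (M n)) : Set X := {x | x ∈ F.P ∧ F.e x ∈ A}
/-- move a point lying over a point near `p` into the fibre over `p` -/
def nm (p : M n) (x : X) : X := F.act (G.gp p (F.e x), x)
/-- spread the fibre over `p` over a neighbourhood of `p` -/
def mm (p : M n) (q : M n × X) : X := F.act (G.gp q.1 p, q.2)
/-- retraction of the part over the complement of the cube onto the fibre over `-p` -/
def rt {p : M n} (Pl : Pole G p) (x : X) : X := F.act (Pl.v (F.e x), x)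
/-- Thom (Gysin) map -/
def Th (p : M n) (T : Ch (M n) →ₗ[F2] F2) (k : ℕ) : Ch X →ₗ[F2] Ch X :=
  mp (F.nm p) ∘ₗ cap (T ∘ₗ mp F.e) ∘ₗ sdk k
/-- `sdk k w` is small enough for the Thom map -/
def Sm {p : M n} (Pl : Pole G p) (k : ℕ) (w : Ch X) : Prop := sdk k w ∈ sup (F.ov Pl.U) ⊔ sup (F.ov {p}ᶜ)
/-- the relative cycle `β × y` -/
def bx {p : M n} (Pl : Pole G p) : Ch X →ₗ[F2] Ch X := mp (F.mm p) ∘ₗ cr Pl.β
/-- connecting map from the fibre over `p` to the fibre over `-p` ("multiplication by `θ₁`") -/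
def con {p : M n} (Pl : Pole G p) : Ch X →ₗ[F2] Ch X := mp (F.rt Pl) ∘ₗ dd ∘ₗ F.bx Pl

/-- product with a parameter space -/
def prod {Y : Type} [TopologicalSpace Y] (B : Set Y) : Fib G (X × Y) where
  P := F.P ×ˢ B
  lv := fun x => F.lv x.1
  lv_cont := F.lv_cont.comp continuous_fst
  e := fun x => F.e x.1
  e_cont := F.e_cont.comp continuousOn_fst (fun x hx => hx.1)
  act := fun q => (F.act (q.1, q.2.1), q.2.2)
  act_cont := by
    refine ContinuousOn.prodMk (F.act_cont.comp (by fun_prop) ?_) (by fun_prop)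
    exact fun q hq => ⟨hq.1, hq.2.1.1, hq.2.2⟩
  act_mem := fun v x hv hx h => ⟨⟨(F.act_mem v x.1 hv hx.1 h).1, hx.2⟩, (F.act_mem v x.1 hv hx.1 h).2⟩
  act_cst := fun x hx => by rw [F.act_cst x.1 hx.1]
  act_conc := fun v w x hv hw hx h1 h2 => by rw [F.act_conc v w x.1 hv hw hx.1 h1 h2]
end Fib

end Crest.Agent.R231
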