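import Crest.Agent.R231.O.Omega

/-! R231, block O: Künneth surjectivity for `Ω × B`.
Strong induction on the degree `i`, for all end points at once (transport in the first factor, `trans_back`-type homotopy times `id`).
For `z` a cycle in `Ω(q,q) × B`, `q = anti p`, use `F = (pathFib q).prod B`, `w = hty ((u,(γ,y)) ↦ (tl u γ, y)) z`,
`dd w = z + cr (pt (cst q)) (mp snd z)`; `surj` gives `y` in `Ω(p,q) × B`, whose degree-`(i+1-n)` part suffices (`pr_Bdy`, `bx_hom`; it may be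
taken `0` if `i + 1 < n`); `con_of_Bdy`, induction hypothesis, `con_dd`, `con_prod`, `con_mem`, `con_hom`. -/

set_option autoImplicit false
set_option linter.unusedVariables false
set_option linter.unusedSectionVars false
open Set
open scoped Classical

noncomputable section
namespace Crest.Agent.R231
namespace Setup
variable {n : ℕ} {G : Setup n}

variable (G) in
/-- cross products of cycles, modulo boundaries -/
def KS {Y : Type} [TopologicalSpace Y] (x y : M n) (B : Set Y) (i : ℕ) : Submodule F2 (Ch (Cur n × Y)) :=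
  Submodule.span F2 {z | ∃ (k j : ℕ) (θ : Ch (Cur n)) (v : Ch Y), k * (n - 1) + j = i ∧ θ ∈ sup (G.Om x y) ∧
    Hom (k * (n - 1)) θ ∧ dd θ = 0 ∧ v ∈ sup B ∧ Hom j v ∧ dd v = 0 ∧ z = cr θ v} ⊔ (sup (G.Om x y ×ˢ B)).map dd

section aux
variable {Y : Type} [TopologicalSpace Y] {B : Set Y}

theorem kun_ov (a b : M n) : ((G.pathFib b).prod B).ov {a} = G.Om a b ×ˢ B := by
  ext z
  exact ⟨fun h => ⟨⟨h.1.1.1, h.2, h.1.1.2⟩, h.1.2⟩, fun h => ⟨⟨⟨h.1.1, h.1.2.2⟩, h.2⟩, h.1.2.1⟩⟩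

theorem kun_dd_mem {x y : M n} {i : ℕ} {w : Ch (Cur n × Y)} (hw : w ∈ sup (G.Om x y ×ˢ B)) :
    dd w ∈ G.KS x y B i :=
  Submodule.mem_sup_right ⟨w, hw, rfl⟩

theorem kun_cr_mem {x y : M n} {i k j : ℕ} {θ : Ch (Cur n)} {v : Ch Y} (h : k * (n - 1) + j = i)
    (h1 : θ ∈ sup (G.Om x y)) (h2 : Hom (k * (n - 1)) θ) (h3 : dd θ = 0) (h4 : v ∈ sup B) (h5 : Hom j v)
    (h6 : dd v = 0) : cr θ v ∈ G.KS x y B i :=
  Submodule.mem_sup_left (Submodule.subset_span ⟨k, j, θ, v, h, h1, h2, h3, h4, h5, h6, rfl⟩)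

theorem kun_map {x y x' y' : M n} {i i' : ℕ} (φ : Ch (Cur n × Y) →ₗ[F2] Ch (Cur n × Y))
    (h1 : ∀ (k j : ℕ) (θ : Ch (Cur n)) (v : Ch Y), k * (n - 1) + j = i → θ ∈ sup (G.Om x y) →
      Hom (k * (n - 1)) θ → dd θ = 0 → v ∈ sup B → Hom j v → dd v = 0 → φ (cr θ v) ∈ G.KS x' y' B i')
    (h2 : ∀ w ∈ sup (G.Om x y ×ˢ B), φ (dd w) ∈ G.KS x' y' B i') {z : Ch (Cur n × Y)}
    (hz : z ∈ G.KS x y B i) : φ z ∈ G.KS x' y' B i' := by
  have : G.KS x y B i ≤ (G.KS x' y' B i').comap φ := by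
    refine sup_le (Submodule.span_le.2 ?_) ?_
    · rintro _ ⟨k, j, θ, v, a1, a2, a3, a4, a5, a6, a7, rfl⟩
      exact h1 k j θ v a1 a2 a3 a4 a5 a6 a7
    · rintro _ ⟨w, hw, rfl⟩
      exact h2 w hw
  exact this hz

theorem kun_cont {x y b : M n} {u : Cur n} (hu : u ∈ G.Om x y) : ContinuousOn (conc u) (G.Om y b) :=
  continuousOn_conc.comp (f := fun c : Cur n => (u, c)) (by fun_prop)
    fun c hc => ⟨hu.1, hc.1, hu.2.2.trans hc.2.1.symm⟩

theorem kun_cont' {x y b : M n} {u : Cur n} (hu : u ∈ G.Om x y) :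
    ContinuousOn (fun z : Cur n × Y => (conc u z.1, z.2)) (G.Om y b ×ˢ B) :=
  ((kun_cont hu).comp continuousOn_fst fun z hz => hz.1).prodMk continuousOn_snd

theorem kun_maps {x y b : M n} {u : Cur n} (hu : u ∈ G.Om x y) :
    MapsTo (fun z : Cur n × Y => (conc u z.1, z.2)) (G.Om y b ×ˢ B) (G.Om x b ×ˢ B) :=
  fun z hz => ⟨conc_mem hu hz.1, hz.2⟩

theorem kun_trans {x y b : M n} {u : Cur n} (hu : u ∈ G.Om x y) {i : ℕ} {z : Ch (Cur n × Y)}
    (hz : z ∈ G.KS y b B i) : mp (fun z : Cur n × Y => (conc u z.1, z.2)) z ∈ G.KS x b B i := by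
  refine kun_map _ (fun k j θ v a1 a2 a3 a4 a5 a6 a7 => ?_) (fun w hw => ?_) hz
  · have := mp_cr (f := conc u) (g := fun y : Y => y) a2 a5 (kun_cont hu) continuousOn_id
    rw [this, mp_id]
    refine kun_cr_mem a1 (mp_mem a2 fun c hc => conc_mem hu hc) (a3.mp _) ?_ a5 a6 a7
    rw [← mp_dd a2 (kun_cont hu), a4, map_zero]
  · rw [mp_dd hw (kun_cont' hu)]
    exact kun_dd_mem (mp_mem hw (kun_maps hu))

theorem kun_reduce {x y b : M n} {u : Cur n} (hu : u ∈ G.Om x y) {i : ℕ}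
    (h : ∀ z ∈ sup (G.Om y b ×ˢ B), Hom i z → dd z = 0 → z ∈ G.KS y b B i) {z : Ch (Cur n × Y)}
    (hz : z ∈ sup (G.Om x b ×ˢ B)) (hh : Hom i z) (hd : dd z = 0) : z ∈ G.KS x b B i := by
  have hu' := rev_mem hu
  have h1 := kun_trans hu (h _ (mp_mem hz (kun_maps hu')) (hh.mp _)
    (by rw [← mp_dd hz (kun_cont' hu'), hd, map_zero]))
  rw [mp_comp hz (kun_cont' hu')] at h1
  obtain ⟨l, hl⟩ := ((G.pathFib b).prod B).exists_L (kun_ov (G := G) (B := B) x b ▸ hz)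
  have h2 := ((G.pathFib b).prod B).cancel (S := ((G.pathFib b).prod B).L {x} l) (S' := ∅) (v := fun _ => u)
    (x := fun z => z) continuousOn_const continuousOn_id (A := {x}) (A' := ∅) (l := l) (a := u.1)
    (fun y hy => ⟨hu.1, hu.2.1.trans hy.2.1.symm, le_rfl, hy⟩) (empty_subset _) (fun _ h => h.elim)
    (mem_Cyc_empty.2 ⟨hl, hd⟩)
  obtain ⟨w, hw, hw2⟩ := mem_Bdy.1 h2
  have h3 : ((G.pathFib b).prod B).L ∅ (l + 4 * u.1) = ∅ := eq_empty_of_forall_notMem fun _ h => h.2.1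
  rw [h3, sup_empty, Submodule.mem_bot, mp_id,
    mp_congr (f := fun y => ((G.pathFib b).prod B).act (conc u (rev u), y))
      (g := fun z : Cur n × Y => (conc u (conc (rev u) z.1), z.2)) hz
      fun z hz => Prod.ext (conc_assoc hu.1 hu'.1 hz.1.1) rfl] at hw2
  have h4 := kun_dd_mem (i := i) (kun_ov (G := G) (B := B) x b ▸ sup_mono (Fib.L_sub_ov _ subset_rfl) hw)
  have h5 := add_mem h1 h4
  convert h5 using 1
  linear_combination (norm := ch2) hw2

theorem kun_con (hn : 2 ≤ n) {p : M n} (Pl : Pole G p) {i : ℕ} {y : Ch (Cur n × Y)}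
    (hy : y ∈ G.KS p (anti p) B i) :
    ((G.pathFib (anti p)).prod B).con Pl y ∈ G.KS (anti p) (anti p) B (i + (n - 1)) := by
  refine kun_map _ (fun k j θ v a1 a2 a3 a4 a5 a6 a7 => ?_) (fun w hw => ?_) hy
  · have a2' : θ ∈ sup ((G.pathFib (anti p)).ov {p}) := (G.pathFib_ov p (anti p)).symm ▸ a2
    rw [Fib.con_prod _ Pl B a2' a4 a5 a7]
    obtain ⟨l, hl⟩ := (G.pathFib (anti p)).exists_L a2'
    obtain ⟨b1, b2⟩ := Fib.con_mem _ Pl hl a4
    refine kun_cr_mem (k := k + 1) (j := j) (by rw [add_mul, one_mul]; omega)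
      (G.pathFib_ov (anti p) (anti p) ▸ sup_mono (Fib.L_sub_ov _ subset_rfl) b1) ?_ b2 a5 a6 a7
    rw [add_mul, one_mul]
    exact Fib.con_hom _ Pl (by omega) a3
  · obtain ⟨l, hl⟩ := ((G.pathFib (anti p)).prod B).exists_L (kun_ov (G := G) (B := B) p (anti p) ▸ hw)
    obtain ⟨z', h1, h2⟩ := Fib.con_dd _ Pl hl
    rw [← h2]
    exact kun_dd_mem (kun_ov (G := G) (B := B) (anti p) (anti p) ▸ sup_mono (Fib.L_sub_ov _ subset_rfl) h1)

theorem kun_pr_bx {X : Type} [TopologicalSpace X] (F : Fib G X) {p : M n} (Pl : Pole G p) (m : ℕ) (y : Ch X) :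
    pr m (F.bx Pl y) = if n ≤ m then F.bx Pl (pr (m - n) y) else 0 := by
  induction y using Ch_induction with
  | h0 => simp
  | hadd a b ha hb =>
    rw [map_add, map_add, ha, hb, map_add, map_add]
    split_ifs <;> simp
  | hcb q _ =>
    have h := F.bx_hom Pl (hom_cb q)
    rw [pr_cb]
    by_cases hm : m = n + q.dim
    · rw [if_pos (by omega), if_pos (by omega), hm]
      exact h
    · rw [h.pr_ne hm]
      split_ifs with h1 h2
      · omega
      · simp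
      · rfl

end aux

theorem kunneth (hn : 2 ≤ n) {Y : Type} [TopologicalSpace Y] (B : Set Y) (i : ℕ) (x y : M n) {z : Ch (Cur n × Y)}
    (hz : z ∈ sup (G.Om x y ×ˢ B)) (hh : Hom i z) (hd : dd z = 0) : z ∈ G.KS x y B i := by
  induction i using Nat.strong_induction_on generalizing x y z with
  | _ i ih =>
  obtain ⟨u, hu⟩ := exists_path (G := G) hn x y
  refine kun_reduce hu (fun z hz hh hd => ?_) hz hh hd
  clear hu u
  obtain ⟨p, rfl⟩ : ∃ p, y = anti p := ⟨anti y, (anti_anti y).symm⟩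
  obtain ⟨Pl⟩ := G.exists_pole p
  set F := (G.pathFib (anti p)).prod B with hF
  obtain ⟨l₀, hl₀⟩ := F.exists_L (kun_ov (G := G) (B := B) (anti p) (anti p) ▸ hz)
  have hl : z ∈ sup (F.L {anti p} (max l₀ 1)) := sup_mono (F.L_mono subset_rfl (le_max_left _ _)) hl₀
  set l := max l₀ 1 with hl'
  have hl1 : (0 : ℝ) < l := lt_max_of_lt_right one_pos
  set H : ℝ × (Cur n × Y) → Cur n × Y := fun q => (tl q.1 q.2.1, q.2.2) with hH
  have hHc : ContinuousOn H (Icc 0 1 ×ˢ (G.Om (anti p) (anti p) ×ˢ B)) :=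
    (continuousOn_tl.comp (f := fun q : ℝ × (Cur n × Y) => (q.1, q.2.1)) (by fun_prop)
      fun q hq => ⟨hq.1, hq.2.1.1⟩).prodMk (by fun_prop)
  have hw : hty H z ∈ sup (F.L univ l) := by
    refine hty_mem hl fun q hq => ?_
    have h1 := tl_mem hq.2.1.1.1 hq.1
    refine ⟨⟨⟨h1.1, h1.2.2.trans hq.2.1.1.2⟩, hq.2.1.2⟩, trivial, ?_⟩
    have h2 : q.2.1.1 < l := hq.2.2.2
    have h3 : 0 ≤ q.2.1.1 := hq.2.1.1.1.1
    have h4 := hq.1.1
    change (1 - q.1) * q.2.1.1 < l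
    nlinarith
  have hv : mp Prod.snd z ∈ sup B := mp_mem hz fun q hq => hq.2
  have hvd : dd (mp Prod.snd z) = 0 := by rw [← mp_dd hz continuousOn_snd, hd, map_zero]
  have hdw : dd (hty H z) = z + cr (pt (cst (anti p))) (mp Prod.snd z) := by
    have := dd_hty hz hHc
    rw [hd, map_zero, add_zero, 
      mp_congr (f := fun x => H (0, x)) (g := fun q => q) hz fun q hq => Prod.ext (tl_zero hq.1.1) rfl, mp_id,
      mp_congr (f := fun x => H (1, x)) (g := fun q => (cst (anti p), q.2)) hz fun q hq =>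
        Prod.ext ((tl_one hq.1.1).trans (congrArg cst hq.1.2.2)) rfl] at this
    rw [this, cr_pt_left, mp_comp hz continuousOn_snd]
  have hc : z + cr (pt (cst (anti p))) (mp Prod.snd z) ∈ sup (F.L {anti p} l) := by
    refine add_mem hl ?_
    rw [cr_pt_left]
    exact mp_mem hv fun v hv => ⟨⟨⟨(cst_mem (G := G) _).1, rfl⟩, hv⟩, rfl, hl1⟩
  have hwh : Hom (i + 1) (hty H z) := by rw [Hom, ← hty_pr, hh]
  obtain ⟨y, hy1, hy2, hy3⟩ := F.surj Pl (w := hty H z) (l := l) (mem_Cyc.2 ⟨hw, hdw ▸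
    sup_mono (F.L_mono (singleton_subset_iff.2 (Fib.anti_notMem_K Pl)) le_rfl) hc⟩)
  have hy4 := pr_Bdy (i + 1) hy3
  rw [map_add, hwh, kun_pr_bx] at hy4
  have key : ∃ y' ∈ sup (F.L {p} (l + Pl.C)), dd y' = 0 ∧ F.con Pl y' ∈ G.KS (anti p) (anti p) B i ∧
      hty H z + F.bx Pl y' ∈ Bdy (F.L univ (l + Pl.C)) (F.L Pl.Kᶜ (l + Pl.C)) := by
    split_ifs at hy4 with h
    · have h1 := mem_Cyc_empty.1 (pr_Cyc (i + 1 - n) (mem_Cyc_empty.2 ⟨hy1, hy2⟩))
      refine ⟨_, h1.1, h1.2, ?_, hy4⟩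
      have h2 := kun_con hn Pl (ih (i + 1 - n) (by omega) p (anti p)
        (kun_ov (G := G) (B := B) p (anti p) ▸ sup_mono (Fib.L_sub_ov _ subset_rfl) h1.1) (hom_pr _ _) h1.2)
      rwa [show i + 1 - n + (n - 1) = i by omega] at h2
    · exact ⟨0, zero_mem _, map_zero _, by rw [map_zero]; exact zero_mem _, by rw [map_zero]; exact hy4⟩
  obtain ⟨y', k1, k2, k3, k4⟩ := key
  obtain ⟨z', m1, m2⟩ := F.con_of_Bdy Pl
    (sup_mono (F.L_mono subset_rfl (le_add_of_nonneg_right (Fib.C_nonneg Pl))) hc) hdw k1 k2 k4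
  have m3 := kun_dd_mem (i := i)
    (kun_ov (G := G) (B := B) (anti p) (anti p) ▸ sup_mono (Fib.L_sub_ov _ subset_rfl) m1)
  have m4 := kun_cr_mem (k := 0) (j := i) (i := i) (by simp) (pt_mem (cst_mem (G := G) (anti p)))
    (by simpa using hom_pt _) (dd_pt _) hv (hh.mp _) hvd
  convert add_mem (add_mem m3 m4) k3 using 1
  linear_combination (norm := ch2) m2

end Setup
end Crest.Agent.R231
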