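import Crest.Agent.R231.O.Bars
import Crest.Agent.R231.O.Kun

/-! R231, block O: the BV operator on the generators.  With `q = pl a`, `p = pl (!a)`, choose `ω₁ i : IsOm q p i`, `ω₂ j : IsOm p q j`.
The functionals `ξ z = ω (mp (conc ∘ swap) z)` and `η z = ∑_{i+j=k} ω₂ j (mp snd (cap (ω₁ i ∘ mp fst) z))` kill boundaries of
`Ω(q,p) × Ω(p,q)` (`dd_cap`) and agree on the cross products of cycles of total degree `k (n-1)` (`cap_cr_fst`, `mp_snd_cr`, `aug_cap`;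
`gen_swap`), hence on `kap` (`kunneth`); `η kap = k + 1` by `coef`.
`gen_swap`: `mp swap (cr θ v) = rv (cr (rv v) (rv θ))` (`rv_cr`, `rv_rv`), `mp conc` commutes with `rv`, and `rv` preserves generators. -/

set_option autoImplicit false
set_option linter.unusedVariables false
set_option linter.unusedSectionVars false
open Set
open scoped Classical

noncomputable section
namespace Crest.Agent.R231
namespace Setup
variable {n : ℕ} {G : Setup n}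

theorem Gen.rv {x y : M n} {k : ℕ} {θ : Ch (Cur n)} (h : G.Gen x y k θ) : G.Gen x y k (R231.rv θ) := by
  obtain ⟨h1, h2, h3, h4⟩ := h
  refine ⟨rv_mem h1, ?_, by rw [dd_rv, h3, map_zero], fun ⟨w, hw, hd⟩ => h4 ⟨R231.rv w, rv_mem hw, ?_⟩⟩
  · rw [Hom, ← rv_pr, h2]
  · rw [dd_rv, hd, rv_rv]

theorem dl_cont {x y z : M n} :
    ContinuousOn (fun q : Cur n × Cur n => conc q.1 q.2) (G.Om x y ×ˢ G.Om y z) :=
  continuousOn_conc.mono fun q hq => ⟨hq.1.1, hq.2.1, hq.1.2.2.trans hq.2.2.1.symm⟩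

theorem dl_cont' {x y z : M n} :
    ContinuousOn (fun q : Cur n × Cur n => conc q.2 q.1) (G.Om y z ×ˢ G.Om x y) :=
  (dl_cont (G := G) (x := x) (y := y) (z := z)).comp continuous_swap.continuousOn fun q hq => ⟨hq.2, hq.1⟩

theorem gen_swap (hn : 2 ≤ n) {x y z : M n} {i j : ℕ} {θ v : Ch (Cur n)} (h : G.Gen y z i θ) (h' : G.Gen x y j v) :
    G.Gen x z (i + j) (mp (fun q : Cur n × Cur n => conc q.2 q.1) (cr θ v)) := by
  have e1 : mp Prod.swap (cr θ v) = R231.rv (cr (R231.rv v) (R231.rv θ)) := by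
    rw [rv_cr, rv_rv, rv_rv]
  have e2 : mp (fun q : Cur n × Cur n => conc q.2 q.1) (cr θ v) = R231.rv (cc (R231.rv v) (R231.rv θ)) := by
    rw [cc, ← mp_rv (cr_mem (rv_mem h'.1) (rv_mem h.1)) dl_cont, ← e1,
      mp_comp (mem_sup_univ _) continuous_swap.continuousOn]
    rfl
  rw [e2, add_comm]
  exact (gen_cc hn h'.rv h.rv).rv

theorem dl_xi {p q : M n} {k : ℕ} {ω : Ch (Cur n) →ₗ[F2] F2} (hω : G.IsOm p p k ω) {w : Ch (Cur n × Cur n)}
    (hw : w ∈ sup (G.Om q p ×ˢ G.Om p q)) : ω (mp (fun q : Cur n × Cur n => conc q.2 q.1) (dd w)) = 0 := by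
  rw [mp_dd hw dl_cont']
  exact hω.2.1 _ (mp_mem hw fun z hz => conc_mem hz.2 hz.1)

theorem dl_eta {p q : M n} {i j : ℕ} {ω₁ ω₂ : Ch (Cur n) →ₗ[F2] F2} (h₁ : G.IsOm q p i ω₁) (h₂ : G.IsOm p q j ω₂)
    {w : Ch (Cur n × Cur n)} (hw : w ∈ sup (G.Om q p ×ˢ G.Om p q)) :
    ω₂ (mp Prod.snd (cap (ω₁ ∘ₗ mp Prod.fst) (dd w))) = 0 := by
  have e1 : cap ((ω₁ ∘ₗ mp Prod.fst) ∘ₗ dd) w = 0 := by
    refine cap_zero hw fun c hc => ?_
    simp only [LinearMap.comp_apply]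
    rw [mp_dd hc continuous_fst.continuousOn]
    exact h₁.2.1 _ (mp_mem hc fun z hz => hz.1)
  have e2 := dd_cap (ω₁ ∘ₗ mp Prod.fst) w
  rw [e1, add_zero] at e2
  rw [← e2, mp_dd (mem_sup_univ _) continuous_snd.continuousOn]
  exact h₂.2.1 _ (mp_mem (cap_mem _ hw) fun z hz => hz.2)

theorem dl_agree (hn : 2 ≤ n) {p q : M n} {k : ℕ} {ω : Ch (Cur n) →ₗ[F2] F2} (hω : G.IsOm p p k ω)
    {ω₁ ω₂ : ℕ → Ch (Cur n) →ₗ[F2] F2} (h₁ : ∀ i, G.IsOm q p i (ω₁ i)) (h₂ : ∀ j, G.IsOm p q j (ω₂ j))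
    {z : Ch (Cur n × Cur n)} (hz : z ∈ G.KS q p (G.Om p q) (k * (n - 1))) :
    ω (mp (fun q : Cur n × Cur n => conc q.2 q.1) z) =
      ∑ i ∈ Finset.range (k + 1), ω₂ (k - i) (mp Prod.snd (cap (ω₁ i ∘ₗ mp Prod.fst) z)) := by
  have hb : ∀ w ∈ sup (G.Om q p ×ˢ G.Om p q), ω (mp (fun q : Cur n × Cur n => conc q.2 q.1) (dd w)) =
      ∑ i ∈ Finset.range (k + 1), ω₂ (k - i) (mp Prod.snd (cap (ω₁ i ∘ₗ mp Prod.fst) (dd w))) := fun w hw => by
    rw [dl_xi hω hw, Finset.sum_eq_zero fun i _ => dl_eta (h₁ i) (h₂ (k - i)) hw]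
  let L : Ch (Cur n × Cur n) →ₗ[F2] F2 := ω ∘ₗ mp (fun q : Cur n × Cur n => conc q.2 q.1)
  let R : Ch (Cur n × Cur n) →ₗ[F2] F2 :=
    ∑ i ∈ Finset.range (k + 1), ω₂ (k - i) ∘ₗ mp Prod.snd ∘ₗ cap (ω₁ i ∘ₗ mp Prod.fst)
  have hR : ∀ z, R z = ∑ i ∈ Finset.range (k + 1), ω₂ (k - i) (mp Prod.snd (cap (ω₁ i ∘ₗ mp Prod.fst) z)) :=
    fun z => by simp only [R, LinearMap.sum_apply, LinearMap.comp_apply]
  have key : G.KS q p (G.Om p q) (k * (n - 1)) ≤ LinearMap.eqLocus L R := by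
    refine sup_le (Submodule.span_le.2 ?_) ?_
    · rintro _ ⟨i, j, θ, v, hij, hθ, hθh, hθd, hv, hvh, hvd, rfl⟩
      show ω (mp (fun q : Cur n × Cur n => conc q.2 q.1) (cr θ v)) = R (cr θ v)
      rw [hR]
      by_cases hθn : G.Null q p θ
      · obtain ⟨w, hw, rfl⟩ := hθn
        have := hb _ (cr_mem hw hv)
        rwa [dd_cr, hvd, map_zero, add_zero] at this
      by_cases hvn : G.Null p q v
      · obtain ⟨w, hw, rfl⟩ := hvn
        have := hb _ (cr_mem hθ hw)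
        rwa [dd_cr, hθd, map_zero, LinearMap.zero_apply, zero_add] at this
      have hik : i ≤ k := Nat.le_of_mul_le_mul_right (c := n - 1) (by omega) (by omega)
      have hj : j = (k - i) * (n - 1) := by
        rw [Nat.sub_mul]
        omega
      have g1 : G.Gen q p i θ := ⟨hθ, hθh, hθd, hθn⟩
      have g2 : G.Gen p q (k - i) v := ⟨hv, hj ▸ hvh, hvd, hvn⟩
      have g3 := gen_swap hn g1 g2
      rw [Nat.add_sub_cancel' hik] at g3
      rw [hω.2.2.2 _ g3, Finset.sum_eq_single i]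
      · rw [cap_cr_fst, mp_snd_cr, aug_cap, (h₁ i).2.2.2 _ g1, one_smul, (h₂ _).2.2.2 _ g2]
      · intro i' _ hi'
        rw [cap_cr_fst, mp_snd_cr, aug_cap, ← (h₁ i').1, hθh.pr_ne, map_zero, zero_smul, map_zero]
        exact fun h => hi' (Nat.eq_of_mul_eq_mul_right (by omega) h)
      · intro h
        exact absurd (Finset.mem_range.2 (by omega)) h
    · rintro _ ⟨w, hw, rfl⟩
      show ω (mp (fun q : Cur n × Cur n => conc q.2 q.1) (dd w)) = R (dd w)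
      rw [hR]
      exact hb w hw
  rw [← hR]
  exact key hz

theorem delta (hn : 2 ≤ n) {T : Ch (M n × M n) →ₗ[F2] F2} (hT : IsDiag G T) (a : Bool) {k : ℕ} (hk : Even k)
    {x : Ch (Cur n)} (hx : G.Gen (pl n a) (pl n a) (k + 1) x) :
    ∃ k₀, ∀ k', k₀ ≤ k' → ¬ G.Null (pl n (!a)) (pl n (!a)) (mp (fun q : Cur n × Cur n => conc q.2 q.1)
      (G.kap (T ∘ₗ mp (fun z => (pl n (!a), z))) k' (pl n (!a)) x)) := by
  obtain ⟨ω, hω⟩ := G.exists_isOm hn (pl n (!a)) (pl n (!a)) k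
  choose ω₁ h₁ using G.exists_isOm hn (pl n a) (pl n (!a))
  choose ω₂ h₂ using G.exists_isOm hn (pl n (!a)) (pl n a)
  obtain ⟨Pl⟩ := G.exists_pole (pl n (!a))
  obtain ⟨l, hl⟩ := exists_mem_Lv x
  obtain ⟨k₀, hk₀⟩ := exists_SmK Pl hx.1
  have hTh := (hT.2.2.2 _ Pl).2
  have hne : pl n a ≠ pl n (!a) := by
    rw [pl_not]
    exact (anti_ne _).symm
  have hc : ∀ i, ∃ k₁, i ≤ k → ∀ k', k₁ ≤ k' → G.Gen (pl n (!a)) (pl n a) (k - i) (mp Prod.snd (cap (ω₁ i ∘ₗ mp Prod.fst)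
      (G.kap (T ∘ₗ mp (fun z => (pl n (!a), z))) k' (pl n (!a)) x))) := fun i => by
    by_cases hi : i ≤ k
    · obtain ⟨k₁, hk₁⟩ := coef hn hT a (j := k - i) (h₁ i) (by rwa [Nat.add_sub_cancel' hi]) hl
      exact ⟨k₁, fun _ k' hk' => (hk₁ k' hk' _ rfl).1⟩
    · exact ⟨0, fun h => absurd h hi⟩
  choose k₁ hk₁ using hc
  refine ⟨max k₀ ((Finset.range (k + 1)).sup k₁), fun k' hk' hN => ?_⟩
  have hs := hk₀ k' (le_of_max_le_left hk')
  have hK := kunneth hn (G.Om (pl n (!a)) (pl n a)) (k * (n - 1)) (pl n a) (pl n (!a)) (kap_mem Pl hTh hs)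
    (kap_hom Pl hTh hx.2.1 (by rw [Nat.add_mul]; omega)) (dd_kap Pl hTh hx.1 hx.2.2.1 hne hne hs)
  have e := dl_agree hn hω h₁ h₂ hK
  rw [hω.null hN, Finset.sum_congr rfl fun i hi => (h₂ (k - i)).2.2.2 _ (hk₁ i (Nat.lt_succ_iff.1 (Finset.mem_range.1 hi)) k'
    ((Finset.le_sup (f := k₁) hi).trans (le_of_max_le_right hk')))] at e
  obtain ⟨m, rfl⟩ := hk
  rw [Finset.sum_const, Finset.card_range, succ_nsmul, add_nsmul, add_self] at e
  exact absurd e (by decide)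

end Setup
end Crest.Agent.R231
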