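import Crest.Agent.R231.O.Sph

/-! R231, block O: quantitative Gysin sequence of a `Fib`.
`e` is only continuous on `P`: get open sets with `continuousOn_iff'`.  The cap product of a small chain lies over `U`
(`cap_zero`, `cap_mem`), where `nm` is continuous.  `Th_bx`: `cap (T ∘ mp fst) (cr (sdk β) (sdk y)) = cr (cap T (sdk β)) (sdk y)`,
`cap T (sdk k β)` is a `0`-chain over `U` of augmentation `T β = 1`, and `nm (mm (z, x)) = act (conc v (rev v), x) ≃ x`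
(`exists_cancel`).  `surj`: excise to the part over `U`, map `x ↦ (ci (e x), nm x)` into `ball 3 × fibre`, apply `susp_surj`
(`r = 1, R' = 2, R = 3`, `U = ∅`), map back by `(ζ, y) ↦ mm (ch ζ, y)`; `mm (e x, nm x) ≃ x` over the same base point.
`key` combines `surj`, `Th_Bdy`, `Th_indep`, `Th_bx`, `bx_Bdy`.  Retraction: homotopy `act (tl u (v (e x)), x)`. -/

set_option autoImplicit false
set_option linter.unusedVariables false
set_option linter.unusedSectionVars false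
open Set
open scoped Classical

noncomputable section
namespace Crest.Agent.R231
namespace Fib
variable {n : ℕ} {G : Setup n} {X : Type} [TopologicalSpace X] (F : Fib G X) {p : M n} (Pl : Pole G p)
  {T : Ch (M n) →ₗ[F2] F2}

theorem C_nonneg : 0 ≤ Pl.C := by
  have := G.δ_pos
  have := Pl.Cv_nonneg
  unfold Pole.C; positivity

theorem L_mono {A A' : Set (M n)} {l l' : ℝ} (h : A ⊆ A') (h' : l ≤ l') : F.L A l ⊆ F.L A' l' := by
  exact fun x hx => ⟨hx.1, h hx.2.1, hx.2.2.trans_le h'⟩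

theorem exists_L {A : Set (M n)} {c : Ch X} (hc : c ∈ sup (F.ov A)) : ∃ l, c ∈ sup (F.L A l) := by
  obtain ⟨K, hK, hKA, hc⟩ := exists_compact hc
  obtain ⟨b, hb⟩ := hK.bddAbove_image F.lv_cont.continuousOn
  exact ⟨b + 1, sup_mono (A := K) (B := F.L A (b + 1)) (fun x hx => ⟨(hKA hx).1, (hKA hx).2, by linarith [hb (mem_image_of_mem _ hx)]⟩) hc⟩

theorem L_sub_ov {A A' : Set (M n)} {l : ℝ} (h : A ⊆ A') : F.L A l ⊆ F.ov A' := fun x hx => ⟨hx.1, h hx.2.1⟩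

theorem L_sub_P {A : Set (M n)} {l : ℝ} : F.L A l ⊆ F.P := fun x hx => hx.1

theorem ov_sub_P {A : Set (M n)} : F.ov A ⊆ F.P := fun x hx => hx.1

theorem exists_open_ov {A : Set (M n)} (hA : IsOpen A) : ∃ U, IsOpen U ∧ ∀ x ∈ F.P, x ∈ U ↔ F.e x ∈ A := by
  obtain ⟨U, hU, h⟩ := continuousOn_iff'.1 F.e_cont A hA
  refine ⟨U, hU, fun x hx => ⟨fun h' => ?_, fun h' => ?_⟩⟩
  · exact (h.ge ⟨h', hx⟩).1
  · exact (h.le ⟨h', hx⟩).1

theorem K_compl_sub : Pl.Kᶜ ⊆ {p}ᶜ := compl_subset_compl.2 (singleton_subset_iff.2 Pl.mem_K)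

theorem anti_notMem_K : anti p ∉ Pl.K := fun h => Pl.anti_notMem (Pl.K_sub h)

theorem two_δ_le (a : ℝ) (ha : a ≤ 10) : a * G.δ ≤ Pl.C := by
  have := G.δ_pos
  have := Pl.Cv_nonneg
  unfold Pole.C; nlinarith

theorem nm_mem {x : X} {l : ℝ} (hx : x ∈ F.L Pl.U l) : F.nm p x ∈ F.L {p} (l + 2 * G.δ) := by
  have h := Pl.U_small _ hx.2.1
  have g := Setup.gp_mem h
  obtain ⟨h1, h2, h3⟩ := F.act_mem _ x g.1 hx.1 g.2.2
  exact ⟨h1, h2.trans g.2.1, by rw [Setup.gp_fst] at h3; unfold nm; linarith [hx.2.2]⟩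

theorem continuousOn_nm : ContinuousOn (F.nm p) (F.ov Pl.U) := by
  refine F.act_cont.comp (f := fun x => (G.gp p (F.e x), x)) (ContinuousOn.prodMk ?_ continuousOn_id) fun x hx => ?_
  · exact Setup.continuousOn_gp.comp (f := fun x => (p, F.e x)) (continuousOn_const.prodMk (F.e_cont.mono F.ov_sub_P))
      fun x hx => Pl.U_small _ hx.2
  · have g := Setup.gp_mem (Pl.U_small _ hx.2)
    exact ⟨g.1, hx.1, g.2.2⟩

theorem U_small' {z : M n} (hz : z ∈ Pl.U) : G.ρ z p < G.δ := G.ρ_comm p z ▸ Pl.U_small z hz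

theorem mm_mem {x : X} {l : ℝ} {z : M n} (hz : z ∈ Pl.U) (hx : x ∈ F.L {p} l) :
    F.mm p (z, x) ∈ F.L {z} (l + 2 * G.δ) := by
  have h := U_small' Pl hz
  have g := Setup.gp_mem h
  obtain ⟨h1, h2, h3⟩ := F.act_mem _ x g.1 hx.1 (g.2.2.trans hx.2.1.symm)
  exact ⟨h1, h2.trans g.2.1, by rw [Setup.gp_fst] at h3; unfold mm; linarith [hx.2.2]⟩

theorem mm_mem' {x : X} {z : M n} (hz : z ∈ Pl.U) (hx : x ∈ F.ov {p}) : F.mm p (z, x) ∈ F.ov {z} :=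
  F.L_sub_ov subset_rfl (F.mm_mem Pl hz (l := F.lv x + 1) ⟨hx.1, hx.2, lt_add_one _⟩)

theorem continuousOn_mm : ContinuousOn (F.mm p) (Pl.U ×ˢ F.ov {p}) := by
  refine F.act_cont.comp (f := fun q : M n × X => (G.gp q.1 p, q.2)) (ContinuousOn.prodMk ?_ continuousOn_snd)
    fun x hx => ?_
  · exact Setup.continuousOn_gp.comp (f := fun q : M n × X => (q.1, p)) (by fun_prop) fun x hx => U_small' Pl hx.1
  · have g := Setup.gp_mem (U_small' Pl hx.1)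
    exact ⟨g.1, hx.2.1, g.2.2.trans hx.2.2.symm⟩

/-- `act (v · v⁻¹, x) ≃ x` -/
theorem cancel {Y : Type} [TopologicalSpace Y] {S S' : Set Y} {v : Y → Cur n} {x : Y → X} (hv : ContinuousOn v S)
    (hx : ContinuousOn x S) {A A' : Set (M n)} {l a : ℝ}
    (h : ∀ y ∈ S, v y ∈ G.PS ∧ (v y).st = F.e (x y) ∧ (v y).1 ≤ a ∧ x y ∈ F.L A l) (hS : S' ⊆ S)
    (h' : ∀ y ∈ S', F.e (x y) ∈ A') {c : Ch Y} (hc : c ∈ Cyc S S') :
    mp (fun y => F.act (conc (v y) (rev (v y)), x y)) c + mp x c ∈ Bdy (F.L A (l + 4 * a)) (F.L A' (l + 4 * a)) := by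
  obtain ⟨K, hK, hK'⟩ := Setup.exists_cancel (G := G)
  have key : ∀ q ∈ Icc (0 : ℝ) 1 ×ˢ S, F.act (K (q.1, v q.2), x q.2) ∈ F.L {F.e (x q.2)} (l + 4 * a) := fun q hq => by
    obtain ⟨h1, h2, h3, h4⟩ := h _ hq.2
    obtain ⟨k1, k2⟩ := (hK' _ h1).2.2 _ hq.1
    obtain ⟨m1, m2, m3⟩ := F.act_mem _ _ k1.1 h4.1 (k1.2.2.trans h2)
    exact ⟨m1, m2.trans (k1.2.1.trans h2), by linarith [h4.2.2]⟩
  have := hty_Bdy (H := fun q : ℝ × Y => F.act (K (q.1, v q.2), x q.2)) (A := S) (B := S')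
    (A' := F.L A (l + 4 * a)) (B' := F.L A' (l + 4 * a)) ?_
    (fun q hq => F.L_mono (singleton_subset_iff.2 (h _ hq.2).2.2.2.2.1) le_rfl (key q hq))
    (fun q hq => F.L_mono (singleton_subset_iff.2 (h' _ hq.2)) le_rfl (key q ⟨hq.1, hS hq.2⟩)) hc
  · convert this using 2
    · exact mp_congr hc.1 fun y hy => by rw [(hK' _ (h y hy).1).1]
    · exact mp_congr hc.1 fun y hy => by rw [(hK' _ (h y hy).1).2.1, (h y hy).2.1, F.act_cst _ (h y hy).2.2.2.1]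
  · refine F.act_cont.comp (f := fun q : ℝ × Y => (K (q.1, v q.2), x q.2)) (ContinuousOn.prodMk ?_ ?_) fun q hq => ?_
    · exact hK.comp (f := fun q : ℝ × Y => (q.1, v q.2))
        (continuousOn_fst.prodMk (hv.comp continuousOn_snd fun q hq => hq.2)) fun q hq => ⟨hq.1, (h _ hq.2).1⟩
    · exact hx.comp continuousOn_snd fun q hq => hq.2
    · obtain ⟨h1, h2, h3, h4⟩ := h _ hq.2
      obtain ⟨k1, k2⟩ := (hK' _ h1).2.2 _ hq.1
      exact ⟨k1.1, h4.1, k1.2.2.trans h2⟩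

theorem Tp_zero (hT : Pl.IsThom T) : ∀ x ∈ sup (F.ov {p}ᶜ), (T ∘ₗ mp F.e) x = 0 := fun x hx =>
  hT.2.2.1 _ (mp_mem hx fun y hy => hy.2)

theorem Tp_dd (hT : Pl.IsThom T) : ∀ x ∈ sup F.P, (T ∘ₗ mp F.e ∘ₗ dd) x = 0 := fun x hx => by
  simp only [LinearMap.comp_apply, mp_dd hx F.e_cont, hT.2.1]

theorem cap_small (hT : Pl.IsThom T) {c : Ch X} (hc : c ∈ sup (F.ov Pl.U) ⊔ sup (F.ov {p}ᶜ)) :
    cap (T ∘ₗ mp F.e) c ∈ sup (F.ov Pl.U) := by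
  obtain ⟨a, ha, b, hb, rfl⟩ := Submodule.mem_sup.1 hc
  rw [map_add, cap_zero hb (F.Tp_zero Pl hT), add_zero]
  exact cap_mem _ ha

/-- Thom map without subdivision -/
def Th0 (p : M n) (T : Ch (M n) →ₗ[F2] F2) : Ch X →ₗ[F2] Ch X := mp (F.nm p) ∘ₗ cap (T ∘ₗ mp F.e)

theorem Th_eq (k : ℕ) (w : Ch X) : F.Th p T k w = F.Th0 p T (sdk k w) := rfl

theorem Th0_mem (hT : Pl.IsThom T) {c : Ch X} {l : ℝ} (hc : c ∈ sup (F.ov Pl.U) ⊔ sup (F.ov {p}ᶜ))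
    (hl : c ∈ sup (F.L univ l)) : F.Th0 p T c ∈ sup (F.L {p} (l + Pl.C)) :=
  mp_mem (mem_sup_inter (F.cap_small Pl hT hc) (cap_mem _ hl)) fun x hx =>
    F.L_mono subset_rfl (by linarith [two_δ_le Pl 2 (by norm_num)]) (F.nm_mem Pl ⟨hx.1.1, hx.1.2, hx.2.2.2⟩)

theorem dd_Th0 (hT : Pl.IsThom T) {c : Ch X} (hc : c ∈ sup (F.ov Pl.U) ⊔ sup (F.ov {p}ᶜ)) :
    dd (F.Th0 p T c) = F.Th0 p T (dd c) := by
  have hP : c ∈ sup F.P := sup_le (sup_mono F.ov_sub_P) (sup_mono F.ov_sub_P) hc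
  simp only [Th0, LinearMap.comp_apply]
  rw [← mp_dd (F.cap_small Pl hT hc) (F.continuousOn_nm Pl), dd_cap,
    cap_zero (φ := (T ∘ₗ mp F.e) ∘ₗ dd) hP (F.Tp_dd Pl hT), add_zero]

theorem Th0_zero (hT : Pl.IsThom T) {w : Ch X} (hw : w ∈ sup (F.ov {p}ᶜ)) : F.Th0 p T w = 0 := by
  simp only [Th0, LinearMap.comp_apply]
  rw [cap_zero hw (F.Tp_zero Pl hT), map_zero]

theorem exists_Sm {w : Ch X} (hw : w ∈ sup F.P) : ∃ k₀, ∀ k, k₀ ≤ k → F.Sm Pl k w := by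
  obtain ⟨U, hU, h⟩ := F.exists_open_ov Pl.U_open
  obtain ⟨V, hV, h'⟩ := F.exists_open_ov (isOpen_compl_singleton (x := p))
  obtain ⟨k₀, hk⟩ := small2 hU hV (A := F.P) (fun x hx => by
    by_cases e : F.e x = p
    · exact Or.inl ((h x hx).2 (by rw [e]; exact Pl.K_sub Pl.mem_K))
    · exact Or.inr ((h' x hx).2 e)) hw
  exact ⟨k₀, fun k hk' => sup_le_sup (sup_mono (B := F.ov Pl.U) fun x hx => ⟨hx.1, (h x hx.1).1 hx.2⟩)
    (sup_mono (B := F.ov {p}ᶜ) fun x hx => ⟨hx.1, (h' x hx.1).1 hx.2⟩) (hk k hk')⟩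

theorem Sm.add {k : ℕ} {w w' : Ch X} (h : F.Sm Pl k w) (h' : F.Sm Pl k w') : F.Sm Pl k (w + w') := by
  unfold Sm; rw [map_add]; exact add_mem h h'

theorem Sm.of_mem {k : ℕ} {w : Ch X} (h : w ∈ sup (F.ov {p}ᶜ)) : F.Sm Pl k w := by
  exact Submodule.mem_sup_right (sdk_mem k h)

theorem Sm.mono {k k' : ℕ} {w : Ch X} (h : F.Sm Pl k w) (hk : k ≤ k') : F.Sm Pl k' w := by
  obtain ⟨j, rfl⟩ := Nat.exists_eq_add_of_le' hk
  unfold Sm; rw [sdk_add]; exact sdk_mem_sup2 j h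

theorem Th_mem (hT : Pl.IsThom T) {k : ℕ} {w : Ch X} {l : ℝ} (hw : w ∈ sup (F.L univ l)) (hs : F.Sm Pl k w) :
    F.Th p T k w ∈ sup (F.L {p} (l + Pl.C)) := by
  exact F.Th0_mem Pl hT hs (sdk_mem k hw)

theorem dd_Th (hT : Pl.IsThom T) {k : ℕ} {w : Ch X} (hw : w ∈ sup F.P) (hs : F.Sm Pl k w) :
    dd (F.Th p T k w) = F.Th p T k (dd w) := by
  rw [Th_eq, Th_eq, F.dd_Th0 Pl hT hs, dd_sdk]

theorem Th_zero (hT : Pl.IsThom T) (k : ℕ) {w : Ch X} (hw : w ∈ sup (F.ov {p}ᶜ)) : F.Th p T k w = 0 := by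
  exact F.Th0_zero Pl hT (sdk_mem k hw)

theorem Th_hom (hT : Pl.IsThom T) (k : ℕ) {d : ℕ} {w : Ch X} (hw : Hom (n + d) w) : Hom d (F.Th p T k w) := by
  exact ((hw.sdk k).cap (hT.1.comp_mp F.e)).mp _

theorem Th_lt (hT : Pl.IsThom T) (k : ℕ) {d : ℕ} {w : Ch X} (hw : Hom d w) (hd : d < n) : F.Th p T k w = 0 := by
  show mp _ (cap _ (sdk k w)) = 0
  rw [(hw.sdk k).cap_lt (hT.1.comp_mp F.e) hd, map_zero]

theorem Th_indep (hT : Pl.IsThom T) {k k' : ℕ} {w : Ch X} {l : ℝ} (hw : w ∈ sup (F.L univ l))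
    (hd : dd w ∈ sup (F.ov {p}ᶜ)) (hs : F.Sm Pl k w) (hs' : F.Sm Pl k' w) :
    ∃ z ∈ sup (F.L {p} (l + Pl.C)), dd z = F.Th p T k w + F.Th p T k' w := by
  wlog hk : k ≤ k' generalizing k k'
  · simpa only [add_comm (F.Th p T k' w)] using this hs' hs (le_of_not_ge hk)
  obtain ⟨j, rfl⟩ := Nat.exists_eq_add_of_le' hk
  have h1 := sdkH_mem_sup2 j hs
  refine ⟨_, F.Th0_mem Pl hT h1 (sdkH_mem j (sdk_mem k hw)), ?_⟩
  have h2 := F.Th0_zero Pl hT (sdkH_mem j (sdk_mem k hd))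
  have h3 := congrArg (F.Th0 p T) (dd_sdkH j (sdk k w))
  rw [dd_sdk, map_add, map_add, h2, add_zero] at h3
  rw [F.dd_Th0 Pl hT h1, h3, Th_eq, Th_eq, sdk_add, add_comm]

theorem Th_Bdy (hT : Pl.IsThom T) {k : ℕ} {w : Ch X} {l : ℝ} (hw : w ∈ Bdy (F.L univ l) (F.L {p}ᶜ l))
    (hs : F.Sm Pl k w) : ∃ z ∈ sup (F.L {p} (l + Pl.C)), dd z = F.Th p T k w := by
  obtain ⟨u, hu, h⟩ := mem_Bdy.1 hw
  obtain ⟨k₀, hk⟩ := F.exists_Sm Pl (sup_mono F.L_sub_P hu)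
  have hs' := hk _ (le_max_left k₀ k)
  have h0 : w + dd u ∈ sup (F.ov {p}ᶜ) := sup_mono (F.L_sub_ov subset_rfl) h
  have hw' : w ∈ sup (F.L univ l) := by
    convert add_mem (sup_mono (F.L_mono (subset_univ _) le_rfl) h) (dd_mem hu) using 1; ch2
  have hd : dd w ∈ sup (F.ov {p}ᶜ) := by simpa only [map_add, dd_dd, add_zero] using dd_mem h0
  obtain ⟨z, hz, e⟩ := F.Th_indep Pl hT hw' hd hs (hs.mono F Pl (le_max_right k₀ k))
  refine ⟨_, add_mem hz (F.Th_mem Pl hT hu hs'), ?_⟩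
  have h1 := F.Th_zero Pl hT (max k₀ k) h0
  rw [map_add] at h1
  rw [map_add, e, F.dd_Th Pl hT (sup_mono F.L_sub_P hu) hs']
  linear_combination (norm := ch2) h1

theorem mm_maps {A : Set (M n)} (hA : A ⊆ Pl.U) (l : ℝ) : MapsTo (F.mm p) (A ×ˢ F.L {p} l) (F.L A (l + Pl.C)) :=
  fun q hq => F.L_mono (singleton_subset_iff.2 hq.1) (by linarith [two_δ_le Pl 2 (by norm_num)])
    (F.mm_mem Pl (hA hq.1) hq.2)

theorem bx_mem {y : Ch X} {l : ℝ} (hy : y ∈ sup (F.L {p} l)) : F.bx Pl y ∈ sup (F.L Pl.U (l + Pl.C)) := by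
  exact mp_mem (cr_mem Pl.β_mem hy) (F.mm_maps Pl subset_rfl l)

theorem dd_bx {y : Ch X} (hy : y ∈ sup (F.ov {p})) :
    dd (F.bx Pl y) = mp (F.mm p) (cr (dd Pl.β) y) + F.bx Pl (dd y) := by
  simp only [bx, LinearMap.comp_apply]
  rw [← mp_dd (cr_mem Pl.β_mem hy) (F.continuousOn_mm Pl), dd_cr, map_add]

theorem dd_bx_mem {y : Ch X} {l : ℝ} (hy : y ∈ sup (F.L {p} l)) :
    dd (F.bx Pl y) + F.bx Pl (dd y) ∈ sup (F.L Pl.Kᶜ (l + Pl.C)) := by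
  rw [F.dd_bx Pl (sup_mono (F.L_sub_ov subset_rfl) hy), add_assoc, add_self, add_zero]
  exact sup_mono (F.L_mono (fun z hz => hz.2) le_rfl) (mp_mem (cr_mem Pl.dd_β_mem hy) (F.mm_maps Pl sdiff_subset l))

theorem bx_hom {d : ℕ} {y : Ch X} (hy : Hom d y) : Hom (n + d) (F.bx Pl y) := by
  exact (Pl.hom_β.cr hy).mp _

theorem Th_bx (hT : Pl.IsThom T) {k : ℕ} {y : Ch X} {l : ℝ} (hy : y ∈ sup (F.L {p} l)) (hd : dd y = 0) :
    F.Sm Pl k (F.bx Pl y) ∧ ∃ z ∈ sup (F.L {p} (l + Pl.C)), dd z = F.Th p T k (F.bx Pl y) + y := by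
  have hy' : y ∈ sup (F.ov {p}) := sup_mono (F.L_sub_ov subset_rfl) hy
  have hb : F.bx Pl y ∈ sup (F.ov Pl.U) := sup_mono (F.L_sub_ov subset_rfl) (F.bx_mem Pl hy)
  refine ⟨Submodule.mem_sup_left (sdk_mem k hb), ?_⟩
  set b := cap T (sdk k Pl.β) with hbdef
  have b1 : b ∈ sup Pl.U := cap_mem _ (sdk_mem k Pl.β_mem)
  have b2 : dd b = 0 := (Hom.cap (d := 0) hT.1 (Pl.hom_β.sdk k)).dd_zero
  have b3 : aug b = 1 := by
    have h := congrArg T (dd_sdkH k Pl.β)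
    rw [map_add, map_add, hT.2.1, hT.2.2.2,
      hT.2.2.1 _ (sdkH_mem k (sup_mono (fun z hz => K_compl_sub Pl hz.2) Pl.dd_β_mem))] at h
    rw [aug_cap]
    linear_combination (norm := ch2) h
  have m1 := cr_mem (sdk_mem k Pl.β_mem) (sdk_mem k hy')
  have e1 : F.Th p T k (F.bx Pl y) = mp (fun q => F.nm p (F.mm p q)) (cr b (sdk k y)) := by
    show mp _ (cap _ (sdk k (mp _ (cr _ y)))) = _
    rw [← mp_sdk k (cr_mem Pl.β_mem hy') (F.continuousOn_mm Pl), sdk_cr, ← mp_cap m1 (F.continuousOn_mm Pl),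
      mp_comp (cap_mem _ m1) (F.continuousOn_mm Pl), cap_congr (ψ := T ∘ₗ mp Prod.fst) m1, cap_cr_fst]
    intro x hx
    simp only [LinearMap.comp_apply]
    rw [mp_comp hx (F.continuousOn_mm Pl), mp_congr hx fun q hq => (F.mm_mem' Pl hq.1 hq.2).2]
  have m2 : cr b (sdk k y) ∈ Cyc (Pl.U ×ˢ F.L {p} l) ∅ :=
    mem_Cyc_empty.2 ⟨cr_mem b1 (sdk_mem k hy), by rw [dd_cr, b2, dd_sdk, hd]; simp⟩
  have h := F.cancel (v := fun q : M n × X => G.gp p q.1) (x := Prod.snd) (A := {p}) (A' := ∅) (a := G.δ)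
    (Setup.continuousOn_gp.comp (f := fun q : M n × X => (p, q.1)) (by fun_prop) fun q hq => Pl.U_small _ hq.1)
    continuousOn_snd (fun q hq => ⟨(Setup.gp_mem (Pl.U_small _ hq.1)).1,
      (Setup.gp_mem (Pl.U_small _ hq.1)).2.1.trans hq.2.2.1.symm, (Pl.U_small _ hq.1).le, hq.2⟩) (empty_subset _)
    (fun _ h => h) m2
  rw [show F.L ∅ (l + 4 * G.δ) = ∅ from eq_empty_of_forall_notMem fun x hx => hx.2.1] at h
  obtain ⟨z, hz, e⟩ := mem_Bdy_empty.1 h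
  have e2 : mp (fun q : M n × X => F.act (conc (G.gp p q.1) (rev (G.gp p q.1)), q.2)) (cr b (sdk k y)) =
      F.Th p T k (F.bx Pl y) := by
    rw [e1]
    refine mp_congr m2.1 fun q hq => ?_
    have g := Setup.gp_mem (Pl.U_small _ hq.1)
    have g' := Setup.gp_mem (U_small' Pl hq.1)
    rw [Setup.rev_gp (Pl.U_small _ hq.1), F.act_conc _ _ _ g.1 g'.1 hq.2.1 (g.2.2.trans g'.2.1.symm)
      (g'.2.2.trans hq.2.2.1.symm), nm, (F.mm_mem' Pl hq.1 ⟨hq.2.1, hq.2.2.1⟩).2]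
    rfl
  rw [e2, mp_snd_cr, b3, one_smul] at e
  refine ⟨_, add_mem (sup_mono (F.L_mono subset_rfl (by linarith [two_δ_le Pl 4 (by norm_num)])) hz)
    (sup_mono (F.L_mono subset_rfl (by linarith [C_nonneg Pl])) (sdkH_mem k hy)), ?_⟩
  have h3 := dd_sdkH k y
  rw [hd, map_zero] at h3
  rw [map_add, e]
  linear_combination (norm := ch2) h3

theorem surj {w : Ch X} {l : ℝ} (hw : w ∈ Cyc (F.L univ l) (F.L Pl.Kᶜ l)) :
    ∃ y ∈ sup (F.L {p} (l + Pl.C)), dd y = 0 ∧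
      w + F.bx Pl y ∈ Bdy (F.L univ (l + Pl.C)) (F.L Pl.Kᶜ (l + Pl.C)) := by
  obtain ⟨U, hU, h⟩ := F.exists_open_ov Pl.U_open
  obtain ⟨V, hV, h'⟩ := F.exists_open_ov Pl.K_closed.isOpen_compl
  obtain ⟨c, hc, e⟩ := excise_surj hU hV (A := F.L univ l) (B := F.L Pl.Kᶜ l) (fun x hx => by
    by_cases e : F.e x ∈ Pl.K
    · exact Or.inl ((h x hx.1).2 (Pl.K_sub e))
    · exact Or.inr ((h' x hx.1).2 e)) (fun x hx => ⟨hx.1.1, (h' x hx.1.1).1 hx.2, hx.1.2.2⟩) hw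
  have hc' : c ∈ Cyc (F.L Pl.U l) (F.L (Pl.U \ Pl.K) l) :=
    Cyc_mono (A' := F.L Pl.U l) (B' := F.L (Pl.U \ Pl.K) l) (fun x hx => ⟨hx.1.1, (h x hx.1.1).1 hx.2, hx.1.2.2⟩)
      (fun x hx => ⟨hx.1.1, ⟨(h x hx.1.1).1 hx.2, hx.1.2.1⟩, hx.1.2.2⟩) hc
  set A := F.L {p} (l + 2 * G.δ)
  have cΦ : ContinuousOn (fun x => (Pl.ci (F.e x), F.nm p x)) (F.L Pl.U l) :=
    (Pl.ci_cont.comp (F.e_cont.mono F.L_sub_P) fun x hx => hx.2.1).prodMk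
      ((F.continuousOn_nm Pl).mono (F.L_sub_ov subset_rfl))
  obtain ⟨y, hy, e'⟩ := susp_surj n (r := 1) (R' := 2) (R := 3) zero_le_one one_lt_two (by norm_num) (A := A) isOpen_empty
    (mp_Cyc cΦ (A' := Metric.ball 0 3 ×ˢ A) (B' := Low n 1 3 A (A ∩ ∅)) (fun x hx => ⟨Pl.ci_mem hx.2.1, F.nm_mem Pl hx⟩) (fun x hx => Or.inr ⟨⟨Pl.ci_mem hx.2.1.1, fun hh =>
      hx.2.1.2 ⟨_, hh, Pl.ch_ci _ hx.2.1.1⟩⟩, F.nm_mem Pl ⟨hx.1, hx.2.1.1, hx.2.2⟩⟩) hc')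
  rw [inter_empty] at hy e'
  obtain ⟨hy1, hy2⟩ := mem_Cyc_empty.1 hy
  have l2 : l + 2 * G.δ ≤ l + Pl.C := by linarith [two_δ_le Pl 2 (by norm_num)]
  have l4 : l + 4 * G.δ ≤ l + Pl.C := by linarith [two_δ_le Pl 4 (by norm_num)]
  refine ⟨y, sup_mono (F.L_mono subset_rfl l2) hy1, hy2, ?_⟩
  have cχ : ContinuousOn (fun q : (Fin n → ℝ) × X => (Pl.ch q.1, q.2)) (Metric.ball 0 3 ×ˢ A) :=
    (Pl.ch_cont.comp continuousOn_fst fun q hq => hq.1).prodMk continuousOn_snd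
  have mΨ : ∀ q ∈ Metric.ball (0 : Fin n → ℝ) 3 ×ˢ A, F.mm p (Pl.ch q.1, q.2) ∈ F.L {Pl.ch q.1} (l + Pl.C) := fun q hq =>
    F.L_mono subset_rfl (by linarith) (F.mm_mem Pl (Pl.ch_mem hq.1) hq.2)
  have e2 := mp_Bdy (f := fun q : (Fin n → ℝ) × X => F.mm p (Pl.ch q.1, q.2)) (A' := F.L univ (l + Pl.C))
    (B' := F.L Pl.Kᶜ (l + Pl.C)) ((F.continuousOn_mm Pl).comp cχ fun q hq => ⟨Pl.ch_mem hq.1, F.L_sub_ov subset_rfl hq.2⟩)
    (fun q hq => F.L_mono (subset_univ _) le_rfl (mΨ q hq)) (fun q hq => by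
      rcases hq with hq | hq
      · exact hq.2.elim
      · refine F.L_mono (singleton_subset_iff.2 ?_) le_rfl (mΨ q ⟨hq.1.1, hq.2⟩)
        rintro ⟨ζ, h1, h2⟩
        have h3 := congrArg Pl.ci h2
        rw [Pl.ci_ch _ hq.1.1, Pl.ci_ch _ (Metric.closedBall_subset_ball (by norm_num) h1)] at h3
        exact hq.1.2 (h3 ▸ h1)) e'
  have f1 : fund n 2 ∈ sup (Metric.ball (0 : Fin n → ℝ) 3) :=
    sup_mono (Metric.closedBall_subset_ball (by norm_num)) (fund_mem n zero_le_two)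
  have e3 : mp (fun q : (Fin n → ℝ) × X => F.mm p (Pl.ch q.1, q.2)) (cr (fund n 2) y) = F.bx Pl y := by
    rw [← mp_comp (cr_mem f1 hy1) cχ, mp_cr (g := fun x : X => x) f1 hy1 Pl.ch_cont continuousOn_id, mp_id]
    rfl
  have e4 := F.cancel (v := fun x => G.gp (F.e x) p) (x := fun x => x) (A := univ) (A' := Pl.Kᶜ) (a := G.δ) (l := l)
    (Setup.continuousOn_gp.comp (f := fun x => (F.e x, p)) ((F.e_cont.mono F.L_sub_P).prodMk continuousOn_const)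
      fun x hx => U_small' Pl hx.2.1)
    continuousOn_id (fun x hx => ⟨(Setup.gp_mem (U_small' Pl hx.2.1)).1, (Setup.gp_mem (U_small' Pl hx.2.1)).2.1,
      (U_small' Pl hx.2.1).le, hx.1, trivial, hx.2.2⟩) (F.L_mono sdiff_subset le_rfl) (fun x hx => hx.2.1.2) hc'
  have e5 : mp (fun x => F.act (conc (G.gp (F.e x) p) (rev (G.gp (F.e x) p)), x)) c =
      mp (fun q : (Fin n → ℝ) × X => F.mm p (Pl.ch q.1, q.2)) (mp (fun x => (Pl.ci (F.e x), F.nm p x)) c) := by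
    rw [mp_comp hc'.1 cΦ]
    refine mp_congr hc'.1 fun x hx => ?_
    have g := Setup.gp_mem (Pl.U_small _ hx.2.1)
    have g' := Setup.gp_mem (U_small' Pl hx.2.1)
    rw [Setup.rev_gp (U_small' Pl hx.2.1), F.act_conc _ _ _ g'.1 g.1 hx.1 (g'.2.2.trans g.2.1.symm) g.2.2,
      Pl.ch_ci _ hx.2.1]
    rfl
  rw [map_add, e3, ← e5] at e2
  rw [mp_id] at e4
  have l0 : l ≤ l + Pl.C := by linarith [C_nonneg Pl]
  convert add_mem (add_mem (Bdy_mono (F.L_mono subset_rfl l0) (F.L_mono subset_rfl l0) e) e2)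
    (Bdy_mono (F.L_mono subset_rfl l4) (F.L_mono subset_rfl l4) e4) using 1
  ch2

/-- a relative cycle is determined by its Thom image, with control of the level -/
theorem key (hT : Pl.IsThom T) {k : ℕ} {w y z : Ch X} {l : ℝ} (hw : w ∈ Cyc (F.L univ l) (F.L Pl.Kᶜ l))
    (hs : F.Sm Pl k w) (hy : y ∈ sup (F.L {p} l)) (hz : z ∈ sup (F.L {p} l)) (h : dd z = F.Th p T k w + y) :
    w + F.bx Pl y ∈ Bdy (F.L univ (l + 3 * Pl.C)) (F.L Pl.Kᶜ (l + 3 * Pl.C)) := by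
  have hC := C_nonneg Pl
  obtain ⟨y₀, m₀, d₀, e₀⟩ := F.surj Pl hw
  obtain ⟨s₀, z₂, m₂, e₂⟩ := F.Th_bx Pl hT (k := k) m₀ d₀
  obtain ⟨z₁, m₁, e₁⟩ := F.Th_Bdy Pl hT (Bdy_mono subset_rfl (F.L_mono (K_compl_sub Pl) le_rfl) e₀) (hs.add F Pl s₀)
  have m₃ : z + z₁ + z₂ ∈ sup (F.L {p} (l + Pl.C + Pl.C)) :=
    add_mem (add_mem (sup_mono (F.L_mono subset_rfl (by linarith)) hz) m₁) m₂
  have e₃ : dd (z + z₁ + z₂) = y + y₀ := by
    rw [map_add, map_add, h, e₁, e₂, map_add]; ch2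
  have h1 := F.dd_bx_mem Pl m₃
  rw [e₃, map_add (F.bx Pl) y, add_comm (dd _), show l + Pl.C + Pl.C + Pl.C = l + 3 * Pl.C by ring] at h1
  have h2 : F.bx Pl y + F.bx Pl y₀ ∈ Bdy (F.L univ (l + 3 * Pl.C)) (F.L Pl.Kᶜ (l + 3 * Pl.C)) :=
    mem_Bdy.2 ⟨_, sup_mono (F.L_mono (subset_univ _) (by linarith)) (F.bx_mem Pl m₃),
      h1⟩
  convert add_mem (Bdy_mono (F.L_mono subset_rfl (by linarith)) (F.L_mono subset_rfl (by linarith)) e₀) h2 using 1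
  ch2

theorem two_Cv_le : 2 * Pl.Cv ≤ Pl.C := by
  have := G.δ_pos
  have := Pl.Cv_nonneg
  unfold Pole.C; nlinarith

theorem rt_maps (l : ℝ) : MapsTo (F.rt Pl) (F.L Pl.Kᶜ l) (F.L {anti p} (l + Pl.C)) := fun x hx => by
  obtain ⟨g, g1, -⟩ := Pl.v_mem _ hx.2.1
  obtain ⟨h1, h2, h3⟩ := F.act_mem _ x g.1 hx.1 g.2.2
  exact ⟨h1, h2.trans g.2.1, by unfold rt; linarith [hx.2.2, two_Cv_le Pl]⟩

theorem rt_mem {c : Ch X} {l : ℝ} (hc : c ∈ sup (F.L Pl.Kᶜ l)) :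
    mp (F.rt Pl) c ∈ sup (F.L {anti p} (l + Pl.C)) := by
  exact mp_mem hc (F.rt_maps Pl l)

theorem continuousOn_rt : ContinuousOn (F.rt Pl) (F.ov Pl.Kᶜ) := by
  refine F.act_cont.comp (f := fun x => (Pl.v (F.e x), x)) (ContinuousOn.prodMk ?_ continuousOn_id) fun x hx => ?_
  · exact Pl.v_cont.comp (F.e_cont.mono F.ov_sub_P) fun x hx => hx.2
  · obtain ⟨g, -⟩ := Pl.v_mem _ hx.2
    exact ⟨g.1, hx.1, g.2.2⟩

theorem rt_hty' {A : Set (M n)} (hA : A ⊆ Pl.Kᶜ) (hA' : ∀ z ∈ A, ∀ t, (Pl.v z).ev t ∈ A) {c : Ch X} {l : ℝ}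
    (hc : c ∈ sup (F.L A l)) (hd : dd c = 0) : ∃ z ∈ sup (F.L A (l + Pl.C)), dd z = c + mp (F.rt Pl) c := by
  have key : ∀ q ∈ Icc (0 : ℝ) 1 ×ˢ F.L A l, tl q.1 (Pl.v (F.e q.2)) ∈ G.Om ((Pl.v (F.e q.2)).at q.1) (F.e q.2) :=
    fun q hq => by
      obtain ⟨g, -⟩ := Pl.v_mem _ (hA hq.2.2.1)
      have := Setup.tl_mem g.1 hq.1
      rwa [g.2.2] at this
  have hH : ContinuousOn (fun q : ℝ × X => F.act (tl q.1 (Pl.v (F.e q.2)), q.2)) (Icc 0 1 ×ˢ F.L A l) := by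
    refine F.act_cont.comp (f := fun q : ℝ × X => (tl q.1 (Pl.v (F.e q.2)), q.2))
      (ContinuousOn.prodMk ?_ continuousOn_snd) fun q hq => ⟨(key q hq).1, hq.2.1, (key q hq).2.2⟩
    exact (Setup.continuousOn_tl (G := G)).comp (f := fun q : ℝ × X => (q.1, Pl.v (F.e q.2)))
      (continuousOn_fst.prodMk (Pl.v_cont.comp (F.e_cont.comp continuousOn_snd fun q hq => hq.2.1)
        fun q hq => hA hq.2.2.1)) fun q hq => ⟨hq.1, (Pl.v_mem _ (hA hq.2.2.1)).1.1⟩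
  refine ⟨_, hty_mem (H := fun q : ℝ × X => F.act (tl q.1 (Pl.v (F.e q.2)), q.2)) hc fun q hq => ?_, ?_⟩
  · obtain ⟨h1, h2, h3⟩ := F.act_mem _ _ (key q hq).1 hq.2.1 (key q hq).2.2
    obtain ⟨g, g1, -⟩ := Pl.v_mem _ (hA hq.2.2.1)
    refine ⟨h1, by rw [h2, (key q hq).2.1]; exact hA' _ hq.2.2.1 _, ?_⟩
    rw [Setup.tl_fst] at h3
    nlinarith [hq.2.2.2, two_Cv_le Pl, hq.1.1, g.1.1]
  · have h := dd_hty hc hH
    rw [hd, map_zero, add_zero] at h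
    rw [h, add_comm]
    congr 1
    · refine (mp_congr hc fun x hx => ?_).trans (mp_id c)
      obtain ⟨g, -⟩ := Pl.v_mem _ (hA hx.2.1)
      show F.act (tl 1 _, x) = x
      rw [Setup.tl_one g.1, g.2.2, F.act_cst _ hx.1]
    · refine mp_congr hc fun x hx => ?_
      show F.act (tl 0 _, x) = _
      rw [Setup.tl_zero (Pl.v_mem _ (hA hx.2.1)).1.1]; rfl

theorem rt_hty {c : Ch X} {l : ℝ} (hc : c ∈ sup (F.L Pl.Kᶜ l)) (hd : dd c = 0) :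
    ∃ z ∈ sup (F.L Pl.Kᶜ (l + Pl.C)), dd z = c + mp (F.rt Pl) c := by
  exact F.rt_hty' Pl subset_rfl (fun z hz => (Pl.v_mem z hz).2.2) hc hd

theorem rt_fib {c : Ch X} {l : ℝ} (hc : c ∈ sup (F.L {anti p} l)) (hd : dd c = 0) :
    ∃ z ∈ sup (F.L {anti p} (l + Pl.C)), dd z = c + mp (F.rt Pl) c := by
  exact F.rt_hty' Pl (singleton_subset_iff.2 (anti_notMem_K Pl)) (fun z hz t => by rw [hz]; exact Pl.v_anti t) hc hd

theorem dd_rt {c : Ch X} {l : ℝ} (hc : c ∈ sup (F.L Pl.Kᶜ l)) : dd (mp (F.rt Pl) c) = mp (F.rt Pl) (dd c) :=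
  (mp_dd (sup_mono (F.L_sub_ov subset_rfl) hc) (F.continuousOn_rt Pl)).symm

/-- a chain of the fibre over `-p` that bounds over the complement of the cube bounds in the fibre -/
theorem fib_inj {c w : Ch X} {l : ℝ} (hc : c ∈ sup (F.L {anti p} l)) (hw : w ∈ sup (F.L Pl.Kᶜ l)) (h : dd w = c) :
    ∃ z ∈ sup (F.L {anti p} (l + Pl.C)), dd z = c := by
  obtain ⟨z, hz, e⟩ := F.rt_fib Pl hc (by rw [← h, dd_dd])
  refine ⟨_, add_mem hz (F.rt_mem Pl hw), ?_⟩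
  rw [map_add, e, F.dd_rt Pl hw, h]; ch2

theorem con_mem {y : Ch X} {l : ℝ} (hy : y ∈ sup (F.L {p} l)) (hd : dd y = 0) :
    F.con Pl y ∈ sup (F.L {anti p} (l + 2 * Pl.C)) ∧ dd (F.con Pl y) = 0 := by
  have h := F.dd_bx_mem Pl hy
  rw [hd, map_zero, add_zero] at h
  refine ⟨sup_mono (F.L_mono subset_rfl (by linarith)) (F.rt_mem Pl h), ?_⟩
  show dd (mp _ (dd _)) = 0
  rw [F.dd_rt Pl h, dd_dd, map_zero]

theorem con_hom (hn : 1 ≤ n) {d : ℕ} {y : Ch X} (hy : Hom d y) : Hom (d + (n - 1)) (F.con Pl y) := by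
  have h := F.bx_hom Pl hy
  rw [show n + d = d + (n - 1) + 1 by omega] at h
  exact h.dd.mp _

/-- `con` maps boundaries of the fibre to boundaries of the fibre -/
theorem con_dd {z : Ch X} {l : ℝ} (hz : z ∈ sup (F.L {p} l)) :
    ∃ z' ∈ sup (F.L {anti p} (l + 2 * Pl.C)), dd z' = F.con Pl (dd z) := by
  have h := F.dd_bx_mem Pl hz
  refine ⟨_, sup_mono (F.L_mono subset_rfl (by linarith)) (F.rt_mem Pl h), ?_⟩
  rw [F.dd_rt Pl h, map_add, dd_dd, zero_add]; rfl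

/-- if a fibre cycle `c` over `-p` is `dd w` with `w + bx y` a relative boundary, then `c ~ con y` in the fibre -/
theorem con_of_Bdy {c w y : Ch X} {l : ℝ} (hc : c ∈ sup (F.L {anti p} l)) (hdw : dd w = c) (hy : y ∈ sup (F.L {p} l))
    (hdy : dd y = 0) (h : w + F.bx Pl y ∈ Bdy (F.L univ l) (F.L Pl.Kᶜ l)) :
    ∃ z ∈ sup (F.L {anti p} (l + 2 * Pl.C)), dd z = c + F.con Pl y := by
  have hC := C_nonneg Pl
  obtain ⟨u, hu, h⟩ := mem_Bdy.1 h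
  obtain ⟨z, hz, e⟩ := F.rt_fib Pl hc (by rw [← hdw, dd_dd])
  refine ⟨_, sup_mono (F.L_mono subset_rfl (by linarith)) (add_mem hz (F.rt_mem Pl h)), ?_⟩
  rw [map_add, e, F.dd_rt Pl h, map_add dd, map_add dd, dd_dd, hdw, add_zero, map_add]
  show _ = c + mp (F.rt Pl) (dd (F.bx Pl y))
  ch2

theorem con_prod {Y : Type} [TopologicalSpace Y] (B : Set Y) {y : Ch X} {v : Ch Y} (hy : y ∈ sup (F.ov {p}))
    (hdy : dd y = 0) (hv : v ∈ sup B) (hdv : dd v = 0) : (F.prod B).con Pl (cr y v) = cr (F.con Pl y) v := by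
  have m := cr_mem Pl.β_mem hy
  have e1 : (F.prod B).bx Pl (cr y v) = cr (F.bx Pl y) v := by
    show mp _ (cr _ (cr y v)) = cr (mp _ (cr _ y)) v
    rw [← cr_assoc, mp_comp (mem_sup_univ _) (by fun_prop), ← mp_id v,
      ← mp_cr (g := fun y : Y => y) m hv (F.continuousOn_mm Pl) continuousOn_id, mp_id]
    rfl
  obtain ⟨l, hl⟩ := F.exists_L hy
  have h := F.dd_bx_mem Pl hl
  rw [hdy, map_zero, add_zero] at h
  show mp _ (dd ((F.prod B).bx Pl (cr y v))) = cr (mp _ (dd (F.bx Pl y))) v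
  rw [e1, dd_cr, hdv, map_zero, add_zero, ← mp_id v,
    ← mp_cr (g := fun y : Y => y) (sup_mono (F.L_sub_ov subset_rfl) h) hv (F.continuousOn_rt Pl) continuousOn_id, mp_id]
  rfl

end Fib
end Crest.Agent.R231
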