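import Crest.Agent.R231.O.Trans
import Crest.Agent.R231.O.Gysin

/-! R231, block O: the cut chain `kap`.  The cap product is supported where `at ∈ U` (`cap_zero`, `cap_mem`), where `cut z` is
continuous; the boundary faces `{0,1} × x` have `at ∈ {a,b} ∌ z`.  `snd_kap`, `swap_kap`: naturality of `sdk`, `cap`
(`mp_sdk`, `mp_cap`, `cap_congr`) and `conc'_cst_left/right`, `rev_gp`, `conc_assoc`. -/

set_option autoImplicit false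
set_option linter.unusedVariables false
set_option linter.unusedSectionVars false
open Set
open scoped Classical

noncomputable section
namespace Crest.Agent.R231
namespace Setup
variable {n : ℕ} {G : Setup n}

variable (G) in
/-- `sdk k ([0,1] × x)` is small enough for cutting at `z` -/
def SmK {z : M n} (Pl : Pole G z) (a b : M n) (k : ℕ) (x : Ch (Cur n)) : Prop :=
  sdk k (cr (seg 0 1) x) ∈ sup {q : ℝ × Cur n | q.1 ∈ Icc (0 : ℝ) 1 ∧ q.2 ∈ G.Om a b ∧ q.2.at q.1 ∈ Pl.U} ⊔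
    sup {q : ℝ × Cur n | q.1 ∈ Icc (0 : ℝ) 1 ∧ q.2 ∈ G.Om a b ∧ q.2.at q.1 ≠ z}

variable {z : M n} (Pl : Pole G z) {T : Ch (M n) →ₗ[F2] F2} {a b : M n} {k : ℕ} {x : Ch (Cur n)}

theorem exists_SmK (hx : x ∈ sup (G.Om a b)) : ∃ k₀, ∀ k, k₀ ≤ k → G.SmK Pl a b k x := by
  obtain ⟨U, hU, hU'⟩ := continuousOn_iff'.1 (continuousOn_at (G := G)) Pl.U Pl.U_open
  obtain ⟨V, hV, hV'⟩ := continuousOn_iff'.1 (continuousOn_at (G := G)) {z}ᶜ isOpen_compl_singleton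
  have h1 : ∀ q : ℝ × Cur n, q.2 ∈ G.PS → (q ∈ U ↔ q.2.at q.1 ∈ Pl.U) := fun q hq =>
    ⟨fun h => ((Set.ext_iff.1 hU' q).2 ⟨h, mem_univ _, hq⟩).1,
      fun h => ((Set.ext_iff.1 hU' q).1 ⟨h, mem_univ _, hq⟩).1⟩
  have h2 : ∀ q : ℝ × Cur n, q.2 ∈ G.PS → (q ∈ V ↔ q.2.at q.1 ≠ z) := fun q hq =>
    ⟨fun h => ((Set.ext_iff.1 hV' q).2 ⟨h, mem_univ _, hq⟩).1,
      fun h => ((Set.ext_iff.1 hV' q).1 ⟨h, mem_univ _, hq⟩).1⟩
  obtain ⟨k₀, hk⟩ := small2 hU hV (A := Icc (0 : ℝ) 1 ×ˢ G.Om a b) (fun q hq => by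
    by_cases h : q.2.at q.1 = z
    · exact Or.inl ((h1 q hq.2.1).2 (by rw [h]; exact Pl.K_sub Pl.mem_K))
    · exact Or.inr ((h2 q hq.2.1).2 h)) (cr_mem crs_seg_mem hx)
  refine ⟨k₀, fun k hk' => ?_⟩
  refine sup_le_sup (sup_mono ?_) (sup_mono ?_) (hk k hk')
  · exact fun q hq => ⟨hq.1.1, hq.1.2, (h1 q hq.1.2.1).1 hq.2⟩
  · exact fun q hq => ⟨hq.1.1, hq.1.2, (h2 q hq.1.2.1).1 hq.2⟩

theorem continuousOn_cut :
    ContinuousOn (G.cut z) {q : ℝ × Cur n | q.1 ∈ Icc (0 : ℝ) 1 ∧ q.2 ∈ G.PS ∧ G.ρ z (q.2.at q.1) < G.δ} := by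
  refine ContinuousOn.prodMk ?_ ?_
  · refine continuousOn_conc'.comp (f := fun q : ℝ × Cur n => (hd q.1 q.2, cst z))
      ((continuousOn_hd.mono fun q hq => ⟨hq.1, hq.2.1⟩).prodMk continuousOn_const) fun q hq => ?_
    have h := hd_mem hq.2.1 hq.1
    refine ⟨h.1, (cst_mem z).1, ?_⟩
    show G.ρ (hd q.1 q.2).fi (cst z).st < G.δ
    rw [h.2.2, cst_st, G.ρ_comm]
    exact hq.2.2
  · refine continuousOn_conc'.comp (f := fun q : ℝ × Cur n => (cst z, tl q.1 q.2))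
      (continuousOn_const.prodMk (continuousOn_tl.mono fun q hq => ⟨hq.1, hq.2.1⟩)) fun q hq => ?_
    have h := tl_mem hq.2.1 hq.1
    refine ⟨(cst_mem z).1, h.1, ?_⟩
    show G.ρ (cst z).fi (tl q.1 q.2).st < G.δ
    rw [h.2.1, cst_fi]
    exact hq.2.2

theorem cut_mem {q : ℝ × Cur n} (h1 : q.1 ∈ Icc (0 : ℝ) 1) (h2 : q.2 ∈ G.Om a b) (h3 : G.ρ z (q.2.at q.1) < G.δ) :
    G.cut z q ∈ G.Om a z ×ˢ G.Om z b ∧
      (G.cut z q).1.1 + (G.cut z q).2.1 = q.2.1 + 2 * G.ρ z (q.2.at q.1) := by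
  have h := hd_mem h2.1 h1
  have h' := tl_mem h2.1 h1
  have e1 : G.ρ (hd q.1 q.2).fi (cst z).st = G.ρ z (q.2.at q.1) := by rw [h.2.2, cst_st, G.ρ_comm]
  have e2 : G.ρ (cst z).fi (tl q.1 q.2).st = G.ρ z (q.2.at q.1) := by rw [h'.2.1, cst_fi]
  obtain ⟨a1, a2⟩ := conc'_mem h.1 (cst_mem z).1 (e1 ▸ h3)
  obtain ⟨b1, b2⟩ := conc'_mem (cst_mem z).1 h'.1 (e2 ▸ h3)
  rw [h.2.1, cst_fi, h2.2.1] at a1
  rw [h'.2.2, cst_st, h2.2.2] at b1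
  refine ⟨⟨a1, b1⟩, ?_⟩
  show (G.conc' (hd q.1 q.2) (cst z)).1 + (G.conc' (cst z) (tl q.1 q.2)).1 = _
  rw [a2, b2, e1, e2, hd_fst, tl_fst, cst_fst]
  ring

theorem kap_cap_zero (hT : Pl.IsThom T) {c : Ch (ℝ × Cur n)} (hc : c ∈ sup {q : ℝ × Cur n | q.2.at q.1 ≠ z}) :
    cap (T ∘ₗ mp (fun q : ℝ × Cur n => q.2.at q.1)) c = 0 :=
  cap_zero hc fun y hy => hT.2.2.1 _ (mp_mem hy fun q hq => hq)

theorem kap_cap_mem (hT : Pl.IsThom T) (hs : G.SmK Pl a b k x) :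
    cap (T ∘ₗ mp (fun q : ℝ × Cur n => q.2.at q.1)) (sdk k (cr (seg 0 1) x)) ∈
      sup {q : ℝ × Cur n | q.1 ∈ Icc (0 : ℝ) 1 ∧ q.2 ∈ G.Om a b ∧ q.2.at q.1 ∈ Pl.U} := by
  obtain ⟨u, hu, v, hv, huv⟩ := Submodule.mem_sup.1 hs
  rw [← huv, map_add, kap_cap_zero Pl hT (sup_mono (fun q hq => hq.2.2) hv), add_zero]
  exact cap_mem _ hu

theorem kap_cont : ContinuousOn (G.cut z)
    {q : ℝ × Cur n | q.1 ∈ Icc (0 : ℝ) 1 ∧ q.2 ∈ G.Om a b ∧ q.2.at q.1 ∈ Pl.U} :=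
  continuousOn_cut.mono fun q hq => ⟨hq.1, hq.2.1.1, Pl.U_small _ hq.2.2⟩

theorem kap_mem (hT : Pl.IsThom T) (hs : G.SmK Pl a b k x) : G.kap T k z x ∈ sup (G.Om a z ×ˢ G.Om z b) := by
  exact mp_mem (kap_cap_mem Pl hT hs) fun q hq => (cut_mem hq.1 hq.2.1 (Pl.U_small _ hq.2.2)).1

theorem dd_kap (hT : Pl.IsThom T) (hx : x ∈ sup (G.Om a b)) (hd : dd x = 0) (ha : a ≠ z) (hb : b ≠ z)
    (hs : G.SmK Pl a b k x) : dd (G.kap T k z x) = 0 := by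
  have hc : sdk k (cr (seg 0 1) x) ∈ sup (Icc (0 : ℝ) 1 ×ˢ G.Om a b) := sdk_mem k (cr_mem crs_seg_mem hx)
  have h1 : cap ((T ∘ₗ mp (fun q : ℝ × Cur n => q.2.at q.1)) ∘ₗ dd) (sdk k (cr (seg 0 1) x)) = 0 := by
    refine cap_zero hc fun y hy => ?_
    show T (mp _ (dd y)) = 0
    rw [mp_dd hy (continuousOn_at.mono fun q hq => ⟨mem_univ _, hq.2.1⟩)]
    exact hT.2.1 _
  have h2 : dd (sdk k (cr (seg 0 1) x)) ∈ sup {q : ℝ × Cur n | q.2.at q.1 ≠ z} := by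
    rw [dd_sdk, dd_cr, hd, map_zero, add_zero, dd_seg, map_add, LinearMap.add_apply]
    refine sdk_mem k (add_mem ?_ ?_)
    · refine sup_mono ?_ (cr_mem (pt_mem (mem_singleton (0 : ℝ))) hx)
      rintro ⟨t, p⟩ ⟨rfl, hp⟩
      show p.at 0 ≠ z
      rw [at_zero, hp.2.1]
      exact ha
    · refine sup_mono ?_ (cr_mem (pt_mem (mem_singleton (1 : ℝ))) hx)
      rintro ⟨t, p⟩ ⟨rfl, hp⟩
      show p.at 1 ≠ z
      rw [at_one, hp.2.2]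
      exact hb
  unfold kap
  rw [← mp_dd (kap_cap_mem Pl hT hs) (kap_cont Pl), dd_cap, h1, kap_cap_zero Pl hT h2, add_zero, map_zero]

theorem kap_hom (hT : Pl.IsThom T) {d e : ℕ} (hh : Hom d x) (h : d + 1 = n + e) : Hom e (G.kap T k z x) := by
  have h1 : Hom (n + e) (cr (seg 0 1) x) := by
    rw [← h, add_comm d 1]
    exact (hom_seg 0 1).cr hh
  exact (Hom.cap (hT.1.comp_mp _) (h1.sdk k)).mp _

theorem kap_lt (hT : Pl.IsThom T) {d : ℕ} (hh : Hom d x) (h : d + 1 < n) : G.kap T k z x = 0 := by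
  unfold kap
  rw [Hom.cap_lt (hT.1.comp_mp _) (((hom_seg 0 1).cr hh).sdk k) (by omega), map_zero]

theorem kap_Th (F : Fib G (Cur n)) (hT : Pl.IsThom T) (hx : x ∈ sup (G.Om a b)) (hs : G.SmK Pl a b k x)
    {H : ℝ × Cur n → Cur n} {g : Cur n × Cur n → Cur n} (hH : ContinuousOn H (Icc 0 1 ×ˢ G.Om a b))
    (hP : ∀ q ∈ Icc (0 : ℝ) 1 ×ˢ G.Om a b, H q ∈ F.P ∧ F.e (H q) = q.2.at q.1)
    (hg : ∀ q : ℝ × Cur n, q.1 ∈ Icc (0 : ℝ) 1 → q.2 ∈ G.Om a b → G.ρ z (q.2.at q.1) < G.δ →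
      g (G.cut z q) = F.nm z (H q)) :
    F.Sm Pl k (hty H x) ∧ mp g (G.kap T k z x) = F.Th z T k (hty H x) := by
  have hc0 : cr (seg 0 1) x ∈ sup (Icc (0 : ℝ) 1 ×ˢ G.Om a b) := cr_mem crs_seg_mem hx
  have hc := sdk_mem k hc0
  have e1 : sdk k (hty H x) = mp H (sdk k (cr (seg 0 1) x)) := by rw [crs_hty, mp_sdk k hc0 hH]
  constructor
  · obtain ⟨u, hu, v, hv, huv⟩ := Submodule.mem_sup.1 hs
    unfold Fib.Sm
    rw [e1, ← huv, map_add]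
    refine Submodule.add_mem_sup (mp_mem hu fun q hq => ?_) (mp_mem hv fun q hq => ?_)
    · have h := hP q ⟨hq.1, hq.2.1⟩
      exact ⟨h.1, h.2 ▸ hq.2.2⟩
    · have h := hP q ⟨hq.1, hq.2.1⟩
      exact ⟨h.1, h.2 ▸ hq.2.2⟩
  · have hw := kap_cap_mem Pl hT hs
    have e2 : cap ((T ∘ₗ mp F.e) ∘ₗ mp H) (sdk k (cr (seg 0 1) x)) =
        cap (T ∘ₗ mp (fun q : ℝ × Cur n => q.2.at q.1)) (sdk k (cr (seg 0 1) x)) := by
      refine cap_congr hc fun y hy => ?_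
      show T (mp F.e (mp H y)) = T (mp _ y)
      rw [mp_comp hy hH, mp_congr hy fun q hq => (hP q hq).2]
    show mp g (mp (G.cut z) _) = mp (F.nm z) (cap (T ∘ₗ mp F.e) (sdk k (hty H x)))
    rw [e1, ← mp_cap hc hH, e2, mp_comp hw (kap_cont Pl), mp_comp hw (hH.mono fun q hq => ⟨hq.1, hq.2.1⟩)]
    exact mp_congr hw fun q hq => hg q hq.1 hq.2.1 (Pl.U_small _ hq.2.2)

theorem snd_kap (hT : Pl.IsThom T) (hx : x ∈ sup (G.Om a b)) (hs : G.SmK Pl a b k x) :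
    (G.pathFib b).Sm Pl k (hty (fun q => tl q.1 q.2) x) ∧
      mp Prod.snd (G.kap T k z x) = (G.pathFib b).Th z T k (hty (fun q => tl q.1 q.2) x) := by
  refine kap_Th Pl (G.pathFib b) hT hx hs (continuousOn_tl.mono fun q hq => ⟨hq.1, hq.2.1⟩)
    (fun q hq => ?_) fun q h1 h2 h3 => ?_
  · have h := tl_mem hq.2.1 hq.1
    exact ⟨⟨h.1, h.2.2.trans hq.2.2.2⟩, h.2.1⟩
  · have h := tl_mem h2.1 h1
    exact conc'_cst_left h.1 (h.2.1 ▸ h3)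

theorem swap_kap (hT : Pl.IsThom T) (hx : x ∈ sup (G.Om a a)) (hs : G.SmK Pl a a k x) :
    G.loopFib.Sm Pl k (hty (fun q => rot q.1 q.2) x) ∧
      mp (fun q : Cur n × Cur n => conc q.2 q.1) (G.kap T k z x) =
        G.loopFib.Th z T k (hty (fun q => rot q.1 q.2) x) := by
  have hm : ∀ q : ℝ × Cur n, q.1 ∈ Icc (0 : ℝ) 1 → q.2 ∈ G.Om a a →
      tl q.1 q.2 ∈ G.Om (q.2.at q.1) a ∧ hd q.1 q.2 ∈ G.Om a (q.2.at q.1) := fun q h1 h2 =>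
    ⟨h2.2.2 ▸ tl_mem h2.1 h1, h2.2.1 ▸ hd_mem h2.1 h1⟩
  refine kap_Th Pl G.loopFib hT hx hs ?_ (fun q hq => ?_) fun q h1 h2 h3 => ?_
  · refine (continuousOn_conc (G := G)).comp (f := fun q : ℝ × Cur n => (tl q.1 q.2, hd q.1 q.2))
      ((continuousOn_tl.mono fun q hq => ⟨hq.1, hq.2.1⟩).prodMk
        (continuousOn_hd.mono fun q hq => ⟨hq.1, hq.2.1⟩)) fun q hq => ?_
    have h := hm q hq.1 hq.2
    exact ⟨h.1.1, h.2.1, h.1.2.2.trans h.2.2.1.symm⟩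
  · have h := hm q hq.1 hq.2
    have h' := conc_mem h.1 h.2
    exact ⟨⟨h'.1, h'.2.1.trans h'.2.2.symm⟩, h'.2.1⟩
  · obtain ⟨ht, hh⟩ := hm q h1 h2
    have h' := conc_mem ht hh
    have h4 : G.ρ (q.2.at q.1) z < G.δ := by rwa [G.ρ_comm]
    show conc (G.conc' (cst z) (tl q.1 q.2)) (G.conc' (hd q.1 q.2) (cst z)) =
      conc (G.gp z (conc (tl q.1 q.2) (hd q.1 q.2)).st)
        (conc (conc (tl q.1 q.2) (hd q.1 q.2)) (rev (G.gp z (conc (tl q.1 q.2) (hd q.1 q.2)).st)))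
    rw [conc'_cst_left ht.1 (ht.2.1 ▸ h3), conc'_cst_right hh.1 (hh.2.2 ▸ h4), h'.2.1, ht.2.1, hh.2.2,
      rev_gp h3, conc_assoc ht.1 hh.1 (gp_mem h4).1,
      conc_assoc (gp_mem h3).1 ht.1 (conc_mem hh (gp_mem h4)).1]

end Setup
end Crest.Agent.R231
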