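import Crest.Agent.R231.O.Path

/-! R231, block O: closed Moore paths and loops are homeomorphic, compatibly with level, reversal and rotation.
Continuity of `toL`: `continuousOn_toLoop`; `(p,t) ↦ p.ev (T * fract t)` is continuous on `CP × ℝ` (`ContinuousOn.comp_fract`-type
argument or closed cover by `[z, z+1]`).  Continuity of `toP` at `T = 0` by squeezing (`ρ (γ s) (γ 0) ≤ T` for `s ∈ [0,1]`). -/

set_option autoImplicit false
set_option linter.unusedVariables false
set_option linter.unusedSectionVars false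
open Set
open scoped Classical

noncomputable section
namespace Crest.Agent.R231
namespace Setup
variable {n : ℕ} {G : Setup n}

theorem lam_isLoop {p : Cur n} (h : p ∈ G.CP) : G.IsLoop (mkC p.1 (fun t => p.ev (p.1 * Int.fract t))) := by
  obtain ⟨⟨h0, hl, -, -⟩, hc⟩ := h
  have key : ∀ s t : ℝ, s ≤ t →
      G.ρ (p.ev (p.1 * Int.fract s)) (p.ev (p.1 * Int.fract t)) ≤ p.1 * |s - t| := by
    intro s t hst
    rcases (Int.floor_le_floor hst).eq_or_lt with e | e
    · refine (hl _ _).trans (le_of_eq ?_)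
      rw [← mul_sub, abs_mul, abs_of_nonneg h0, Int.fract, Int.fract, e, sub_sub_sub_cancel_right]
    · have h1 := hl (p.1 * Int.fract s) p.1
      have h2 := hl 0 (p.1 * Int.fract t)
      have h3 : p.ev 0 = p.ev p.1 := hc
      have h4 := mul_nonneg h0 (Int.fract_nonneg t)
      have h5 := mul_le_of_le_one_right h0 (Int.fract_lt_one s).le
      rw [abs_sub_comm, abs_of_nonneg (by linarith)] at h1 h2
      rw [h3] at h2
      have h6 : (⌊s⌋ : ℝ) + 1 ≤ ⌊t⌋ := by exact_mod_cast e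
      have h7 : 1 - Int.fract s + Int.fract t ≤ t - s := by
        unfold Int.fract
        linarith
      have h8 := mul_le_mul_of_nonneg_left h7 h0
      rw [abs_sub_comm, abs_of_nonneg (sub_nonneg.2 hst)]
      linarith [G.ρ_tri (p.ev (p.1 * Int.fract s)) (p.ev p.1) (p.ev (p.1 * Int.fract t))]
  refine ⟨h0, fun t => by simp only [mkC_ev, Int.fract_add_one], fun s t => ?_⟩
  rcases le_total s t with hst | hst
  · exact key s t hst
  · rw [G.ρ_comm, abs_sub_comm]
    exact key t s hst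

theorem lam_const {γ : G.Loop} (h : γ.T = 0) (s t : ℝ) : γ.ev s = γ.ev t := by
  have h1 := γ.lip s t
  rw [h, zero_mul] at h1
  exact G.ρ_eq_zero (le_antisymm h1 (G.ρ_nonneg _ _))

theorem lam_toP_ev (γ : G.Loop) (t : ℝ) : (G.toP γ).ev t = γ.ev (max 0 (min γ.T t) / γ.T) := rfl

theorem lam_clamp {T : ℝ} (hT : 0 ≤ T) (t : ℝ) : T * (max 0 (min T t) / T) = max 0 (min T t) ∧
    0 ≤ max 0 (min T t) / T ∧ max 0 (min T t) / T ≤ 1 := by
  refine ⟨?_, div_nonneg (le_max_left _ _) hT, div_le_one_of_le₀ (max_le hT (min_le_left _ _)) hT⟩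
  rcases hT.eq_or_lt with rfl | h
  · rw [zero_mul, max_eq_left (min_le_left _ _)]
  · exact mul_div_cancel₀ _ h.ne'

theorem lam_clamp_lip (T T' s t : ℝ) : |max 0 (min T s) - max 0 (min T' t)| ≤ max |T - T'| |s - t| := by
  refine (abs_max_sub_max_le_max _ _ _ _).trans (max_le ?_ (abs_min_sub_min_le_max _ _ _ _))
  rw [sub_self, abs_zero]
  exact le_max_of_le_left (abs_nonneg _)

theorem toL_T {p : Cur n} (h : p ∈ G.CP) : (G.toL p).T = p.1 := by
  exact toLoop_T (lam_isLoop h)

theorem toL_ev {p : Cur n} (h : p ∈ G.CP) (t : ℝ) : (G.toL p).ev t = p.ev (p.1 * Int.fract t) := by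
  exact toLoop_ev (lam_isLoop h) t

theorem toP_mem (γ : G.Loop) : G.toP γ ∈ G.CP := by
  have h0 := γ.T_nonneg
  refine ⟨⟨h0, fun s t => (γ.lip _ _).trans ?_, fun t ht => ?_, fun t ht => ?_⟩, ?_⟩
  · have h := lam_clamp_lip γ.T γ.T s t
    rw [sub_self, abs_zero, max_eq_right (abs_nonneg (s - t))] at h
    rw [← abs_of_nonneg h0, ← abs_mul, abs_of_nonneg h0, mul_sub, (lam_clamp h0 s).1, (lam_clamp h0 t).1]
    exact h
  · rw [lam_toP_ev, lam_toP_ev, max_eq_left ((min_le_right _ _).trans ht), max_eq_left (min_le_right _ _)]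
  · change γ.T ≤ t at ht
    change (G.toP γ).ev t = (G.toP γ).ev γ.T
    rw [lam_toP_ev, lam_toP_ev, min_eq_left ht, min_self]
  · change (G.toP γ).ev 0 = (G.toP γ).ev γ.T
    rcases h0.eq_or_lt with h | h
    · exact lam_const h.symm _ _
    · rw [lam_toP_ev, lam_toP_ev, max_eq_left (min_le_right _ _), min_self, max_eq_right h0, zero_div,
        div_self h.ne', ← γ.per 0, zero_add]

theorem toP_fst (γ : G.Loop) : (G.toP γ).1 = γ.T := rfl

theorem continuousOn_toL : ContinuousOn G.toL G.CP := by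
  have h0 : 0 ≤ G.cL := zero_le_one.trans G.one_le_cL
  refine (LipschitzOnWith.of_dist_le' (K := 1 + G.cL) fun p hp q hq => ?_).continuousOn
  have h1 : |p.1 - q.1| ≤ dist p q := by
    rw [Prod.dist_eq]
    exact le_max_left _ _
  have h2 := mul_nonneg h0 (dist_nonneg (x := p) (y := q))
  refine Loop.dist_le (by rw [toL_T hp, toL_T hq]; linarith) fun t => ?_
  rw [toL_ev hp, toL_ev hq]
  have h3 := dist_triangle (p.ev (p.1 * Int.fract t)) (p.ev (q.1 * Int.fract t)) (q.ev (q.1 * Int.fract t))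
  have h4 := Cur.dist_ev_le p q (q.1 * Int.fract t)
  have h5 := hp.1.2.1 (p.1 * Int.fract t) (q.1 * Int.fract t)
  rw [← sub_mul, abs_mul, abs_of_nonneg (Int.fract_nonneg t)] at h5
  have h6 := mul_le_mul_of_nonneg_left
    (h5.trans ((mul_le_of_le_one_right (abs_nonneg _) (Int.fract_lt_one t).le).trans h1)) h0
  linarith [G.dist_le (p.ev (p.1 * Int.fract t)) (p.ev (q.1 * Int.fract t))]

theorem continuous_toP : Continuous G.toP := by
  have h0 : 0 ≤ G.cL := zero_le_one.trans G.one_le_cL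
  refine (LipschitzWith.of_dist_le' (K := 1 + 2 * G.cL) fun γ γ' => ?_).continuous
  have h1 := γ.abs_T_le γ'
  have h2 := mul_nonneg h0 (dist_nonneg (x := γ) (y := γ'))
  refine Cur.dist_le (by rw [toP_fst, toP_fst]; linarith) fun t => ?_
  rw [lam_toP_ev, lam_toP_ev]
  obtain ⟨a1, -, -⟩ := lam_clamp γ.T_nonneg t
  obtain ⟨b1, b2, b3⟩ := lam_clamp γ'.T_nonneg t
  have h7 := lam_clamp_lip γ.T γ'.T t t
  rw [sub_self, abs_zero, max_eq_left (abs_nonneg (γ.T - γ'.T)), ← a1, ← b1] at h7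
  generalize max 0 (min γ.T t) / γ.T = a at *
  generalize max 0 (min γ'.T t) / γ'.T = b at *
  have h3 := dist_triangle (γ.ev a) (γ.ev b) (γ'.ev b)
  have h4 := γ.dist_ev_le γ' b
  have h5 : γ.T * |a - b| ≤ 2 * dist γ γ' := by
    rw [← abs_of_nonneg γ.T_nonneg, ← abs_mul,
      show γ.T * (a - b) = (γ.T * a - γ'.T * b) - (γ.T - γ'.T) * b by ring]
    refine (abs_sub _ _).trans ?_
    rw [abs_mul, abs_of_nonneg b2]
    linarith [mul_le_of_le_one_right (abs_nonneg (γ.T - γ'.T)) b3]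
  have h6 := mul_le_mul_of_nonneg_left ((γ.lip a b).trans h5) h0
  linarith [G.dist_le (γ.ev a) (γ.ev b)]

theorem toL_toP (γ : G.Loop) : G.toL (G.toP γ) = γ := by
  refine Loop.ext' (toL_T (toP_mem γ)) fun t => ?_
  rw [toL_ev (toP_mem γ), lam_toP_ev, toP_fst]
  rcases γ.T_nonneg.eq_or_lt with h | h
  · exact lam_const h.symm _ _
  · rw [min_eq_right (mul_le_of_le_one_right h.le (Int.fract_lt_one t).le),
      max_eq_right (mul_nonneg h.le (Int.fract_nonneg t)), mul_div_cancel_left₀ _ h.ne']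
    have h1 := γ.per.sub_int_mul_eq (x := t) ⌊t⌋
    rwa [mul_one] at h1

theorem toP_toL {p : Cur n} (h : p ∈ G.CP) : G.toP (G.toL p) = p := by
  refine Cur.ext' (toL_T h) fun t => ?_
  rw [lam_toP_ev, toL_ev h, toL_T h]
  obtain ⟨⟨h0, -, h1, h2⟩, hc⟩ := h
  rcases le_or_gt t 0 with ht | ht
  · rw [max_eq_left ((min_le_right _ _).trans ht), zero_div, Int.fract_zero, mul_zero, h1 t ht]
  rcases le_or_gt p.1 t with ht' | ht'
  · have e : p.1 * Int.fract (p.1 / p.1) = 0 := by
      rcases eq_or_ne p.1 0 with h3 | h3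
      · rw [h3, zero_mul]
      · rw [div_self h3, Int.fract_one, mul_zero]
    rw [min_eq_left ht', max_eq_right h0, e, h2 t ht']
    exact hc
  · have h3 : 0 < p.1 := ht.trans ht'
    rw [min_eq_right ht'.le, max_eq_right ht.le,
      Int.fract_eq_self.2 ⟨div_nonneg ht.le h0, (div_lt_one h3).2 ht'⟩, mul_div_cancel₀ _ h3.ne']

theorem toP_tau (γ : G.Loop) : G.toP γ.tau = rev (G.toP γ) := by
  refine Cur.ext' rfl fun t => ?_
  change γ.ev (-(max 0 (min γ.T t) / γ.T)) = γ.ev (max 0 (min γ.T (γ.T - t)) / γ.T)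
  rcases γ.T_nonneg.eq_or_lt with h | h
  · exact lam_const h.symm _ _
  have e : max 0 (min γ.T (γ.T - t)) = γ.T - max 0 (min γ.T t) := by
    simp only [max_def, min_def]
    split_ifs <;> linarith
  rw [e, sub_div, div_self h.ne', ← γ.per, neg_add_eq_sub]

theorem toP_shift (γ : G.Loop) {u : ℝ} (hu : u ∈ Icc (0 : ℝ) 1) : G.toP (γ.shift u) = rot u (G.toP γ) := by
  refine Cur.ext' (show γ.T = (1 - u) * γ.T + u * γ.T by ring) fun t => ?_
  change γ.ev (max 0 (min γ.T t) / γ.T + u) = if t ≤ (1 - u) * γ.T then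
    γ.ev (max 0 (min γ.T (max t 0 + u * γ.T)) / γ.T) else
    γ.ev (max 0 (min γ.T (min (t - (1 - u) * γ.T) (u * γ.T))) / γ.T)
  rcases γ.T_nonneg.eq_or_lt with h | h
  · split_ifs <;> exact lam_const h.symm _ _
  have h1 := mul_nonneg hu.1 h.le
  have h2 := mul_nonneg (sub_nonneg.2 hu.2) h.le
  split_ifs with ht
  · have e : max 0 (min γ.T (max t 0 + u * γ.T)) = max 0 (min γ.T t) + u * γ.T := by
      simp only [max_def, min_def]
      split_ifs <;> linarith
    rw [e, add_div, mul_div_cancel_right₀ _ h.ne']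
  · have e : max 0 (min γ.T (min (t - (1 - u) * γ.T) (u * γ.T))) = max 0 (min γ.T t) - (1 - u) * γ.T := by
      simp only [max_def, min_def]
      split_ifs <;> linarith
    rw [e, sub_div, mul_div_cancel_right₀ _ h.ne', ← γ.per (_ - _)]
    congr 1
    ring

theorem mp_toP_rot {x : Ch (Cur n)} (hx : x ∈ sup G.CP) :
    mp G.toP (G.act (seg 0 1) (mp G.toL x)) = hty (fun q => rot q.1 q.2) x := by
  have e : G.act (seg 0 1) (mp G.toL x) = hty (fun p : ℝ × G.Loop => p.2.shift p.1) (mp G.toL x) := rfl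
  have hH : ContinuousOn (fun p : ℝ × Cur n => (G.toL p.2).shift p.1) (Icc 0 1 ×ˢ G.CP) :=
    continuous_shift.comp_continuousOn
      (continuousOn_fst.prodMk (continuousOn_toL.comp continuousOn_snd fun p hp => hp.2))
  rw [e, hty_mp hx continuousOn_toL, mp_hty hx hH, crs_hty, crs_hty]
  refine mp_congr (cr_mem crs_seg_mem hx) fun p hp => ?_
  rw [toP_shift _ hp.1, toP_toL hp.2]

theorem mp_toP_tauC (c : Ch G.Loop) : mp G.toP (G.tauC c) = mp rev (mp G.toP c) := by
  unfold tauC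
  rw [mp_comp (mem_sup_univ c) continuous_tau.continuousOn,
    mp_comp (mem_sup_univ c) continuous_toP.continuousOn]
  simp only [toP_tau]

end Setup
end Crest.Agent.R231
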