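import Crest.Agent.R231.O.CP
import Crest.Agent.R231.O.Lam

/-! R231, block O: global structure of the filtered homology of the loop space.
`s k = lev q q k` (`q = pl false`), `α k = mp toL (θ k)` with `θ k` from `exists_rep q q k`, `Φ = Φ₀ ∘ mp toP` with `Φ₀` from `exists_Phi` for the
Thom cocycle `T ∘ mp (p, ·)` of a diagonal cocycle `T` (`exists_diag`), `Cg` = sum of all constants `+ 1`.  Transfer every statement along
`mp toP`, `mp toL` (mutually inverse chain maps preserving levels and degrees).  `Φ (BC α) = Φ (act (seg 0 1) α)` (`BC_rot`)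
`= Φ₀ (hty rot θ)` (`mp_toP_rot`), non-zero by `swap_kap`, `delta`.  `Φ_τ`: reduce to homogeneous cycles, `Th_rev`, and `mp rev` preserves `Null`. -/

set_option autoImplicit false
set_option linter.unusedVariables false
set_option linter.unusedSectionVars false
open Set
open scoped Classical

noncomputable section
namespace Crest.Agent.R231
namespace Setup
variable {n : ℕ} (G : Setup n)

theorem gl_P_mem (c : Ch G.Loop) : mp G.toP c ∈ sup G.CP := mp_mem (mem_sup_univ c) fun γ _ => toP_mem γ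

theorem gl_P_Lv {l : ℝ} {c : Ch G.Loop} (hc : c ∈ sup (G.Lt l)) : mp G.toP c ∈ sup (G.CP ∩ Lv n l) :=
  mp_mem hc fun γ hγ => ⟨toP_mem γ, by rw [Lv, mem_ofPred_eq, toP_fst]; exact hγ⟩

theorem gl_L_Lt {l : ℝ} {x : Ch (Cur n)} (hx : x ∈ sup (G.CP ∩ Lv n l)) : mp G.toL x ∈ sup (G.Lt l) :=
  mp_mem hx fun p hp => by rw [Lt, mem_ofPred_eq, toL_T hp.1]; exact hp.2

theorem gl_dd_P (c : Ch G.Loop) : dd (mp G.toP c) = mp G.toP (dd c) :=
  (mp_dd (mem_sup_univ c) continuous_toP.continuousOn).symm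

theorem gl_dd_L {x : Ch (Cur n)} (hx : x ∈ sup G.CP) : dd (mp G.toL x) = mp G.toL (dd x) :=
  (mp_dd hx continuousOn_toL).symm

theorem gl_LP (c : Ch G.Loop) : mp G.toL (mp G.toP c) = c := by
  rw [mp_comp (mem_sup_univ c) continuous_toP.continuousOn]
  simp only [toL_toP, mp_id]

theorem gl_PL {x : Ch (Cur n)} (hx : x ∈ sup G.CP) : mp G.toP (mp G.toL x) = x := by
  rw [mp_comp hx continuousOn_toL, mp_congr hx (g := fun p => p) fun p hp => toP_toL hp, mp_id]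

theorem gl_Om (x : M n) : G.Om x x ⊆ G.CP := fun p hp => ⟨hp.1, hp.2.1.trans hp.2.2.symm⟩

theorem gl_dd_pr {X : Type} [TopologicalSpace X] {c : Ch X} (h : dd c = 0) (i : ℕ) : dd (pr i c) = 0 := by
  cases i with
  | zero => exact dd_pr_zero c
  | succ i => rw [dd_pr, h, map_zero]

theorem gl_rev_CP : MapsTo rev G.CP G.CP := fun p hp => G.gl_Om p.st (rev_mem ⟨hp.1, rfl, hp.2.symm⟩)

theorem gl_rev {Pl : Pole G (pl n true)} {T : Ch (M n) →ₗ[F2] F2} (hT : Pl.IsThom T) {Φ : Ch (Cur n) →ₗ[F2] F2}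
    (hΦ : ∀ (i k : ℕ) (c : Ch (Cur n)), c ∈ sup G.CP → Hom i c → dd c = 0 → G.loopFib.Sm Pl k c →
      (Φ c = 0 ↔ G.Null (pl n true) (pl n true) (G.loopFib.Th (pl n true) T k c)))
    {c : Ch (Cur n)} (hc : c ∈ sup G.CP) (hd : dd c = 0) : Φ (mp rev c) = Φ c := by
  have hr : ContinuousOn (rev : Cur n → Cur n) G.CP := continuousOn_rev.mono fun p hp => hp.1
  have h1 : ∀ (i : ℕ) (x : Ch (Cur n)), x ∈ sup G.CP → Hom i x → dd x = 0 → Φ x = 0 → Φ (mp rev x) = 0 := by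
    intro i x hx hh hd h0
    obtain ⟨k, hk⟩ := G.loopFib.exists_Sm Pl hx
    obtain ⟨h2, h3⟩ := Th_rev Pl hT hx (hk k le_rfl)
    obtain ⟨w, hw, e⟩ := (hΦ i k x hx hh hd (hk k le_rfl)).1 h0
    refine (hΦ i k _ (mp_mem hx G.gl_rev_CP) (hh.mp _) (by rw [← mp_dd hx hr, hd, map_zero]) h2).2
      ⟨mp rev w, mp_mem hw fun p hp => rev_mem hp, ?_⟩
    rw [h3, ← e, mp_dd hw (continuousOn_rev.mono fun p hp => hp.1)]
  have h2 : ∀ (i : ℕ) (x : Ch (Cur n)), x ∈ sup G.CP → Hom i x → dd x = 0 → Φ (mp rev x) = Φ x := by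
    intro i x hx hh hd
    have h3 := h1 i (mp rev x) (mp_mem hx G.gl_rev_CP) (hh.mp _) (by rw [← mp_dd hx hr, hd, map_zero])
    rw [mp_comp hx hr] at h3
    simp only [rev_rev, mp_id] at h3
    rcases F2_cases (Φ x) with h | h
    · rw [h1 i x hx hh hd h, h]
    · rcases F2_cases (Φ (mp rev x)) with h' | h'
      · rw [h3 h'] at h; exact absurd h zero_ne_one
      · rw [h, h']
  obtain ⟨N, -, hN⟩ := exists_sum_pr c
  rw [← hN, map_sum, map_sum, map_sum]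
  exact Finset.sum_congr rfl fun i _ => h2 i _ (pr_mem i hc) (hom_pr i c) (gl_dd_pr hd i)

theorem global (hn : 2 ≤ n) : ∃ (s : ℕ → ℝ) (Cg : ℝ) (α : ℕ → Ch G.Loop) (Φ : Ch G.Loop →ₗ[F2] F2),
    0 < Cg ∧ (∀ k, 0 ≤ s k) ∧ (∀ i k, s i + s k ≤ s (i + k + 1) + Cg) ∧ (∀ k, s (k + 1) ≤ s k + Cg) ∧
    (∀ l c, c ∈ sup (G.Lt l) → (∃ w, dd w = c) → ∃ w ∈ sup (G.Lt (l + Cg)), dd w = c) ∧
    (∀ k, pr (k * (n - 1)) (α k) = α k) ∧ (∀ k, dd (α k) = 0) ∧ (∀ k, α k ∈ sup (G.Lt (s k + Cg))) ∧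
    (∀ c, Φ (dd c) = 0) ∧
    (∀ i c, pr i c = c → dd c = 0 → Φ c ≠ 0 → ∃ k, i = n + k * (n - 1)) ∧
    (∀ i c, pr i c = c → dd c = 0 → Φ c = 0 →
      (∃ w, dd w = c) ∨ ∃ k, i = k * (n - 1) ∧ ∃ w, dd w = c + α k) ∧
    (∀ c, dd c = 0 → Φ (G.tauC c) = Φ c) ∧ (∀ k, Φ (α k) = 0) ∧ (∀ k, Odd k → Φ (G.BC (α k)) = 1) ∧
    (∀ i c, pr i c = c → dd c = 0 → ∃ c' ∈ sup (G.Lt (s (i / (n - 1)) + Cg)), ∃ w, dd w = c + c') ∧
    (∀ l i c, pr i c = c → dd c = 0 → c ∈ sup (G.Lt l) → (¬ ∃ w, dd w = c) → s (i / (n - 1) - 2) ≤ l + Cg) := by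
  obtain ⟨T₀, hT₀⟩ := G.exists_diag hn
  obtain ⟨Pl⟩ := G.exists_pole (pl n true)
  have hT := (hT₀.2.2.2 _ Pl).2
  obtain ⟨Φ, Φ1, Φ2⟩ := exists_Phi Pl hn hT
  choose θ θ1 θ2 using G.exists_rep hn (pl n false) (pl n false)
  obtain ⟨C₁, c1, h1⟩ := G.lev_super hn
  obtain ⟨C₂, c2, h2⟩ := G.lev_step hn
  obtain ⟨C₃, c3, h3⟩ := G.barsCP hn
  obtain ⟨C₄, c4, h4⟩ := G.upCP hn
  obtain ⟨C₅, c5, h5⟩ := G.lowCP hn
  obtain ⟨C₆, -, h6⟩ := reduce Pl hn hT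
  have θ3 : ∀ k, θ k ∈ sup G.CP := fun k => sup_mono (G.gl_Om _) (θ1 k).1
  have hLt : ∀ {l l' : ℝ}, l ≤ l' → sup (G.Lt l) ≤ sup (G.Lt l') := fun h => sup_mono fun γ hγ => lt_of_lt_of_le hγ h
  have αd : ∀ k, dd (mp G.toL (θ k)) = 0 := fun k => by rw [G.gl_dd_L (θ3 k), (θ1 k).2.2.1, map_zero]
  have Φd : ∀ c, Φ (mp G.toP (dd c)) = 0 := fun c => by rw [← G.gl_dd_P]; exact Φ1 _ (G.gl_P_mem c)
  have Pd : ∀ {c : Ch G.Loop}, dd c = 0 → dd (mp G.toP c) = 0 := fun h => by rw [G.gl_dd_P, h, map_zero]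
  refine ⟨G.lev (pl n false) (pl n false), C₁ + C₂ + C₃ + C₄ + C₅ + 1, fun k => mp G.toL (θ k), Φ ∘ₗ mp G.toP,
    by positivity, lev_nonneg _ _, fun i k => by linarith [h1 false i k], fun k => by linarith [h2 false false false false k],
    ?_, fun k => (θ1 k).2.1.mp _, αd, fun k => hLt (by linarith)
      (G.gl_L_Lt (sup_mono (inter_subset_inter_left _ (G.gl_Om _)) (θ2 k))), Φd, ?_, ?_, fun c hc => ?_, fun k => ?_,
    ?_, ?_, ?_⟩
  · rintro l c hc ⟨w, rfl⟩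
    obtain ⟨w', hw', e⟩ := h3 l _ (G.gl_P_Lv hc) ⟨_, G.gl_P_mem w, G.gl_dd_P w⟩
    refine ⟨mp G.toL w', hLt (by linarith) (G.gl_L_Lt hw'), ?_⟩
    rw [G.gl_dd_L (sup_mono inter_subset_left hw'), e, gl_LP]
  · intro i c hh hd h0
    have hh' : Hom i (mp G.toP c) := Hom.mp hh _
    obtain ⟨k, hk⟩ := G.loopFib.exists_Sm Pl (G.gl_P_mem c)
    have hN := mt (Φ2 i k _ (G.gl_P_mem c) hh' (Pd hd) (hk k le_rfl)).2 h0
    rcases lt_or_ge i n with hi | hi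
    · exact absurd (G.loopFib.Th_lt Pl hT k hh' hi ▸ Null.zero _ _) hN
    obtain ⟨d, rfl⟩ := Nat.exists_eq_add_of_le hi
    obtain ⟨l, hl⟩ := exists_mem_Lt c
    have hm := G.loopFib.Th_mem Pl hT (loopFib_L_univ (G := G) l ▸ G.gl_P_Lv hl) (hk k le_rfl)
    rw [loopFib_L] at hm
    by_contra! hne
    refine hN (vanish hn (sup_mono inter_subset_left hm) (G.loopFib.Th_hom Pl hT k hh') ?_ fun j hj => hne j (by rw [hj]))
    rw [G.loopFib.dd_Th Pl hT (G.gl_P_mem c) (hk k le_rfl), Pd hd, map_zero]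
  · intro i c hh hd h0
    have hh' : Hom i (mp G.toP c) := Hom.mp hh _
    obtain ⟨k, hk⟩ := G.loopFib.exists_Sm Pl (G.gl_P_mem c)
    obtain ⟨l, hl⟩ := exists_mem_Lt c
    obtain ⟨c₁, a1, a2, w, a3, a4⟩ := h6 l k _ (G.gl_P_Lv hl) (Pd hd) (hk k le_rfl)
      ((Φ2 i k _ (G.gl_P_mem c) hh' (Pd hd) (hk k le_rfl)).1 h0)
    have b1 : pr i c₁ ∈ sup (G.Om (pl n false) (pl n false)) := pr_mem i (sup_mono inter_subset_left a1)
    have b2 : dd (pr (i + 1) w) = mp G.toP c + pr i c₁ := by rw [dd_pr, a4, map_add, hh']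
    have b3 : ∀ x, G.Null (pl n false) (pl n false) (pr i c₁ + x) → ∃ w, dd w = c + mp G.toL x := by
      rintro x ⟨w', hw', e⟩
      refine ⟨mp G.toL (pr (i + 1) w + w'), ?_⟩
      rw [G.gl_dd_L (add_mem (pr_mem _ (sup_mono inter_subset_left a3)) (sup_mono (G.gl_Om _) hw')), map_add dd, b2, e,
        add_assoc, ← add_assoc (pr i c₁), add_self, zero_add, map_add, gl_LP]
    have b4 : G.Null (pl n false) (pl n false) (pr i c₁) → ∃ w, dd w = c := fun h => by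
      simpa using b3 0 (by rwa [add_zero])
    by_cases hi : ∃ j, i = j * (n - 1)
    · obtain ⟨j, rfl⟩ := hi
      exact ((θ1 j).dichot hn b1 (hom_pr _ _) (gl_dd_pr a2 _)).imp b4 fun h => ⟨j, rfl, b3 _ h⟩
    · exact Or.inl (b4 (vanish hn b1 (hom_pr _ _) (gl_dd_pr a2 _) (not_exists.1 hi)))
  · rw [LinearMap.comp_apply, LinearMap.comp_apply, mp_toP_tauC]
    exact G.gl_rev hT Φ2 (G.gl_P_mem c) (Pd hc)
  · have hq : θ k ∈ sup (G.loopFib.ov {pl n true}ᶜ) := sup_mono (fun x hx => And.intro (G.gl_Om _ hx) fun e =>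
      anti_ne (pl n true) (by rw [← pl_not]; exact hx.2.1.symm.trans e)) (θ1 k).1
    rw [LinearMap.comp_apply, G.gl_PL (θ3 k)]
    refine (Φ2 _ 0 _ (θ3 k) (θ1 k).2.1 (θ1 k).2.2.1 (Fib.Sm.of_mem _ Pl hq)).2 ?_
    rw [G.loopFib.Th_zero Pl hT 0 hq]
    exact Null.zero _ _
  · intro k hk
    obtain ⟨j, rfl, hj⟩ : ∃ j, k = j + 1 ∧ Even j := by
      obtain ⟨j, rfl⟩ := hk
      exact ⟨2 * j, rfl, even_two_mul j⟩
    obtain ⟨w, hw⟩ := G.BC_rot (αd (j + 1))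
    obtain ⟨k₁, hk₁⟩ := delta hn hT₀ false hj (θ1 (j + 1))
    obtain ⟨k₂, hk₂⟩ := exists_SmK Pl (θ1 (j + 1)).1
    obtain ⟨b1, b2⟩ := swap_kap Pl hT (θ1 (j + 1)).1 (hk₂ (max k₁ k₂) (le_max_right _ _))
    have b3 := mp_toP_rot (θ3 (j + 1))
    have b4 : dd (G.act (seg 0 1) (mp G.toL (θ (j + 1)))) = 0 := by
      have := dd_dd w
      rwa [hw, map_add, dd_BC, αd, map_zero, zero_add] at this
    have b5 : Hom ((j + 1) * (n - 1) + 1) (hty (fun q => rot q.1 q.2) (θ (j + 1))) := by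
      rw [Hom, ← hty_pr, (θ1 (j + 1)).2.1]
    have b6 := mt (Φ2 _ _ _ (b3 ▸ G.gl_P_mem _) b5 (b3 ▸ Pd b4) b1).1 (b2 ▸ hk₁ _ (le_max_left _ _))
    have b7 := Φd w
    rw [hw, map_add, map_add, b3, (F2_cases _).resolve_left b6] at b7
    rcases F2_cases (Φ (mp G.toP (G.BC (mp G.toL (θ (j + 1)))))) with h | h
    · rw [h, zero_add] at b7; exact absurd b7 one_ne_zero
    · exact h
  · intro i c hh hd
    obtain ⟨c', a1, w, a2, a3⟩ := h4 i _ (G.gl_P_mem c) (Hom.mp hh _) (Pd hd)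
    refine ⟨mp G.toL c', hLt (by linarith) (G.gl_L_Lt a1), mp G.toL w, ?_⟩
    rw [G.gl_dd_L a2, a3, map_add, gl_LP]
  · intro l i c hh hd hc hn'
    have := h5 l i _ (G.gl_P_Lv hc) (Hom.mp hh _) (Pd hd) fun ⟨w, hw, e⟩ =>
      hn' ⟨mp G.toL w, by rw [G.gl_dd_L hw, e, gl_LP]⟩
    linarith

end Setup
end Crest.Agent.R231
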