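import Crest.Agent.R231.O.Trans
import Crest.Agent.R231.O.Gysin

/-! R231, block O: homology of the based path spaces (Wang sequence of the contractible space of paths ending at `-p`).
`F = pathFib (anti p)`, `w = hty tl x`, `dd w = x + aug x • pt (cst (-p))` lies over `-p ∉ K`.
`wang_surj`: `key` with `y = Th w`, `z = 0`, then `con_of_Bdy`.  `wang_inj`: `key` with `y = 0`, then `fib_inj`.
`wang_con`: if `con y` bounds in the fibre then (`rt_hty`) `dd (bx y) = dd b` with `b` over `Kᶜ`; the degree-`(n+d)` part of `bx y + b`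
is a cycle of the contractible space `P` (`dd_hty_tl`), so `bx y` is a relative boundary; `Th_Bdy`, `Th_bx`.
`bars0`: for a `0`-chain `Th w = 0` (`Th_lt`, degree `1 < n`), `key`, `fib_inj`; other end points by `trans_null` with finitely many
fixed paths.  `exists_gen`, `dichot`, `vanish`: strong induction on the degree for all end points at once (transport), using
`exists_pole`, `exists_diag` (for a Thom cocycle); degree `0` by `bars0`/`aug`. -/

set_option autoImplicit false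
set_option linter.unusedVariables false
set_option linter.unusedSectionVars false
open Set
open scoped Classical

noncomputable section
namespace Crest.Agent.R231
namespace Setup
variable {n : ℕ} {G : Setup n}

theorem om_exists_L {a b : M n} {x : Ch (Cur n)} (hx : x ∈ sup (G.Om a b)) :
    ∃ l, x ∈ sup ((G.pathFib b).L {a} l) := by
  obtain ⟨l, hl⟩ := exists_mem_Lv x
  exact ⟨l, by rw [pathFib_L]; exact mem_sup_inter hx hl⟩

theorem om_Lv_mono {A : Set (Cur n)} {l l' : ℝ} (h : l ≤ l') : sup (A ∩ Lv n l) ≤ sup (A ∩ Lv n l') :=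
  sup_mono fun q hq => ⟨hq.1, lt_of_lt_of_le hq.2 h⟩

theorem om_of_L {a b : M n} {x : Ch (Cur n)} {l : ℝ} (hx : x ∈ sup ((G.pathFib b).L {a} l)) : x ∈ sup (G.Om a b) := by
  rw [pathFib_L] at hx
  exact sup_mono inter_subset_left hx

theorem om_hom_hty {X Y : Type} [TopologicalSpace X] [TopologicalSpace Y] (H : ℝ × X → Y) {d : ℕ} {x : Ch X}
    (h : Hom d x) : Hom (d + 1) (hty H x) := by
  unfold Hom at h ⊢
  rw [← hty_pr, h]

theorem om_tl {b : M n} {A : Set (M n)} {l : ℝ} {x : Ch (Cur n)} (hx : x ∈ sup ((G.pathFib b).L A l)) (hdx : dd x = 0)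
    (ha : aug x = 0) : hty (fun q => tl q.1 q.2) x ∈ sup ((G.pathFib b).L univ l) ∧
      dd (hty (fun q => tl q.1 q.2) x) = x := by
  refine ⟨hty_tl_mem (sup_mono ((G.pathFib b).L_mono (subset_univ _) le_rfl) hx), ?_⟩
  have := dd_hty_tl (sup_mono (G.pathFib b).L_sub_P hx)
  rwa [hdx, map_zero, add_zero, ha, zero_smul, add_zero] at this

theorem om_cyc {p : M n} (Pl : Pole G p) {l : ℝ} {x : Ch (Cur n)} (hx : x ∈ sup ((G.pathFib (anti p)).L {anti p} l))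
    (hdx : dd x = 0) (ha : aug x = 0) :
    hty (fun q => tl q.1 q.2) x ∈ Cyc ((G.pathFib (anti p)).L univ l) ((G.pathFib (anti p)).L Pl.Kᶜ l) := by
  obtain ⟨h1, h2⟩ := om_tl hx hdx ha
  refine mem_Cyc.2 ⟨h1, ?_⟩
  rw [h2]
  exact sup_mono (Fib.L_mono _ (singleton_subset_iff.2 (Fib.anti_notMem_K Pl)) le_rfl) hx

theorem om_Th {p : M n} (Pl : Pole G p) {T : Ch (M n) →ₗ[F2] F2} (hT : Pl.IsThom T) {k : ℕ} {l : ℝ} {x : Ch (Cur n)}
    (hx : x ∈ sup ((G.pathFib (anti p)).L {anti p} l)) (hdx : dd x = 0) (ha : aug x = 0)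
    (hs : (G.pathFib (anti p)).Sm Pl k (hty (fun q => tl q.1 q.2) x)) :
    (G.pathFib (anti p)).Th p T k (hty (fun q => tl q.1 q.2) x) ∈ sup ((G.pathFib (anti p)).L {p} (l + Pl.C)) ∧
      dd ((G.pathFib (anti p)).Th p T k (hty (fun q => tl q.1 q.2) x)) = 0 := by
  obtain ⟨h1, h2⟩ := om_tl hx hdx ha
  refine ⟨Fib.Th_mem _ Pl hT h1 hs, ?_⟩
  rw [Fib.dd_Th _ Pl hT (sup_mono (Fib.L_sub_P _) h1) hs, h2]
  exact Fib.Th_zero _ Pl hT k (sup_mono (Fib.L_sub_ov _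
    ((singleton_subset_iff.2 (Fib.anti_notMem_K Pl)).trans (Fib.K_compl_sub Pl))) hx)

theorem om_inj {p : M n} (Pl : Pole G p) {T : Ch (M n) →ₗ[F2] F2} (hT : Pl.IsThom T) {k : ℕ} {l : ℝ}
    {x z : Ch (Cur n)} (hx : x ∈ sup ((G.pathFib (anti p)).L {anti p} l)) (hdx : dd x = 0) (ha : aug x = 0)
    (hs : (G.pathFib (anti p)).Sm Pl k (hty (fun q => tl q.1 q.2) x))
    (hz : z ∈ sup ((G.pathFib (anti p)).L {p} l))
    (h : dd z = (G.pathFib (anti p)).Th p T k (hty (fun q => tl q.1 q.2) x)) :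
    ∃ z' ∈ sup ((G.pathFib (anti p)).L {anti p} (l + 4 * Pl.C)), dd z' = x := by
  have hC := Fib.C_nonneg Pl
  have key := Fib.key _ Pl hT (y := 0) (om_cyc Pl hx hdx ha) hs (zero_mem _) hz (by rw [h, add_zero])
  rw [map_zero, add_zero] at key
  obtain ⟨u, hu, h'⟩ := mem_Bdy.1 key
  have := Fib.fib_inj _ Pl (c := x) (sup_mono (Fib.L_mono _ subset_rfl (by linarith)) hx) h'
    (by rw [map_add, dd_dd, add_zero, (om_tl hx hdx ha).2])
  rwa [show l + 3 * Pl.C + Pl.C = l + 4 * Pl.C by ring] at this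

theorem om_thom (G : Setup n) (hn : 2 ≤ n) (p : M n) : ∃ (Pl : Pole G p) (T : Ch (M n) →ₗ[F2] F2), Pl.IsThom T := by
  obtain ⟨Pl⟩ := exists_pole G p
  obtain ⟨T, hT⟩ := exists_diag G hn
  exact ⟨Pl, _, (hT.2.2.2 p Pl).1⟩

theorem om_Sm {p : M n} (Pl : Pole G p) {x : Ch (Cur n)} (hx : x ∈ sup (G.Om (anti p) (anti p))) :
    ∃ k₀, ∀ k, k₀ ≤ k → (G.pathFib (anti p)).Sm Pl k (hty (fun q => tl q.1 q.2) x) := by
  obtain ⟨l, hl⟩ := om_exists_L hx
  exact Fib.exists_Sm _ Pl (sup_mono (Fib.L_sub_P _)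
    (hty_tl_mem (sup_mono ((G.pathFib (anti p)).L_mono (subset_univ _) le_rfl) hl)))

theorem om_tr {x y x' y' : M n} {u w : Cur n} (hu : u ∈ G.Om x' x) (hw : w ∈ G.Om y y') {c : Ch (Cur n)}
    (hc : c ∈ sup (G.Om x y)) (hd : dd c = 0) : mp (tr u w) c ∈ sup (G.Om x' y') ∧ dd (mp (tr u w) c) = 0 :=
  ⟨mp_mem hc fun _ h => (tr_mem hu hw h).1, by rw [← mp_dd hc (continuousOn_tr hu hw), hd, map_zero]⟩

theorem om_bar0 (G : Setup n) (hn : 2 ≤ n) (x y : M n) : ∃ C, 0 ≤ C ∧ ∀ (l : ℝ) (c : Ch (Cur n)),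
    c ∈ sup (G.Om x y ∩ Lv n l) → Hom 0 c → aug c = 0 → ∃ w ∈ sup (G.Om x y ∩ Lv n (l + C)), dd w = c := by
  obtain ⟨Pl, T, hT⟩ := om_thom G hn x
  obtain ⟨u, hu⟩ := exists_path (G := G) hn (anti x) x
  obtain ⟨w, hw⟩ := exists_path (G := G) hn y (anti x)
  have hC := Fib.C_nonneg Pl
  have hu0 := hu.1.1
  have hw0 := hw.1.1
  refine ⟨3 * u.1 + 3 * w.1 + 4 * Pl.C, by positivity, fun l c hc hh ha => ?_⟩
  have h1 := trans_mem hu hw hc
  have h2 := om_tr hu hw (sup_mono inter_subset_left hc) hh.dd_zero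
  obtain ⟨k, hk⟩ := om_Sm Pl h2.1
  rw [← pathFib_L] at h1
  obtain ⟨z, hz, e⟩ := om_inj Pl hT h1 h2.2 (by rw [aug_mp, ha]) (hk k le_rfl) (zero_mem _)
    (by rw [map_zero, Fib.Th_lt _ Pl hT k (om_hom_hty _ (hh.mp _)) (by omega)])
  rw [pathFib_L] at hz
  have := trans_null hu hw (om_Lv_mono (by linarith) hc) hh.dd_zero hz e
  rwa [show l + u.1 + w.1 + 4 * Pl.C + 2 * u.1 + 2 * w.1 = l + (3 * u.1 + 3 * w.1 + 4 * Pl.C) by ring] at this

theorem om_null0 (hn : 2 ≤ n) {x y : M n} {c : Ch (Cur n)} (hc : c ∈ sup (G.Om x y)) (hh : Hom 0 c) (ha : aug c = 0) :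
    G.Null x y c := by
  obtain ⟨C, -, h⟩ := om_bar0 G hn x y
  obtain ⟨l, hl⟩ := exists_mem_Lv c
  obtain ⟨w, hw, e⟩ := h l c (mem_sup_inter hc hl) hh ha
  exact ⟨w, sup_mono inter_subset_left hw, e⟩

theorem wang_surj (hn : 2 ≤ n) {p : M n} (Pl : Pole G p) {T : Ch (M n) →ₗ[F2] F2} (hT : Pl.IsThom T) {d k : ℕ}
    (hd : 1 ≤ d) {x : Ch (Cur n)} (hx : x ∈ sup (G.Om (anti p) (anti p))) (hh : Hom d x) (hdx : dd x = 0)
    (hs : (G.pathFib (anti p)).Sm Pl k (hty (fun q => tl q.1 q.2) x)) :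
    G.Null (anti p) (anti p)
      (x + (G.pathFib (anti p)).con Pl ((G.pathFib (anti p)).Th p T k (hty (fun q => tl q.1 q.2) x))) := by
  obtain ⟨l, hl⟩ := om_exists_L hx
  have hC := Fib.C_nonneg Pl
  have ha : aug x = 0 := hh.aug (by omega)
  obtain ⟨hy, hdy⟩ := om_Th Pl hT hl hdx ha hs
  have key := Fib.key _ Pl hT (z := 0) (om_cyc Pl (sup_mono (Fib.L_mono _ subset_rfl (by linarith)) hl) hdx ha) hs hy
    (zero_mem _) (by rw [map_zero, add_self])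
  obtain ⟨z, hz, e⟩ := Fib.con_of_Bdy _ Pl (c := x) (sup_mono (Fib.L_mono _ subset_rfl (by linarith)) hl)
    (om_tl hl hdx ha).2 (sup_mono (Fib.L_mono _ subset_rfl (by linarith)) hy) hdy key
  exact ⟨z, om_of_L hz, e⟩

theorem wang_inj (hn : 2 ≤ n) {p : M n} (Pl : Pole G p) {T : Ch (M n) →ₗ[F2] F2} (hT : Pl.IsThom T) {d k : ℕ}
    (hd : 1 ≤ d) {x : Ch (Cur n)} (hx : x ∈ sup (G.Om (anti p) (anti p))) (hh : Hom d x) (hdx : dd x = 0)
    (hs : (G.pathFib (anti p)).Sm Pl k (hty (fun q => tl q.1 q.2) x))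
    (h : G.Null p (anti p) ((G.pathFib (anti p)).Th p T k (hty (fun q => tl q.1 q.2) x))) :
    G.Null (anti p) (anti p) x := by
  obtain ⟨l, hl⟩ := om_exists_L hx
  obtain ⟨z, hz, e⟩ := h
  obtain ⟨l', hl'⟩ := om_exists_L hz
  obtain ⟨z', hz', e'⟩ := om_inj Pl hT (sup_mono (Fib.L_mono _ subset_rfl (le_max_left l l')) hl) hdx
    (hh.aug (by omega)) hs (sup_mono (Fib.L_mono _ subset_rfl (le_max_right l l')) hl') e
  exact ⟨z', om_of_L hz', e'⟩

theorem wang_con (hn : 2 ≤ n) {p : M n} (Pl : Pole G p) {d : ℕ} {y : Ch (Cur n)} (hy : y ∈ sup (G.Om p (anti p)))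
    (hh : Hom d y) (hdy : dd y = 0) (h : G.Null (anti p) (anti p) ((G.pathFib (anti p)).con Pl y)) :
    G.Null p (anti p) y := by
  obtain ⟨T, hT⟩ := exists_diag G hn
  have hT' := (hT.2.2.2 p Pl).1
  obtain ⟨l, hl⟩ := om_exists_L hy
  obtain ⟨v, hv, e⟩ := h
  obtain ⟨l', hl'⟩ := om_exists_L hv
  have hC := Fib.C_nonneg Pl
  have h1 := Fib.dd_bx_mem _ Pl hl
  rw [hdy, map_zero, add_zero] at h1
  obtain ⟨z, hz, ez⟩ := Fib.rt_hty _ Pl h1 (dd_dd _)
  set F := G.pathFib (anti p) with hF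
  set m := max (l + Pl.C + Pl.C) l' with hm
  have hb : z + v ∈ sup (F.L Pl.Kᶜ m) :=
    add_mem (sup_mono (F.L_mono subset_rfl (le_max_left _ _)) hz)
      (sup_mono (F.L_mono (singleton_subset_iff.2 (Fib.anti_notMem_K Pl)) (le_max_right _ _)) hl')
  have hx : F.bx Pl y ∈ sup (F.L univ m) :=
    sup_mono (F.L_mono (subset_univ _) ((by linarith : l + Pl.C ≤ l + Pl.C + Pl.C).trans (le_max_left _ _)))
      (F.bx_mem Pl hl)
  have hbx := F.bx_hom Pl hh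
  have hc : pr (n + d) (F.bx Pl y + (z + v)) ∈ sup (F.L univ m) :=
    pr_mem _ (add_mem hx (sup_mono (F.L_mono (subset_univ _) le_rfl) hb))
  have hdc : dd (pr (n + d) (F.bx Pl y + (z + v))) = 0 := by
    have e0 : dd (F.bx Pl y + (z + v)) = 0 := by
      rw [map_add, map_add, ez, e]
      show _ + (_ + mp (F.rt Pl) (dd (F.bx Pl y)) + mp (F.rt Pl) (dd (F.bx Pl y))) = 0
      ch2
    rw [show n + d = (n + d - 1) + 1 by omega, dd_pr, e0, map_zero]
  obtain ⟨hw, ew⟩ := om_tl hc hdc ((hom_pr _ _).aug (by omega))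
  have hB : F.bx Pl y ∈ Bdy (F.L univ m) (F.L {p}ᶜ m) := by
    refine mem_Bdy.2 ⟨_, hw, ?_⟩
    rw [ew, map_add, show pr (n + d) (F.bx Pl y) = F.bx Pl y from hbx, ← add_assoc, add_self, zero_add]
    exact pr_mem _ (sup_mono (F.L_mono (Fib.K_compl_sub Pl) le_rfl) hb)
  obtain ⟨s, z₂, m₂, e₂⟩ := F.Th_bx Pl hT' (k := 0) hl hdy
  obtain ⟨z₁, m₁, e₁⟩ := F.Th_Bdy Pl hT' hB s
  refine ⟨z₁ + z₂, add_mem (om_of_L m₁) (om_of_L m₂), ?_⟩
  rw [map_add, e₁, e₂, ← add_assoc, add_self, zero_add]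

/-- the Thom image of the tail chain of a generator is a generator -/
theorem Gen.wang (hn : 2 ≤ n) {p : M n} (Pl : Pole G p) {T : Ch (M n) →ₗ[F2] F2} (hT : Pl.IsThom T) {j k : ℕ}
    {x : Ch (Cur n)} (hx : G.Gen (anti p) (anti p) (j + 1) x)
    (hs : (G.pathFib (anti p)).Sm Pl k (hty (fun q => tl q.1 q.2) x)) :
    G.Gen p (anti p) j ((G.pathFib (anti p)).Th p T k (hty (fun q => tl q.1 q.2) x)) := by
  obtain ⟨h1, h2, h3, h4⟩ := hx
  obtain ⟨l, hl⟩ := om_exists_L h1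
  have hd : 1 ≤ (j + 1) * (n - 1) := Nat.mul_pos (by omega) (by omega)
  obtain ⟨hy, hdy⟩ := om_Th Pl hT hl h3 (h2.aug (by omega)) hs
  refine ⟨om_of_L hy, Fib.Th_hom _ Pl hT k ?_, hdy, fun h => h4 (wang_inj hn Pl hT hd h1 h2 h3 hs h)⟩
  rw [show n + j * (n - 1) = (j + 1) * (n - 1) + 1 by rw [add_mul]; omega]
  exact om_hom_hty _ h2

theorem Gen.con (hn : 2 ≤ n) {p : M n} (Pl : Pole G p) {j : ℕ} {y : Ch (Cur n)} (hy : G.Gen p (anti p) j y) :
    G.Gen (anti p) (anti p) (j + 1) ((G.pathFib (anti p)).con Pl y) := by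
  obtain ⟨h1, h2, h3, h4⟩ := hy
  obtain ⟨l, hl⟩ := om_exists_L h1
  obtain ⟨m, e⟩ := Fib.con_mem _ Pl hl h3
  refine ⟨om_of_L m, ?_, e, fun h => h4 (wang_con hn Pl h1 h2 h3 h)⟩
  rw [add_mul, one_mul]
  exact Fib.con_hom _ Pl (by omega) h2

theorem bars0 (G : Setup n) (hn : 2 ≤ n) : ∃ C, 0 ≤ C ∧ ∀ (a b : Bool) (l : ℝ) (y : Ch (Cur n)),
    y ∈ sup (G.Om (pl n a) (pl n b) ∩ Lv n l) → Hom 0 y → aug y = 0 →
    ∃ w ∈ sup (G.Om (pl n a) (pl n b) ∩ Lv n (l + C)), dd w = y := by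
  choose C hC h using om_bar0 G hn
  refine ⟨∑ a : Bool, ∑ b : Bool, C (pl n a) (pl n b),
    Finset.sum_nonneg fun a _ => Finset.sum_nonneg fun b _ => hC _ _, fun a b l y hy hh ha => ?_⟩
  obtain ⟨w, hw, e⟩ := h _ _ l y hy hh ha
  have h1 : C (pl n a) (pl n b) ≤ ∑ a : Bool, ∑ b : Bool, C (pl n a) (pl n b) :=
    (Finset.single_le_sum (f := fun b => C (pl n a) (pl n b)) (fun b _ => hC _ _) (Finset.mem_univ b)).trans
      (Finset.single_le_sum (f := fun a => ∑ b : Bool, C (pl n a) (pl n b))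
        (fun a _ => Finset.sum_nonneg fun b _ => hC _ _) (Finset.mem_univ a))
  exact ⟨w, om_Lv_mono (by linarith) hw, e⟩

theorem gen_pt {x y : M n} {u : Cur n} (hu : u ∈ G.Om x y) : G.Gen x y 0 (pt u) := by
  refine ⟨pt_mem hu, by rw [zero_mul]; exact hom_pt u, dd_pt u, ?_⟩
  rintro ⟨w, -, e⟩
  have := congrArg aug e
  rw [aug_dd, aug_pt] at this
  exact zero_ne_one this

theorem exists_gen (G : Setup n) (hn : 2 ≤ n) (x y : M n) (k : ℕ) : ∃ θ, G.Gen x y k θ := by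
  induction k generalizing x y with
  | zero =>
    obtain ⟨u, hu⟩ := exists_path (G := G) hn x y
    exact ⟨_, gen_pt hu⟩
  | succ k ih =>
    obtain ⟨Pl⟩ := exists_pole G x
    obtain ⟨θ, h⟩ := ih x (anti x)
    obtain ⟨u, hu⟩ := exists_path (G := G) hn x (anti x)
    obtain ⟨w, hw⟩ := exists_path (G := G) hn (anti x) y
    exact ⟨_, (h.con hn Pl).trans hu hw⟩

theorem Gen.dichot (hn : 2 ≤ n) {x y : M n} {k : ℕ} {θ c : Ch (Cur n)} (h : G.Gen x y k θ) (hc : c ∈ sup (G.Om x y))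
    (hh : Hom (k * (n - 1)) c) (hd : dd c = 0) : G.Null x y c ∨ G.Null x y (c + θ) := by
  induction k generalizing x y θ c with
  | zero =>
    obtain ⟨h1, h2, h3, h4⟩ := h
    rw [zero_mul] at hh h2
    have hθ : aug θ = 1 := (F2_cases _).resolve_left fun h0 => h4 (om_null0 hn h1 h2 h0)
    rcases F2_cases (aug c) with h0 | h0
    · exact Or.inl (om_null0 hn hc hh h0)
    · exact Or.inr (om_null0 hn (add_mem hc h1) (hh.add h2) (by rw [map_add, h0, hθ]; rfl))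
  | succ k ih =>
    obtain ⟨Pl, T, hT⟩ := om_thom G hn x
    obtain ⟨u, hu⟩ := exists_path (G := G) hn (anti x) x
    obtain ⟨w, hw⟩ := exists_path (G := G) hn y (anti x)
    have hθ := h.trans hu hw
    obtain ⟨c1, c2⟩ := om_tr hu hw hc hd
    have c3 := hh.mp (tr u w)
    rw [← null_trans_iff hu hw hc hd,
      ← null_trans_iff hu hw (add_mem hc h.1) (by rw [map_add, hd, h.2.2.1, add_zero]), map_add]
    generalize mp (tr u w) θ = θ' at hθ ⊢
    generalize mp (tr u w) c = c' at c1 c2 c3 ⊢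
    obtain ⟨k₁, hk₁⟩ := om_Sm Pl c1
    obtain ⟨k₂, hk₂⟩ := om_Sm Pl hθ.1
    have s₁ := hk₁ _ (le_max_left k₁ k₂)
    have s₂ := hk₂ _ (le_max_right k₁ k₂)
    have hpos : 1 ≤ (k + 1) * (n - 1) := Nat.mul_pos (by omega) (by omega)
    obtain ⟨l, hl⟩ := om_exists_L c1
    obtain ⟨hy, hdy⟩ := om_Th Pl hT hl c2 (c3.aug (by omega)) s₁
    have hhy : Hom (k * (n - 1)) ((G.pathFib (anti x)).Th x T (max k₁ k₂) (hty (fun q => tl q.1 q.2) c')) := by
      refine Fib.Th_hom _ Pl hT _ ?_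
      rw [show n + k * (n - 1) = (k + 1) * (n - 1) + 1 by rw [add_mul]; omega]
      exact om_hom_hty _ c3
    rcases ih (hθ.wang hn Pl hT s₂) (om_of_L hy) hhy hdy with h0 | h0
    · exact Or.inl (wang_inj hn Pl hT hpos c1 c3 c2 s₁ h0)
    · refine Or.inr (wang_inj hn Pl hT (k := max k₁ k₂) hpos (add_mem c1 hθ.1) (c3.add hθ.2.1)
        (by rw [map_add, c2, hθ.2.2.1, add_zero]) ?_ ?_)
      · rw [map_add]; exact s₁.add _ Pl s₂
      · rw [map_add, map_add]; exact h0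

theorem vanish (hn : 2 ≤ n) {x y : M n} {i : ℕ} {c : Ch (Cur n)} (hc : c ∈ sup (G.Om x y)) (hh : Hom i c)
    (hd : dd c = 0) (hi : ∀ k, i ≠ k * (n - 1)) : G.Null x y c := by
  induction i using Nat.strong_induction_on generalizing x y c with
  | _ i ih =>
    have hi0 : 1 ≤ i := Nat.pos_of_ne_zero (by simpa using hi 0)
    obtain ⟨Pl, T, hT⟩ := om_thom G hn x
    obtain ⟨u, hu⟩ := exists_path (G := G) hn (anti x) x
    obtain ⟨w, hw⟩ := exists_path (G := G) hn y (anti x)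
    obtain ⟨c1, c2⟩ := om_tr hu hw hc hd
    have c3 := hh.mp (tr u w)
    rw [← null_trans_iff hu hw hc hd]
    generalize mp (tr u w) c = c' at c1 c2 c3 ⊢
    obtain ⟨k, hk⟩ := om_Sm Pl c1
    have s := hk k le_rfl
    refine wang_inj hn Pl hT hi0 c1 c3 c2 s ?_
    by_cases hlt : i + 1 < n
    · rw [Fib.Th_lt _ Pl hT k (om_hom_hty _ c3) hlt]
      exact Null.zero _ _
    · obtain ⟨l, hl⟩ := om_exists_L c1
      obtain ⟨hy, hdy⟩ := om_Th Pl hT hl c2 (c3.aug (by omega)) s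
      refine ih (i + 1 - n) (by omega) (om_of_L hy) (Fib.Th_hom _ Pl hT _ ?_) hdy fun j hj => hi (j + 1) ?_
      · rw [show n + (i + 1 - n) = i + 1 by omega]
        exact om_hom_hty _ c3
      · rw [add_mul, ← hj]; omega

end Setup
end Crest.Agent.R231
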