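import Crest.Agent.R231.O.Defs

/-! R231, block O: API of Moore paths.  Continuity statements: `continuousOn_mkC` (reduce the time variable by clamping to
`[-R, R]`, `R` a local bound of the duration), joint continuity of piecewise formulas by `ContinuousOn.if`/closed covers;
for `gp` at `ρ x y = 0` squeeze with `ρ x (gs x y u) ≤ ρ x y`. -/

set_option autoImplicit false
set_option linter.unusedVariables false
set_option linter.unusedSectionVars false
open Set
open scoped Classical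

noncomputable section
namespace Crest.Agent.R231
namespace Setup
variable {n : ℕ} {G : Setup n}

theorem anti_anti (x : M n) : anti (anti x) = x := by
  exact neg_neg x

theorem anti_ne (x : M n) : anti x ≠ x := by
  exact (ne_neg_of_mem_unit_sphere ℝ x).symm

theorem continuous_anti : Continuous (anti : M n → M n) := by
  exact continuous_neg

theorem pl_not (a : Bool) : pl n (!a) = anti (pl n a) := by
  cases a
  · exact (anti_anti _).symm
  · rfl

theorem isOpen_Lv (l : ℝ) : IsOpen (Lv n l) := by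
  exact isOpen_lt continuous_fst continuous_const

theorem exists_mem_Lv (c : Ch (Cur n)) : ∃ l, c ∈ sup (Lv n l) := by
  obtain ⟨K, hK, -, hc⟩ := exists_compact (mem_sup_univ c)
  obtain ⟨l, hl⟩ := (hK.image continuous_fst).bddAbove
  exact ⟨l + 1, sup_mono (fun p hp => (hl ⟨p, hp, rfl⟩).trans_lt (lt_add_one l)) hc⟩

theorem exists_lt_of_mem_Lv {A : Set (Cur n)} {l : ℝ} {c : Ch (Cur n)} (hc : c ∈ sup (A ∩ Lv n l)) :
    ∃ l' < l, c ∈ sup (A ∩ Lv n l') := by
  obtain ⟨K, hK, hA, hc⟩ := exists_compact hc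
  rcases K.eq_empty_or_nonempty with rfl | hne
  · exact ⟨l - 1, sub_one_lt l, sup_mono (empty_subset _) hc⟩
  obtain ⟨p, hp, hm⟩ := hK.exists_isMaxOn hne continuous_fst.continuousOn
  obtain ⟨l', h1, h2⟩ := exists_between (show p.1 < l from (hA hp).2)
  exact ⟨l', h2, sup_mono (B := A ∩ Lv n l') (fun q hq => ⟨(hA hq).1, lt_of_le_of_lt (hm hq) h1⟩) hc⟩

theorem continuousOn_ev : ContinuousOn (fun q : Cur n × ℝ => q.1.ev q.2) (G.PS ×ˢ univ) := by
  intro q hq
  refine ContinuousAt.continuousWithinAt (tendsto_iff_dist_tendsto_zero.2 (squeeze_zero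
    (g := fun r : Cur n × ℝ => dist r.1 q.1 + G.cL * |r.2 - q.2|) (fun _ => dist_nonneg) (fun r => ?_)
    (Continuous.tendsto' (by fun_prop) _ _ (by simp))))
  exact (dist_triangle _ (q.1.ev r.2) _).trans (add_le_add (Cur.dist_ev_le _ _ _) ((G.dist_le _ _).trans
    (mul_le_mul_of_nonneg_left (hq.1.2.1 _ _) (zero_le_one.trans G.one_le_cL))))

theorem continuousOn_ev' {X : Type} [TopologicalSpace X] {A : Set X} {p : X → Cur n} {t : X → ℝ}
    (hp : ContinuousOn p A) (ht : ContinuousOn t A) (h : ∀ x ∈ A, p x ∈ G.PS) :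
    ContinuousOn (fun x => (p x).ev (t x)) A :=
  continuousOn_ev.comp (hp.prodMk ht) fun x hx => ⟨h x hx, trivial⟩

/-- continuity criterion for families of paths -/
theorem continuousOn_mkP {X : Type} [TopologicalSpace X] {A : Set X} {T : X → ℝ} {f : X → ℝ → M n}
    (hT : ContinuousOn T A) (hf : ContinuousOn (fun p : X × ℝ => f p.1 p.2) (A ×ˢ univ))
    (h : ∀ x ∈ A, mkC (T x) (f x) ∈ G.PS) : ContinuousOn (fun x => mkC (T x) (f x)) A := by
  refine continuousOn_mkC hT hf fun x hx => ⟨T x + 1, _, Filter.inter_mem self_mem_nhdsWithin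
    (hT x hx (Iio_mem_nhds (lt_add_one _))), fun t => ?_⟩
  have h0 : 0 ≤ T x := (h x hx).1
  rcases le_total t 0 with h1 | h1
  · exact ⟨0, ⟨by linarith, by linarith⟩, fun y hy => (h y hy.1).2.2.1 t h1⟩
  rcases le_total t (T x + 1) with h2 | h2
  · exact ⟨t, ⟨by linarith, h2⟩, fun _ _ => rfl⟩
  · exact ⟨T x + 1, ⟨by linarith, le_rfl⟩, fun y hy =>
      ((h y hy.1).2.2.2 t ((le_of_lt hy.2).trans h2)).trans ((h y hy.1).2.2.2 _ (le_of_lt hy.2)).symm⟩


theorem continuous_st : Continuous (Cur.st : Cur n → M n) := by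
  exact (LipschitzWith.mk_one fun p q => Cur.dist_ev_le p q 0).continuous

theorem continuousOn_fi : ContinuousOn (Cur.fi : Cur n → M n) G.PS := by
  exact continuousOn_ev' continuousOn_id continuousOn_fst fun _ h => h

theorem continuousOn_at : ContinuousOn (fun q : ℝ × Cur n => q.2.at q.1) (univ ×ˢ G.PS) := by
  exact continuousOn_ev' continuousOn_snd (by fun_prop) fun _ h => h.2

theorem at_zero (p : Cur n) : p.at 0 = p.st := by
  rw [Cur.at, zero_mul, Cur.st]

theorem at_one (p : Cur n) : p.at 1 = p.fi := by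
  rw [Cur.at, one_mul, Cur.fi]

theorem cst_mem (x : M n) : cst x ∈ G.Om x x := by
  exact ⟨⟨le_rfl, fun s t => (G.ρ_self x).trans_le (abs_nonneg _), fun _ _ => rfl, fun _ _ => rfl⟩, rfl, rfl⟩

@[simp] theorem cst_fst (x : M n) : (cst x).1 = 0 := rfl
@[simp] theorem cst_st (x : M n) : (cst x).st = x := rfl
@[simp] theorem cst_fi (x : M n) : (cst x).fi = x := rfl
@[simp] theorem conc_fst (p q : Cur n) : (conc p q).1 = p.1 + q.1 := rfl
@[simp] theorem hd_fst (u : ℝ) (p : Cur n) : (hd u p).1 = u * p.1 := rfl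
@[simp] theorem tl_fst (u : ℝ) (p : Cur n) : (tl u p).1 = (1 - u) * p.1 := rfl
@[simp] theorem rev_fst (p : Cur n) : (rev p).1 = p.1 := rfl
@[simp] theorem gp_fst (x y : M n) : (G.gp x y).1 = G.ρ x y := rfl

theorem continuous_cst : Continuous (cst : M n → Cur n) := by
  exact (LipschitzWith.mk_one fun x y => Cur.dist_le (by simp) fun _ => le_rfl).continuous

theorem conc_ev_le {p q : Cur n} {t : ℝ} (h : t ≤ p.1) : (conc p q).ev t = p.ev t := if_pos h

theorem conc_ev_gt {p q : Cur n} {t : ℝ} (h : p.1 < t) : (conc p q).ev t = q.ev (t - p.1) := if_neg h.not_ge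

theorem conc_ev_ge {p q : Cur n} (hpq : p.fi = q.st) {t : ℝ} (h : p.1 ≤ t) : (conc p q).ev t = q.ev (t - p.1) := by
  rcases h.eq_or_lt with rfl | h
  · rw [conc_ev_le le_rfl, sub_self]
    exact hpq
  · exact conc_ev_gt h


theorem conc_mem {x y z : M n} {p q : Cur n} (hp : p ∈ G.Om x y) (hq : q ∈ G.Om y z) : conc p q ∈ G.Om x z := by
  have h := hp.2.2.trans hq.2.1.symm
  have h1 := hp.1.1
  have h2 := hq.1.1
  have key : ∀ s t, s ≤ t → G.ρ ((conc p q).ev s) ((conc p q).ev t) ≤ |s - t| := fun s t hst => by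
    rcases le_total t p.1 with h3 | h3
    · rw [conc_ev_le h3, conc_ev_le (hst.trans h3)]
      exact hp.1.2.1 s t
    rw [conc_ev_ge h h3]
    rcases le_total s p.1 with h4 | h4
    · have h5 := hp.1.2.1 s p.1
      have h6 := hq.1.2.1 0 (t - p.1)
      rw [abs_of_nonpos (by linarith)] at h5 h6 ⊢
      rw [conc_ev_le h4]
      linarith [G.ρ_tri (p.ev s) p.fi (q.ev (t - p.1)), show G.ρ p.fi (q.ev (t - p.1)) = G.ρ (q.ev 0) _ by rw [h]; rfl,
        show G.ρ (p.ev s) p.fi = G.ρ _ (p.ev p.1) from rfl]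
    · rw [conc_ev_ge h h4, ← sub_sub_sub_cancel_right s t p.1]
      exact hq.1.2.1 _ _
  refine ⟨⟨add_nonneg h1 h2, fun s t => ?_, fun t ht => ?_, fun t ht => ?_⟩, (conc_ev_le h1).trans hp.2.1, ?_⟩
  · rcases le_total s t with h3 | h3
    · exact key s t h3
    · rw [G.ρ_comm, abs_sub_comm]
      exact key t s h3
  · rw [conc_ev_le (ht.trans h1), conc_ev_le h1, hp.1.2.2.1 t ht]
  · rw [conc_fst] at ht ⊢
    rw [conc_ev_ge h (by linarith), conc_ev_ge h (by linarith), add_sub_cancel_left, hq.1.2.2.2 _ (by linarith)]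
  · rw [Cur.fi, conc_fst, conc_ev_ge h (by linarith), add_sub_cancel_left]
    exact hq.2.2

theorem continuousOn_conc : ContinuousOn (fun q : Cur n × Cur n => conc q.1 q.2)
    {q | q.1 ∈ G.PS ∧ q.2 ∈ G.PS ∧ q.1.fi = q.2.st} := by
  refine continuousOn_mkP (G := G) (by fun_prop) (ContinuousOn.if (fun a ha => ?_)
    (continuousOn_ev' (by fun_prop) (by fun_prop) fun a ha => ha.1.1.1)
    (continuousOn_ev' (by fun_prop) (by fun_prop) fun a ha => ha.1.1.2.1))
    fun q hq => (conc_mem ⟨hq.1, rfl, rfl⟩ ⟨hq.2.1, hq.2.2.symm, rfl⟩).1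
  have : a.2 = a.1.1.1 := frontier_le_subset_eq (by fun_prop) (by fun_prop) ha.2
  rw [this, sub_self]
  exact ha.1.1.2.2

theorem conc_assoc {p q r : Cur n} (hp : p ∈ G.PS) (hq : q ∈ G.PS) (hr : r ∈ G.PS) :
    conc (conc p q) r = conc p (conc q r) := by
  refine Cur.ext' (add_assoc _ _ _) fun t => ?_
  have h2 := hq.1
  rcases le_or_gt t p.1 with h | h
  · rw [conc_ev_le h, conc_ev_le (by rw [conc_fst]; linarith), conc_ev_le h]
  rw [conc_ev_gt h]
  rcases le_or_gt t (p.1 + q.1) with h' | h'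
  · rw [conc_ev_le (p := conc p q) h', conc_ev_gt h, conc_ev_le (by linarith)]
  · rw [conc_ev_gt (p := conc p q) h', conc_ev_gt (by linarith), conc_fst, sub_sub]

theorem cst_conc {p : Cur n} (hp : p ∈ G.PS) : conc (cst p.st) p = p := by
  refine Cur.ext' (zero_add _) fun t => ?_
  rcases le_total t 0 with h | h
  · exact (conc_ev_le (p := cst p.st) h).trans (hp.2.2.1 t h).symm
  · rw [conc_ev_ge (p := cst p.st) (q := p) rfl h, cst_fst, sub_zero]

theorem conc_cst {p : Cur n} (hp : p ∈ G.PS) : conc p (cst p.fi) = p := by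
  refine Cur.ext' (add_zero _) fun t => ?_
  rcases le_total t p.1 with h | h
  · exact conc_ev_le h
  · exact (conc_ev_ge (p := p) (q := cst p.fi) rfl h).trans (hp.2.2.2 t h).symm

theorem hd_mem {p : Cur n} (hp : p ∈ G.PS) {u : ℝ} (hu : u ∈ Icc (0 : ℝ) 1) : hd u p ∈ G.Om p.st (p.at u) := by
  have h := mul_nonneg hu.1 hp.1
  refine ⟨⟨h, fun s t => (hp.2.1 _ _).trans ((abs_min_sub_min_le_max _ _ _ _).trans (by simp)), fun t ht => ?_,
    fun t ht => ?_⟩, congrArg p.ev (min_eq_left h), congrArg p.ev (min_self _)⟩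
  · simp only [hd, mkC_ev, min_eq_left h, min_eq_left (ht.trans h), hp.2.2.1 t ht]
  · simp only [hd, mkC_ev, mkC_fst, min_self, min_eq_right (show u * p.1 ≤ t from ht)]

theorem tl_mem {p : Cur n} (hp : p ∈ G.PS) {u : ℝ} (hu : u ∈ Icc (0 : ℝ) 1) : tl u p ∈ G.Om (p.at u) p.fi := by
  have h := mul_nonneg (sub_nonneg.2 hu.2) hp.1
  have e : (tl u p).fi = p.fi := congrArg p.ev (by rw [tl_fst, max_eq_left h]; ring)
  refine ⟨⟨h, fun s t => (hp.2.1 _ _).trans ?_, fun t ht => ?_, fun t ht => (hp.2.2.2 _ ?_).trans e.symm⟩,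
    congrArg p.ev (by rw [max_self, zero_add]), e⟩
  · rw [add_sub_add_right_eq_sub]
    exact abs_max_sub_max_le_abs _ _ _
  · simp only [tl, mkC_ev, max_self, max_eq_right ht]
  · rw [tl_fst] at ht
    linarith [le_max_left t 0]

theorem continuousOn_hd : ContinuousOn (fun q : ℝ × Cur n => hd q.1 q.2) (Icc 0 1 ×ˢ G.PS) := by
  exact continuousOn_mkP (G := G) (by fun_prop) (continuousOn_ev' (by fun_prop) (by fun_prop) fun a ha => ha.1.2)
    fun q hq => (hd_mem hq.2 hq.1).1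

theorem continuousOn_tl : ContinuousOn (fun q : ℝ × Cur n => tl q.1 q.2) (Icc 0 1 ×ˢ G.PS) := by
  exact continuousOn_mkP (G := G) (by fun_prop) (continuousOn_ev' (by fun_prop) (by fun_prop) fun a ha => ha.1.2)
    fun q hq => (tl_mem hq.2 hq.1).1

theorem hd_zero {p : Cur n} (hp : p ∈ G.PS) : hd 0 p = cst p.st := by
  exact Cur.ext' (zero_mul _) fun t => hp.2.2.1 _ ((min_le_right _ _).trans_eq (zero_mul _))

theorem hd_one {p : Cur n} (hp : p ∈ G.PS) : hd 1 p = p := by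
  refine Cur.ext' (one_mul _) fun t => ?_
  simp only [hd, mkC_ev, one_mul]
  rcases le_total t p.1 with h | h
  · rw [min_eq_left h]
  · rw [min_eq_right h, hp.2.2.2 t h]

theorem tl_zero {p : Cur n} (hp : p ∈ G.PS) : tl 0 p = p := by
  refine Cur.ext' (by rw [tl_fst, sub_zero, one_mul]) fun t => ?_
  simp only [tl, mkC_ev, zero_mul, add_zero]
  rcases le_total t 0 with h | h
  · rw [max_eq_right h, hp.2.2.1 t h]
  · rw [max_eq_left h]

theorem tl_one {p : Cur n} (hp : p ∈ G.PS) : tl 1 p = cst p.fi := by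
  exact Cur.ext' (by rw [tl_fst, sub_self, zero_mul, cst_fst]) fun t => hp.2.2.2 _ (by linarith [le_max_right t 0])

theorem tl_ev_mem {p : Cur n} (u t : ℝ) : ∃ t', (tl u p).ev t = p.ev t' := by
  exact ⟨_, rfl⟩

theorem p2_cont {X : Type} [TopologicalSpace X] {A : Set X} {T : X → ℝ} {f : X → ℝ → M n}
    (hT : ContinuousOn T A) (hf : ContinuousOn (fun p : X × ℝ => f p.1 p.2) (A ×ˢ univ))
    (hP : ∀ x ∈ A, mkC (T x) (f x) ∈ G.PS) : ContinuousOn (fun x => mkC (T x) (f x)) A := by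
  refine continuousOn_mkC hT hf fun x hx => ⟨T x + 1, {y | T y < T x + 1} ∩ A, ?_, fun t => ?_⟩
  · exact Filter.inter_mem ((hT x hx).eventually_lt_const (by linarith)) self_mem_nhdsWithin
  · have h0 : 0 ≤ T x := (hP x hx).1
    rcases le_total t 0 with ht | ht
    · exact ⟨0, ⟨by linarith, by linarith⟩, fun y hy => (hP y hy.2).2.2.1 t ht⟩
    rcases le_total t (T x + 1) with ht' | ht'
    · exact ⟨t, ⟨by linarith, ht'⟩, fun y hy => rfl⟩
    · refine ⟨T x + 1, ⟨by linarith, le_rfl⟩, fun y hy => ?_⟩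
      have h1 : T y < T x + 1 := hy.1
      exact ((hP y hy.2).2.2.2 t (show T y ≤ t by linarith)).trans
        ((hP y hy.2).2.2.2 (T x + 1) h1.le).symm

theorem p2_om {p : Cur n} (hp : p ∈ G.PS) : p ∈ G.Om p.st p.fi := ⟨hp, rfl, rfl⟩

theorem p2_rev_ev (p : Cur n) (t : ℝ) : (rev p).ev t = p.ev (p.1 - t) := rfl

theorem p2_clamp (s : ℝ) : max 0 (min 1 s) ∈ Icc (0 : ℝ) 1 :=
  ⟨le_max_left _ _, max_le zero_le_one (min_le_left _ _)⟩

theorem p2_gp_ev (x y : M n) (t : ℝ) : (G.gp x y).ev t = G.gs x y (max 0 (min 1 (t / G.ρ x y))) := rfl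

theorem rev_mem {x y : M n} {p : Cur n} (hp : p ∈ G.Om x y) : rev p ∈ G.Om y x := by
  obtain ⟨⟨h0, h1, h2, h3⟩, hx, hy⟩ := hp
  refine ⟨⟨h0, fun s t => ?_, fun t ht => ?_, fun t ht => ?_⟩, ?_, ?_⟩
  · have := h1 (p.1 - s) (p.1 - t)
    rwa [show p.1 - s - (p.1 - t) = -(s - t) by ring, abs_neg] at this
  · rw [p2_rev_ev, p2_rev_ev, sub_zero]
    exact h3 _ (by linarith)
  · rw [p2_rev_ev, p2_rev_ev, rev_fst, sub_self]
    exact h2 _ (by rw [rev_fst] at ht; linarith)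
  · rw [← hy, Cur.st, p2_rev_ev, sub_zero, Cur.fi]
  · rw [← hx, Cur.fi, p2_rev_ev, rev_fst, sub_self, Cur.st]

theorem rev_rev (p : Cur n) : rev (rev p) = p := by
  exact Cur.ext' rfl fun t => by rw [p2_rev_ev, p2_rev_ev, rev_fst, sub_sub_cancel]

theorem continuousOn_rev : ContinuousOn (rev : Cur n → Cur n) G.PS := by
  refine p2_cont (G := G) (T := fun p : Cur n => p.1) (f := fun p t => p.ev (p.1 - t)) continuousOn_fst ?_
    fun p hp => (rev_mem (p2_om hp)).1
  exact (continuousOn_ev (G := G)).comp (f := fun q : Cur n × ℝ => (q.1, q.1.1 - q.2)) (by fun_prop)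
    fun q hq => ⟨hq.1, trivial⟩

theorem rev_conc {p q : Cur n} (hp : p ∈ G.PS) (hq : q ∈ G.PS) (h : p.fi = q.st) :
    rev (conc p q) = conc (rev q) (rev p) := by
  refine Cur.ext' (add_comm _ _) fun t => ?_
  change (if p.1 + q.1 - t ≤ p.1 then p.ev (p.1 + q.1 - t) else q.ev (p.1 + q.1 - t - p.1)) =
    if t ≤ q.1 then q.ev (q.1 - t) else p.ev (p.1 - (t - q.1))
  rcases lt_trichotomy t q.1 with ht | ht | ht
  · rw [if_neg (by linarith), if_pos ht.le]
    congr 1; ring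
  · rw [if_pos (by linarith), if_pos ht.le, ht, add_sub_cancel_right, sub_self]
    exact h
  · rw [if_pos (by linarith), if_neg (by linarith)]
    congr 1; ring

theorem rev_cst (x : M n) : rev (cst x) = cst x := by
  exact Cur.ext' rfl fun t => rfl

theorem gp_mem {x y : M n} (h : G.ρ x y < G.δ) : G.gp x y ∈ G.Om x y := by
  have h0 := G.ρ_nonneg x y
  refine ⟨⟨h0, fun s t => ?_, fun t ht => ?_, fun t ht => ?_⟩, ?_, ?_⟩
  · rw [p2_gp_ev, p2_gp_ev, G.ρ_gs x y _ _ h (p2_clamp _) (p2_clamp _)]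
    rcases h0.eq_or_lt with h1 | h1
    · rw [← h1, mul_zero]; exact abs_nonneg _
    · have h2 : |max 0 (min 1 (s / G.ρ x y)) - max 0 (min 1 (t / G.ρ x y))| ≤ |s / G.ρ x y - t / G.ρ x y| := by
        refine (abs_max_sub_max_le_max _ _ _ _).trans (max_le (by simp) ?_)
        exact (abs_min_sub_min_le_max _ _ _ _).trans (max_le (by simp) le_rfl)
      rw [← sub_div, abs_div, abs_of_pos h1, le_div_iff₀ h1] at h2
      exact h2
  · rw [p2_gp_ev, p2_gp_ev, zero_div, min_eq_right zero_le_one, max_self,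
      max_eq_left ((min_le_right _ _).trans (div_nonpos_of_nonpos_of_nonneg ht h0))]
  · rw [p2_gp_ev, p2_gp_ev, gp_fst]
    rw [gp_fst] at ht
    rcases h0.eq_or_lt with h1 | h1
    · rw [← h1, div_zero, div_zero]
    · rw [div_self h1.ne', min_self, min_eq_left ((one_le_div h1).2 ht)]
  · rw [Cur.st, p2_gp_ev, zero_div, min_eq_right zero_le_one, max_self, G.gs_zero x y h]
  · rw [Cur.fi, p2_gp_ev, gp_fst]
    rcases h0.eq_or_lt with h1 | h1
    · obtain rfl := G.ρ_eq_zero h1.symm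
      exact G.gs_self x (p2_clamp _)
    · rw [div_self h1.ne', min_self, max_eq_right zero_le_one, G.gs_one x y h]

theorem gp_self (x : M n) : G.gp x x = cst x := by
  exact Cur.ext' (G.ρ_self x) fun t => G.gs_self x (p2_clamp _)

theorem rev_gp {x y : M n} (h : G.ρ x y < G.δ) : rev (G.gp x y) = G.gp y x := by
  refine Cur.ext' (G.ρ_comm x y) fun t => ?_
  rw [p2_rev_ev, p2_gp_ev, p2_gp_ev, gp_fst]
  rcases (G.ρ_nonneg x y).eq_or_lt with h1 | h1
  · obtain rfl := G.ρ_eq_zero h1.symm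
    rw [G.gs_self x (p2_clamp _), G.gs_self x (p2_clamp _)]
  · rw [← G.gs_symm x y _ h, G.ρ_comm y x, sub_div, div_self h1.ne']
    congr 1
    generalize t / G.ρ x y = u
    rcases le_total u 0 with h2 | h2
    · rw [min_eq_left (by linarith), min_eq_right (by linarith), max_eq_right zero_le_one, max_eq_left h2, sub_self]
    rcases le_total u 1 with h3 | h3
    · rw [min_eq_right (by linarith), min_eq_right h3, max_eq_right (by linarith), max_eq_right h2, sub_sub_cancel]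
    · rw [min_eq_right (by linarith), min_eq_left h3, max_eq_left (by linarith), max_eq_right zero_le_one, sub_zero]

theorem continuousOn_gp : ContinuousOn (fun q : M n × M n => G.gp q.1 q.2) {q | G.ρ q.1 q.2 < G.δ} := by
  refine p2_cont (G := G) (T := fun q : M n × M n => G.ρ q.1 q.2)
    (f := fun q t => G.gs q.1 q.2 (max 0 (min 1 (t / G.ρ q.1 q.2)))) G.continuous_ρ.continuousOn ?_
    fun q hq => (gp_mem hq).1
  have hρ : Continuous fun q : (M n × M n) × ℝ => G.ρ q.1.1 q.1.2 := G.continuous_ρ.comp continuous_fst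
  rintro ⟨⟨x, y⟩, t⟩ ⟨hq, -⟩
  have hq' : G.ρ x y < G.δ := hq
  rcases (G.ρ_nonneg x y).eq_or_lt with h1 | h1
  · obtain rfl := G.ρ_eq_zero h1.symm
    unfold ContinuousWithinAt
    simp only [G.gs_self x (p2_clamp _)]
    rw [tendsto_iff_dist_tendsto_zero]
    have hb : Continuous fun q : (M n × M n) × ℝ => G.cL * G.ρ q.1.1 q.1.2 + dist q.1.1 x := by fun_prop
    have hb0 := hb.tendsto ((x, x), t)
    simp only [G.ρ_self, mul_zero, dist_self, add_zero] at hb0
    refine squeeze_zero' (Filter.Eventually.of_forall fun _ => dist_nonneg) ?_ (hb0.mono_left nhdsWithin_le_nhds)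
    filter_upwards [self_mem_nhdsWithin] with q hq
    have hq1 : G.ρ q.1.1 q.1.2 < G.δ := hq.1
    refine (dist_triangle _ q.1.1 _).trans (add_le_add ?_ le_rfl)
    rw [dist_comm]
    refine (G.dist_le _ _).trans (mul_le_mul_of_nonneg_left ?_ (by linarith [G.one_le_cL]))
    rw [G.ρ_gs_left hq1 (p2_clamp _)]
    exact mul_le_of_le_one_left (G.ρ_nonneg _ _) (p2_clamp _).2
  · have hc : ContinuousAt (fun q : (M n × M n) × ℝ =>
        (q.1.1, q.1.2, max 0 (min 1 (q.2 / G.ρ q.1.1 q.1.2)))) ((x, y), t) := by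
      refine continuousAt_fst.fst.prodMk (continuousAt_fst.snd.prodMk ?_)
      exact continuousAt_const.max (continuousAt_const.min (continuousAt_snd.div hρ.continuousAt h1.ne'))
    exact ContinuousWithinAt.comp (g := fun p : M n × M n × ℝ => G.gs p.1 p.2.1 p.2.2)
      (G.gs_cont _ hq') hc.continuousWithinAt fun q hq => hq.1

theorem conc'_mem {p q : Cur n} (hp : p ∈ G.PS) (hq : q ∈ G.PS) (h : G.ρ p.fi q.st < G.δ) :
    G.conc' p q ∈ G.Om p.st q.fi ∧ (G.conc' p q).1 = p.1 + q.1 + G.ρ p.fi q.st := by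
  refine ⟨conc_mem (p2_om hp) (conc_mem (gp_mem h) (p2_om hq)), ?_⟩
  simp only [conc', conc_fst, gp_fst]
  ring

theorem continuousOn_conc' : ContinuousOn (fun q : Cur n × Cur n => G.conc' q.1 q.2)
    {q | q.1 ∈ G.PS ∧ q.2 ∈ G.PS ∧ G.ρ q.1.fi q.2.st < G.δ} := by
  have h1 : ContinuousOn (fun q : Cur n × Cur n => G.gp q.1.fi q.2.st)
      {q | q.1 ∈ G.PS ∧ q.2 ∈ G.PS ∧ G.ρ q.1.fi q.2.st < G.δ} :=
    (continuousOn_gp (G := G)).comp (f := fun q : Cur n × Cur n => (q.1.fi, q.2.st))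
      (((continuousOn_fi (G := G)).comp continuousOn_fst fun q hq => hq.1).prodMk
        (continuous_st.comp continuous_snd).continuousOn) fun q hq => hq.2.2
  have h2 : ContinuousOn (fun q : Cur n × Cur n => conc (G.gp q.1.fi q.2.st) q.2)
      {q | q.1 ∈ G.PS ∧ q.2 ∈ G.PS ∧ G.ρ q.1.fi q.2.st < G.δ} :=
    (continuousOn_conc (G := G)).comp (f := fun q : Cur n × Cur n => (G.gp q.1.fi q.2.st, q.2))
      (h1.prodMk continuousOn_snd) fun q hq => ⟨(gp_mem hq.2.2).1, hq.2.1, (gp_mem hq.2.2).2.2⟩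
  exact (continuousOn_conc (G := G)).comp (f := fun q : Cur n × Cur n => (q.1, conc (G.gp q.1.fi q.2.st) q.2))
    (continuousOn_fst.prodMk h2) fun q hq =>
      ⟨hq.1, (conc_mem (gp_mem hq.2.2) (p2_om hq.2.1)).1, (conc_mem (gp_mem hq.2.2) (p2_om hq.2.1)).2.1.symm⟩

theorem conc'_cst_left {q : Cur n} (hq : q ∈ G.PS) {x : M n} (h : G.ρ x q.st < G.δ) :
    G.conc' (cst x) q = conc (G.gp x q.st) q := by
  have h1 := conc_mem (gp_mem h) (p2_om hq)
  have h2 := cst_conc h1.1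
  rw [h1.2.1] at h2
  exact h2

theorem conc'_cst_right {p : Cur n} (hp : p ∈ G.PS) {y : M n} (h : G.ρ p.fi y < G.δ) :
    G.conc' p (cst y) = conc p (G.gp p.fi y) := by
  have h2 := conc_cst (gp_mem h).1
  rw [(gp_mem h).2.2] at h2
  unfold conc'
  rw [cst_st, h2]

theorem conc'_eq_left {p q : Cur n} (hp : p ∈ G.PS) (hq : q ∈ G.PS) (h : G.ρ p.fi q.st < G.δ) :
    G.conc' p q = conc p (G.conc' (cst p.fi) q) := by
  rw [conc'_cst_left hq h]
  rfl

theorem conc'_eq_right {p q : Cur n} (hp : p ∈ G.PS) (hq : q ∈ G.PS) (h : G.ρ p.fi q.st < G.δ) :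
    G.conc' p q = conc (G.conc' p (cst q.st)) q := by
  rw [conc'_cst_right hp h, conc_assoc hp (gp_mem h).1 hq]
  rfl

/-- null-homotopy of `v · v⁻¹`: `K (u, v) = conc (hd (1-u) v) (tl u (rev v))` -/
theorem exists_cancel : ∃ K : ℝ × Cur n → Cur n, ContinuousOn K (Icc 0 1 ×ˢ G.PS) ∧
    ∀ v ∈ G.PS, K (0, v) = conc v (rev v) ∧ K (1, v) = cst v.st ∧
      ∀ u ∈ Icc (0 : ℝ) 1, K (u, v) ∈ G.Om v.st v.st ∧ (K (u, v)).1 ≤ 2 * v.1 := by
  have key : ∀ v ∈ G.PS, ∀ u ∈ Icc (0 : ℝ) 1, hd (1 - u) v ∈ G.Om v.st (v.at (1 - u)) ∧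
      tl u (rev v) ∈ G.Om (v.at (1 - u)) v.st := by
    intro v hv u hu
    have h1 := rev_mem (p2_om hv)
    have h2 := tl_mem h1.1 hu
    rw [h1.2.2, show (rev v).at u = v.at (1 - u) by
      unfold Cur.at
      rw [p2_rev_ev, rev_fst]
      congr 1; ring] at h2
    exact ⟨hd_mem hv ⟨by linarith [hu.2], by linarith [hu.1]⟩, h2⟩
  refine ⟨fun q => conc (hd (1 - q.1) q.2) (tl q.1 (rev q.2)), ?_, fun v hv => ⟨?_, ?_, fun u hu => ⟨?_, ?_⟩⟩⟩
  · refine (continuousOn_conc (G := G)).comp (f := fun q : ℝ × Cur n => (hd (1 - q.1) q.2, tl q.1 (rev q.2)))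
      (ContinuousOn.prodMk ?_ ?_) fun q hq => ?_
    · exact (continuousOn_hd (G := G)).comp (f := fun q : ℝ × Cur n => (1 - q.1, q.2)) (by fun_prop)
        fun q hq => ⟨⟨by linarith [hq.1.2], by linarith [hq.1.1]⟩, hq.2⟩
    · exact (continuousOn_tl (G := G)).comp (f := fun q : ℝ × Cur n => (q.1, rev q.2))
        (continuousOn_fst.prodMk ((continuousOn_rev (G := G)).comp continuousOn_snd fun q hq => hq.2))
        fun q hq => ⟨hq.1, (rev_mem (p2_om hq.2)).1⟩
    · obtain ⟨h1, h2⟩ := key q.2 hq.2 q.1 hq.1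
      exact ⟨h1.1, h2.1, h1.2.2.trans h2.2.1.symm⟩
  · simp only [sub_zero]
    rw [hd_one hv, tl_zero (rev_mem (p2_om hv)).1]
  · simp only [sub_self]
    rw [hd_zero hv, tl_one (rev_mem (p2_om hv)).1, (rev_mem (p2_om hv)).2.2]
    exact cst_conc (cst_mem (G := G) v.st).1
  · exact conc_mem (key v hv u hu).1 (key v hv u hu).2
  · simp only [conc_fst, hd_fst, tl_fst, rev_fst]
    nlinarith [hv.1, hu.1]

/-- any two points are joined by a path (normalised segment, through a third point if `y = -x`) -/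
theorem exists_path (hn : 2 ≤ n) (x y : M n) : ∃ u, u ∈ G.Om x y := by
  have : PreconnectedSpace (M n) := by
    refine Subtype.preconnectedSpace (isPreconnected_sphere ?_ _ _)
    rw [← Module.finrank_eq_rank, finrank_euclideanSpace_fin]
    exact_mod_cast (by omega : 1 < n + 1)
  refine PreconnectedSpace.induction₂' (fun x y => ∃ u, u ∈ G.Om x y) (fun x => ?_)
    ⟨fun x y z ⟨u, hu⟩ ⟨v, hv⟩ => ⟨_, conc_mem hu hv⟩⟩ x y
  have hc : Continuous fun y => G.ρ x y := G.continuous_ρ.comp (f := fun y => (x, y)) (by fun_prop)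
  filter_upwards [(hc.tendsto x).eventually_lt_const (show G.ρ x x < G.δ by rw [G.ρ_self]; exact G.δ_pos)] with y hy
  exact ⟨⟨_, gp_mem hy⟩, ⟨_, rev_mem (gp_mem hy)⟩⟩

variable (G)
/-- paths ending at `b`, over their starting point -/
def pathFib (b : M n) : Fib G (Cur n) where
  P := {p | p ∈ G.PS ∧ p.fi = b}
  lv := fun p => p.1
  lv_cont := continuous_fst
  e := Cur.st
  e_cont := continuous_st.continuousOn
  act := fun q => conc q.1 q.2
  act_cont := continuousOn_conc.mono fun q hq => ⟨hq.1, hq.2.1.1, hq.2.2⟩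
  act_mem := by
    intro v x hv hx h
    have h1 := conc_mem (p2_om hv) (⟨hx.1, h.symm, hx.2⟩ : x ∈ G.Om v.fi b)
    refine ⟨⟨h1.1, h1.2.2⟩, h1.2.1, ?_⟩
    simp only [conc_fst]
    linarith [hv.1]
  act_cst := fun x hx => cst_conc hx.1
  act_conc := fun v w x hv hw hx _ _ => conc_assoc hv hw hx.1

/-- closed paths over their base point -/
def loopFib : Fib G (Cur n) where
  P := G.CP
  lv := fun p => p.1
  lv_cont := continuous_fst
  e := Cur.st
  e_cont := continuous_st.continuousOn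
  act := fun q => conc q.1 (conc q.2 (rev q.1))
  act_cont := by
    have key : ∀ q ∈ {q : Cur n × Cur n | q.1 ∈ G.PS ∧ q.2 ∈ G.CP ∧ q.1.fi = q.2.st},
        q.2 ∈ G.Om q.1.fi q.1.fi := fun q hq => ⟨hq.2.1.1, hq.2.2.symm, hq.2.1.2.symm.trans hq.2.2.symm⟩
    have h2 : ContinuousOn (fun q : Cur n × Cur n => conc q.2 (rev q.1))
        {q | q.1 ∈ G.PS ∧ q.2 ∈ G.CP ∧ q.1.fi = q.2.st} :=
      (continuousOn_conc (G := G)).comp (f := fun q : Cur n × Cur n => (q.2, rev q.1))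
        (continuousOn_snd.prodMk ((continuousOn_rev (G := G)).comp continuousOn_fst fun q hq => hq.1))
        fun q hq => ⟨hq.2.1.1, (rev_mem (p2_om hq.1)).1, (key q hq).2.2.trans (rev_mem (p2_om hq.1)).2.1.symm⟩
    exact (continuousOn_conc (G := G)).comp (f := fun q : Cur n × Cur n => (q.1, conc q.2 (rev q.1)))
      (continuousOn_fst.prodMk h2) fun q hq => ⟨hq.1, (conc_mem (key q hq) (rev_mem (p2_om hq.1))).1,
        (conc_mem (key q hq) (rev_mem (p2_om hq.1))).2.1.symm⟩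
  act_mem := by
    intro v x hv hx h
    have h1 := conc_mem (p2_om hv) (conc_mem (⟨hx.1, h.symm, hx.2.symm.trans h.symm⟩ : x ∈ G.Om v.fi v.fi)
      (rev_mem (p2_om hv)))
    refine ⟨⟨h1.1, h1.2.1.trans h1.2.2.symm⟩, h1.2.1, ?_⟩
    simp only [conc_fst, rev_fst]
    linarith
  act_cst := by
    intro x hx
    simp only [rev_cst]
    conv_lhs => rw [show cst x.st = cst x.fi from congrArg cst hx.2, conc_cst hx.1, ← hx.2, cst_conc hx.1]
  act_conc := by
    intro v w x hv hw hx h1 h2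
    have rv := rev_mem (p2_om hv)
    have rw' := rev_mem (p2_om hw)
    have hx' : x ∈ G.Om w.fi w.fi := ⟨hx.1, h2.symm, hx.2.symm.trans h2.symm⟩
    have a1 := conc_mem hx' rw'
    have a2 := conc_mem rw' (h1 ▸ rv)
    have a3 := conc_mem hx' a2
    simp only
    rw [rev_conc hv hw h1, conc_assoc hv hw a3.1, conc_assoc hw a1.1 rv.1, conc_assoc hx.1 rw'.1 rv.1]

theorem pathFib_ov (a b : M n) : (G.pathFib b).ov {a} = G.Om a b := by
  ext p
  exact ⟨fun h => ⟨h.1.1, h.2, h.1.2⟩, fun h => ⟨⟨h.1, h.2.2⟩, h.2.1⟩⟩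

theorem pathFib_L (a b : M n) (l : ℝ) : (G.pathFib b).L {a} l = G.Om a b ∩ Lv n l := by
  ext p
  exact ⟨fun h => ⟨⟨h.1.1, h.2.1, h.1.2⟩, h.2.2⟩, fun h => ⟨⟨h.1.1, h.1.2.2⟩, h.1.2.1, h.2⟩⟩

theorem loopFib_ov (a : M n) : G.loopFib.ov {a} = G.Om a a := by
  ext p
  exact ⟨fun h => ⟨h.1.1, h.2, h.1.2.symm.trans h.2⟩, fun h => ⟨⟨h.1, h.2.1.trans h.2.2.symm⟩, h.2.1⟩⟩

theorem loopFib_L (a : M n) (l : ℝ) : G.loopFib.L {a} l = G.Om a a ∩ Lv n l := by
  ext p
  exact ⟨fun h => ⟨⟨h.1.1, h.2.1, h.1.2.symm.trans h.2.1⟩, h.2.2⟩,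
    fun h => ⟨⟨h.1.1, h.1.2.1.trans h.1.2.2.symm⟩, h.1.2.1, h.2⟩⟩

theorem loopFib_L_univ (l : ℝ) : G.loopFib.L univ l = G.CP ∩ Lv n l := by
  ext p
  exact ⟨fun h => ⟨h.1, h.2.2⟩, fun h => ⟨h.1, trivial, h.2⟩⟩

end Setup
end Crest.Agent.R231
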