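import Crest.Agent.R231.O.Defs

/-! R231, block O: construction of a pole (gnomonic chart and meridians) (helper6). -/

set_option autoImplicit false
set_option linter.unusedVariables false
open Set
open scoped Classical RealInnerProductSpace

noncomputable section
namespace Crest.Agent.R231
variable {n : ℕ}

/-- normalisation -/
def pnr (y : E n) : M n :=
  if h : y = 0 then north n else ⟨‖y‖⁻¹ • y, by simpa using norm_smul_inv_norm (𝕜 := ℝ) h⟩

theorem pnr_coe {y : E n} (h : y ≠ 0) : (pnr y : E n) = ‖y‖⁻¹ • y := by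
  rw [pnr, dif_neg h]

theorem pnr_norm (z : M n) : ‖(z : E n)‖ = 1 := by simp

theorem pnr_smul (z : M n) {a : ℝ} (ha : 0 < a) : pnr (a • (z : E n)) = z := by
  have h : a • (z : E n) ≠ 0 := by
    rw [← norm_ne_zero_iff, norm_smul, pnr_norm, Real.norm_of_nonneg ha.le]
    positivity
  ext1
  rw [pnr_coe h, norm_smul, pnr_norm, Real.norm_of_nonneg ha.le, mul_one, smul_smul,
    inv_mul_cancel₀ ha.ne', one_smul]

theorem pnr_val (z : M n) : pnr (z : E n) = z := by simpa using pnr_smul z one_pos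

theorem pnr_dist {y y' : E n} {m : ℝ} (hm : 0 < m) (h : m ≤ ‖y‖) (h' : y' ≠ 0) :
    dist (pnr y) (pnr y') ≤ 2 / m * ‖y - y'‖ := by
  have h0 : 0 < ‖y‖ := hm.trans_le h
  have h0' : 0 < ‖y'‖ := norm_pos_iff.2 h'
  rw [Subtype.dist_eq, dist_eq_norm, pnr_coe (norm_pos_iff.1 h0), pnr_coe h']
  have e : ‖y‖⁻¹ • y - ‖y'‖⁻¹ • y' = ‖y‖⁻¹ • (y - y') + (‖y‖⁻¹ * (‖y'‖ - ‖y‖) * ‖y'‖⁻¹) • y' := by
    rw [smul_sub, show ‖y‖⁻¹ * (‖y'‖ - ‖y‖) * ‖y'‖⁻¹ = ‖y‖⁻¹ - ‖y'‖⁻¹ by field_simp, sub_smul]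
    abel
  rw [e]
  refine (norm_add_le _ _).trans ?_
  rw [norm_smul, norm_smul, norm_mul, norm_mul, norm_inv, norm_inv, norm_norm, norm_norm,
    mul_assoc, inv_mul_cancel₀ h0'.ne', mul_one, Real.norm_eq_abs]
  have h1 : |‖y'‖ - ‖y‖| ≤ ‖y - y'‖ := by
    rw [abs_sub_comm]
    exact abs_norm_sub_norm_le y y'
  have h2 : ‖y‖⁻¹ ≤ m⁻¹ := inv_anti₀ hm h
  calc _ ≤ m⁻¹ * ‖y - y'‖ + m⁻¹ * ‖y - y'‖ := by gcongr
    _ = _ := by ring

theorem pnr_contOn : ContinuousOn (pnr : E n → M n) {y | y ≠ 0} := by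
  rw [Topology.IsInducing.subtypeVal.continuousOn_iff]
  refine ContinuousOn.congr (f := fun y : E n => ‖y‖⁻¹ • y) ?_ fun y hy => pnr_coe hy
  exact (continuous_norm.continuousOn.inv₀ fun y hy => norm_ne_zero_iff.2 hy).smul continuousOn_id

theorem pole_lin (p : M n) {η : ℝ} (hη : 0 < η) : ∃ (L : (Fin n → ℝ) →L[ℝ] E n) (P : E n →L[ℝ] (Fin n → ℝ)),
    (∀ x, ⟪(p : E n), L x⟫ = 0) ∧ (∀ x, P (L x) = x) ∧ (∀ z, L (P z) = z - ⟪(p : E n), z⟫ • (p : E n)) ∧
      ∀ x, ‖L x‖ ≤ η * ‖x‖ := by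
  have hp : (p : E n) ≠ 0 := by rw [← norm_ne_zero_iff, pnr_norm]; exact one_ne_zero
  have : Fact (Module.finrank ℝ (E n) = n + 1) := ⟨by simp⟩
  have hr : Module.finrank ℝ (Fin n → ℝ) = Module.finrank ℝ (ℝ ∙ (p : E n))ᗮ := by
    rw [Submodule.finrank_orthogonal_span_singleton (n := n) hp]
    simp
  let e : (Fin n → ℝ) ≃L[ℝ] (ℝ ∙ (p : E n))ᗮ := ContinuousLinearEquiv.ofFinrankEq hr
  set C := ‖(e : (Fin n → ℝ) →L[ℝ] (ℝ ∙ (p : E n))ᗮ)‖ + 1 with hC
  have hC0 : 0 < C := by positivity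
  have hε : 0 < η / C := by positivity
  refine ⟨(η / C) • ((ℝ ∙ (p : E n))ᗮ.subtypeL.comp (e : _ →L[ℝ] _)),
    (η / C)⁻¹ • ((e.symm : _ →L[ℝ] _).comp (ℝ ∙ (p : E n))ᗮ.orthogonalProjectionOnto), fun x => ?_,
    fun x => ?_, fun z => ?_, fun x => ?_⟩
  · have := Submodule.mem_orthogonal_singleton_iff_inner_right.1 (e x).2
    simp [inner_smul_right, this]
  · simp [smul_smul, hη.ne', hC0.ne']
  · have h1 : ((ℝ ∙ (p : E n))ᗮ.orthogonalProjectionOnto z : E n) = z - ⟪(p : E n), z⟫ • (p : E n) := by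
      rw [← Submodule.starProjection_apply, Submodule.starProjection_orthogonal_val,
        Submodule.starProjection_unit_singleton ℝ (pnr_norm p)]
    simp [smul_smul, hη.ne', hC0.ne', ← h1]
  · have h1 : ‖e x‖ ≤ C * ‖x‖ := by
      refine ((e : (Fin n → ℝ) →L[ℝ] (ℝ ∙ (p : E n))ᗮ).le_opNorm x).trans ?_
      gcongr
      linarith
    calc _ = η / C * ‖e x‖ := by simp [norm_smul, abs_of_pos hη, abs_of_pos hC0]
      _ ≤ η / C * (C * ‖x‖) := by gcongr
      _ = _ := by field_simp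

/-- segment from `-p` to `z` -/
def pseg (p : M n) (a : ℝ) (z : M n) : E n := a • (z : E n) - (1 - a) • (p : E n)

theorem pseg_norm (p z : M n) {a κ : ℝ} (ha0 : 0 ≤ a) (ha1 : a ≤ 1) (hκ : 0 < κ) (h : κ ≤ dist z p) :
    κ / 2 ≤ ‖pseg p a z‖ := by
  rw [Subtype.dist_eq, dist_eq_norm] at h
  have h1 := norm_sub_sq_real (z : E n) p
  have h2 := norm_sub_sq_real (a • (z : E n)) ((1 - a) • (p : E n))
  rw [norm_smul, norm_smul, inner_smul_left, inner_smul_right, Real.norm_of_nonneg ha0,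
    Real.norm_of_nonneg (by linarith : 0 ≤ 1 - a)] at h2
  rw [pnr_norm, pnr_norm] at h1 h2
  have h3 : κ ^ 2 ≤ ‖(z : E n) - p‖ ^ 2 := by gcongr
  have h4 : ‖(z : E n) - p‖ ≤ 2 := by
    have := norm_sub_le (z : E n) p
    rw [pnr_norm, pnr_norm] at this
    linarith
  have h5 : κ ^ 2 ≤ 4 := by nlinarith
  refine abs_le_of_sq_le_sq' ?_ (norm_nonneg _) |>.2
  rw [pseg, h2]
  simp only [conj_trivial]
  nlinarith [mul_nonneg ha0 (sub_nonneg.2 ha1), sq_nonneg (1 - 2 * a),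
    mul_le_mul_of_nonneg_left h3 (mul_nonneg ha0 (sub_nonneg.2 ha1))]

theorem exists_pole' (G : Setup n) (p : M n) : Nonempty (Pole G p) := by
  have hδ := G.δ_pos
  have hc := G.one_le_cL
  obtain ⟨L, P, h1, h2, h3, h4⟩ := pole_lin p (show 0 < G.δ / (6 * G.cL) by positivity)
  have hpp : ⟪(p : E n), (p : E n)⟫ = 1 := by rw [real_inner_self_eq_norm_sq, pnr_norm, one_pow]
  have hP : P p = 0 := by rw [← h2 (P p), h3, hpp, one_smul, sub_self, map_zero]
  set ch : (Fin n → ℝ) → M n := fun x => pnr ((p : E n) + L x) with hch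
  set ci : M n → (Fin n → ℝ) := fun z => ⟪(p : E n), (z : E n)⟫⁻¹ • P z with hci
  have hne : ∀ x, (p : E n) + L x ≠ 0 := fun x h => by
    have := congrArg (fun y => ⟪(p : E n), y⟫) h
    simp only [inner_add_right, hpp, h1, inner_zero_right] at this
    norm_num at this
  -- the chart coordinate of a normalised vector
  have hnr : ∀ y : E n, y ≠ 0 → (0 < ⟪(p : E n), (pnr y : E n)⟫ ↔ 0 < ⟪(p : E n), y⟫) ∧
      ci (pnr y) = ⟪(p : E n), y⟫⁻¹ • P y := fun y hy => by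
    have h0 : 0 < ‖y‖⁻¹ := inv_pos.2 (norm_pos_iff.2 hy)
    simp only [hci, pnr_coe hy, inner_smul_right, map_smul, smul_smul]
    refine ⟨mul_pos_iff_of_pos_left h0, ?_⟩
    rw [mul_inv, mul_right_comm, inv_mul_cancel₀ h0.ne', one_mul]
  have hA : ∀ x, 0 < ⟪(p : E n), (ch x : E n)⟫ ∧ ci (ch x) = x := fun x => by
    obtain ⟨e1, e2⟩ := hnr _ (hne x)
    rw [inner_add_right, hpp, h1, add_zero] at e1 e2
    exact ⟨e1.2 one_pos, by rw [e2, map_add, hP, h2, zero_add, inv_one, one_smul]⟩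
  have hB : ∀ z : M n, 0 < ⟪(p : E n), (z : E n)⟫ → ch (ci z) = z := fun z hz => by
    simp only [hch, hci, map_smul, h3, smul_sub, smul_smul, inv_mul_cancel₀ hz.ne', one_smul,
      add_sub_cancel]
    exact pnr_smul z (inv_pos.2 hz)
  have hK : ∀ z : M n, z ∈ ch '' Metric.closedBall 0 1 ↔ 0 < ⟪(p : E n), (z : E n)⟫ ∧ ‖ci z‖ ≤ 1 := by
    intro z
    constructor
    · rintro ⟨x, hx, rfl⟩
      exact ⟨(hA x).1, by rw [(hA x).2]; simpa using hx⟩
    · exact fun h => ⟨ci z, by simpa using h.2, hB z h.1⟩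
  have hin : Continuous fun z : M n => ⟪(p : E n), (z : E n)⟫ := by fun_prop
  have hcic : ContinuousOn ci {z | 0 < ⟪(p : E n), (z : E n)⟫} :=
    (hin.continuousOn.inv₀ fun z hz => ne_of_gt hz).smul (by fun_prop)
  have hO : ∀ r : ℝ, IsOpen ({z : M n | 0 < ⟪(p : E n), (z : E n)⟫} ∩ ci ⁻¹' Metric.ball 0 r) := fun r =>
    hcic.isOpen_inter_preimage (isOpen_lt continuous_const hin) Metric.isOpen_ball
  obtain ⟨κ, hκ, hκ'⟩ := Metric.isOpen_iff.1 (hO 1) p ⟨by simp, by simp [hci, hP]⟩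
  have hfar : ∀ z : M n, z ∉ ch '' Metric.closedBall 0 1 → κ ≤ dist z p := fun z hz => by
    by_contra h
    have := hκ' (Metric.mem_ball.2 (not_le.1 h))
    exact hz ((hK z).2 ⟨this.1, (mem_ball_zero_iff.1 this.2).le⟩)
  set Cv : ℝ := 8 * G.cL / κ with hCv
  have hCv0 : 0 < Cv := by positivity
  set cl : ℝ → ℝ := fun t => max 0 (min 1 (t / Cv)) with hcl
  have cl0 : ∀ t, 0 ≤ cl t := fun t => le_max_left _ _
  have cl1 : ∀ t, cl t ≤ 1 := fun t => max_le zero_le_one (min_le_left _ _)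
  have cll : ∀ s t, |cl s - cl t| ≤ |s - t| / Cv := fun s t => by
    have e1 := abs_max_sub_max_le_max (0 : ℝ) (min 1 (s / Cv)) 0 (min 1 (t / Cv))
    have e2 := abs_min_sub_min_le_max (1 : ℝ) (s / Cv) 1 (t / Cv)
    rw [sub_self, abs_zero] at e1 e2
    rw [max_eq_right (abs_nonneg (s / Cv - t / Cv))] at e2
    rw [max_eq_right (abs_nonneg (min 1 (s / Cv) - min 1 (t / Cv)))] at e1
    rw [← sub_div, abs_div, abs_of_pos hCv0] at e2
    exact e1.trans e2
  have cla : ∀ t, t ≤ 0 → cl t = 0 := fun t ht =>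
    max_eq_left ((min_le_right _ _).trans (div_nonpos_of_nonpos_of_nonneg ht hCv0.le))
  have clb : ∀ t, Cv ≤ t → cl t = 1 := fun t ht => by
    simp only [hcl, min_eq_left ((one_le_div hCv0).2 ht), max_eq_right zero_le_one]
  have hlow : ∀ z : M n, z ∉ ch '' Metric.closedBall 0 1 → ∀ t, κ / 2 ≤ ‖pseg p (cl t) z‖ :=
    fun z hz t => pseg_norm p z (cl0 t) (cl1 t) hκ (hfar z hz)
  have hne' : ∀ z : M n, z ∉ ch '' Metric.closedBall 0 1 → ∀ t, pseg p (cl t) z ≠ 0 :=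
    fun z hz t => norm_pos_iff.1 ((half_pos hκ).trans_le (hlow z hz t))
  have hanti : ((anti p : M n) : E n) = -(p : E n) := rfl
  refine ⟨{
    ch := ch
    ci := ci
    U := {z : M n | 0 < ⟪(p : E n), (z : E n)⟫} ∩ ci ⁻¹' Metric.ball 0 3
    U_open := hO 3
    ch_cont := pnr_contOn.comp (by fun_prop) fun x _ => hne x
    ci_cont := hcic.mono inter_subset_left
    ch_mem := fun x hx => ⟨(hA x).1, by rw [mem_preimage, (hA x).2]; exact hx⟩
    ci_mem := fun z hz => hz.2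
    ci_ch := fun x _ => (hA x).2
    ch_ci := fun z hz => hB z hz.1
    ch_zero := by simp only [hch, map_zero, add_zero, pnr_val]
    U_small := fun z hz => ?_
    anti_notMem := fun h => ?_
    v := fun z => mkC Cv fun t => pnr (pseg p (cl t) z)
    Cv := Cv
    Cv_nonneg := hCv0.le
    v_cont := ?_
    v_mem := fun z hz => ⟨⟨⟨hCv0.le, fun s t => ?_, fun t ht => ?_, fun t ht => ?_⟩, ?_, ?_⟩, le_rfl,
      fun t ht => hz ?_⟩
    v_anti := fun t => ?_ }⟩
  · have e1 := pnr_dist (y := (p : E n)) one_pos (pnr_norm p).ge (hne (ci z))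
    rw [pnr_val, sub_add_cancel_left, norm_neg] at e1
    have e2 : ‖ci z‖ < 3 := mem_ball_zero_iff.1 hz.2
    have e3 := h4 (ci z)
    have e4 : G.δ / (6 * G.cL) * ‖ci z‖ < G.δ / (6 * G.cL) * 3 := by gcongr
    have e5 : dist p z < G.δ / G.cL := by
      rw [← hB z hz.1]
      have : G.δ / (6 * G.cL) * 3 = G.δ / G.cL / 2 := by field_simp; ring
      simp only [hch]
      linarith
    rw [lt_div_iff₀ (by linarith)] at e5
    linarith [G.ρ_le p z]
  · have := h.1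
    simp only [mem_ofPred_eq, hanti, inner_neg_right, hpp] at this
    linarith
  · refine continuousOn_const.prodMk (LipschitzOnWith.continuousOn (K := Real.toNNReal (4 / κ)) ?_)
    refine UniformFun.lipschitzOnWith_ofFun_iff.2 fun t => LipschitzOnWith.of_dist_le' fun z hz z' hz' => ?_
    refine (pnr_dist (half_pos hκ) (hlow z hz t) (hne' z' hz' t)).trans ?_
    have e : pseg p (cl t) z - pseg p (cl t) z' = cl t • ((z : E n) - z') := by
      simp only [pseg, smul_sub]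
      abel
    rw [e, norm_smul, Real.norm_of_nonneg (cl0 t), Subtype.dist_eq, dist_eq_norm,
      show 2 / (κ / 2) = 4 / κ by field_simp; ring]
    gcongr
    exact mul_le_of_le_one_left (norm_nonneg _) (cl1 t)
  · refine (G.ρ_le _ _).trans ?_
    have e1 := pnr_dist (half_pos hκ) (hlow z hz s) (hne' z hz t)
    have e : pseg p (cl s) z - pseg p (cl t) z = (cl s - cl t) • ((z : E n) + p) := by
      simp only [pseg, smul_add, sub_smul]
      abel
    have e2 : ‖(z : E n) + p‖ ≤ 2 := by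
      have := norm_add_le (z : E n) p
      rw [pnr_norm, pnr_norm] at this
      linarith
    rw [e, norm_smul, Real.norm_eq_abs] at e1
    calc _ ≤ G.cL * (2 / (κ / 2) * (|s - t| / Cv * 2)) := by
          refine mul_le_mul_of_nonneg_left (e1.trans ?_) (by linarith)
          gcongr
          exact cll s t
      _ = |s - t| := by rw [hCv]; field_simp; ring
  · simp only [mkC_ev, cla t ht, cla 0 le_rfl]
  · simp only [mkC_ev, mkC_fst, clb t ht, clb Cv le_rfl]
  · simp only [Cur.st, mkC_ev, cla 0 le_rfl, pseg, zero_smul, sub_zero, one_smul, zero_sub, ← hanti, pnr_val]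
  · simp only [Cur.fi, mkC_ev, mkC_fst, clb Cv le_rfl, pseg, sub_self, zero_smul, sub_zero, one_smul, pnr_val]
  · rw [mkC_ev, hK] at ht
    obtain ⟨e1, e2⟩ := hnr _ (hne' z hz t)
    rw [e1, e2] at ht
    simp only [pseg, inner_sub_right, inner_smul_right, hpp, mul_one, map_sub, map_smul, hP, smul_zero,
      sub_zero, smul_smul] at ht
    obtain ⟨a1, a2⟩ := ht
    have a3 : 0 < cl t * ⟪(p : E n), (z : E n)⟫ := by linarith [cl1 t]
    have a4 : 0 < ⟪(p : E n), (z : E n)⟫ := pos_of_mul_pos_right a3 (cl0 t)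
    refine (hK z).2 ⟨a4, le_trans ?_ a2⟩
    simp only [hci, norm_smul]
    gcongr
    rw [Real.norm_of_nonneg (inv_pos.2 a4).le,
      Real.norm_of_nonneg (mul_nonneg (inv_pos.2 a1).le (cl0 t)), inv_mul_eq_div, le_div_iff₀ a1,
      inv_mul_le_iff₀ a4]
    linarith [cl1 t]
  · have e : pseg p (cl t) (anti p) = ((anti p : M n) : E n) := by
      simp only [pseg, hanti, smul_neg, sub_smul, one_smul]
      abel
    rw [mkC_ev, e, pnr_val]

end Crest.Agent.R231
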