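import Crest.Agent.R231.O.Path

/-! R231, block O: normalised segments on the sphere, local homology at a pole, top homology, diagonal cocycle. -/

set_option autoImplicit false
set_option linter.unusedVariables false
set_option linter.unusedSectionVars false
open Set
open scoped Classical

noncomputable section
namespace Crest.Agent.R231
namespace SphT
variable {n : ℕ} {G : Setup n}

/-- radial projection to the sphere -/
def nz (x : E n) : M n :=
  if h : x = 0 then north n else ⟨‖x‖⁻¹ • x, mem_sphere_zero_iff_norm.2 (norm_smul_inv_norm h)⟩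

theorem nz_coe {x : E n} (h : x ≠ 0) : (nz x : E n) = ‖x‖⁻¹ • x := by
  rw [nz, dif_neg h]

theorem nz_val (x : M n) : nz (x : E n) = x := by
  refine Subtype.ext ?_
  rw [nz_coe (ne_zero_of_mem_unit_sphere x), norm_eq_of_mem_sphere, inv_one, one_smul]

theorem nz_cont : ContinuousOn (nz : E n → M n) {x | x ≠ 0} := by
  refine Topology.IsInducing.subtypeVal.continuousOn_iff.2 ?_
  refine ContinuousOn.congr (f := fun x : E n => ‖x‖⁻¹ • x) ?_ fun x hx => nz_coe hx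
  exact (continuousOn_id.norm.inv₀ fun x hx => norm_ne_zero_iff.2 hx).smul continuousOn_id

/-- the segment from `x` to `-y` -/
def sg (q : ℝ × M n × M n) : E n := (1 - q.1) • (q.2.1 : E n) - q.1 • (q.2.2 : E n)

theorem continuous_sg : Continuous (sg : ℝ × M n × M n → E n) := by
  unfold sg
  fun_prop

theorem sg_ne {q : ℝ × M n × M n} (h : q.2.1 ≠ q.2.2) : sg q ≠ 0 := by
  obtain ⟨t, x, y⟩ := q
  intro h0
  have h1 : (1 - t) • (x : E n) = t • (y : E n) := sub_eq_zero.1 h0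
  have h2 := congrArg norm h1
  rw [norm_smul, norm_smul, norm_eq_of_mem_sphere, norm_eq_of_mem_sphere, mul_one, mul_one, Real.norm_eq_abs,
    Real.norm_eq_abs, abs_eq_abs] at h2
  have h3 : 1 - t = t := by
    rcases h2 with h2 | h2 <;> linarith
  rw [h3] at h1
  exact h (Subtype.ext (smul_right_injective _ (by intro h4; rw [h4] at h3; norm_num at h3) h1))

/-- the normalised segment from `x` to `-y` -/
def HH (q : ℝ × M n × M n) : M n := nz (sg q)

theorem HH_cont : ContinuousOn (HH : ℝ × M n × M n → M n) {q | q.2.1 ≠ q.2.2} :=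
  nz_cont.comp continuous_sg.continuousOn fun _ hq => sg_ne hq

theorem HH_zero (x y : M n) : HH (0, x, y) = x := by
  simp only [HH, sg, sub_zero, one_smul, zero_smul, nz_val]

theorem HH_one (x y : M n) : HH (1, x, y) = anti y := by
  have : sg (1, x, y) = ((anti y : M n) : E n) := by
    simp [sg, anti]
  rw [HH, this, nz_val]

theorem HH_ne {t : ℝ} (ht : t ∈ Icc (0 : ℝ) 1) {x y : M n} (h : x ≠ y) : HH (t, x, y) ≠ y := by
  intro h0
  have hne : sg (t, x, y) ≠ 0 := sg_ne h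
  have hp : 0 < ‖sg (t, x, y)‖ := norm_pos_iff.2 hne
  have h1 : ‖sg (t, x, y)‖⁻¹ • sg (t, x, y) = (y : E n) := by
    rw [← nz_coe hne]
    exact congrArg Subtype.val h0
  generalize hs : ‖sg (t, x, y)‖ = s at hp h1
  have h2 : sg (t, x, y) = s • (y : E n) := by
    rw [← h1, smul_smul, mul_inv_cancel₀ hp.ne', one_smul]
  have h3 : (1 - t) • (x : E n) = (s + t) • (y : E n) := by
    rw [add_smul, ← h2]
    simp [sg]
  have h4 := congrArg norm h3
  rw [norm_smul, norm_smul, norm_eq_of_mem_sphere, norm_eq_of_mem_sphere, mul_one, mul_one,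
    Real.norm_of_nonneg (sub_nonneg.2 ht.2), Real.norm_of_nonneg (by linarith [ht.1])] at h4
  rw [h4] at h3
  exact h (Subtype.ext (smul_right_injective _ (by linarith [ht.1] : s + t ≠ 0) h3))

/-- the complement of a point is acyclic -/
theorem cyc_compl {p : M n} {c : Ch (M n)} (hc : c ∈ sup ({p}ᶜ : Set (M n))) (hd : dd c = 0) (ha : aug c = 0) :
    ∃ w ∈ sup ({p}ᶜ : Set (M n)), dd w = c := by
  obtain ⟨w, hw, e⟩ := cycle_contract (H := fun q : ℝ × M n => HH (q.1, q.2, p)) (A' := {p}ᶜ) (x₀ := anti p)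
    (HH_cont.comp (by fun_prop) fun q hq => hq.2) (fun q hq => HH_ne hq.1 hq.2) (fun x _ => HH_zero x p)
    (fun x _ => HH_one x p) hc hd
  exact ⟨w, hw, by rw [e, ha, zero_smul, add_zero]⟩

variable {p : M n} (Pl : Pole G p)

theorem sub_ball {r : ℝ} (h : r < 3) : Metric.closedBall (0 : Fin n → ℝ) r ⊆ Metric.ball 0 3 :=
  Metric.closedBall_subset_ball h

theorem K_closed : IsClosed Pl.K :=
  ((isCompact_closedBall 0 1).image_of_continuousOn (Pl.ch_cont.mono (sub_ball (by norm_num)))).isClosed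

theorem K_sub : Pl.K ⊆ Pl.U := by
  rintro _ ⟨x, hx, rfl⟩
  exact Pl.ch_mem (sub_ball (by norm_num) hx)

theorem mem_K : p ∈ Pl.K := ⟨0, Metric.mem_closedBall_self zero_le_one, Pl.ch_zero⟩

theorem fund_mem3 : fund n 2 ∈ sup (Metric.ball (0 : Fin n → ℝ) 3) :=
  sup_mono (sub_ball (by norm_num)) (fund_mem n zero_le_two)

theorem β_mem : Pl.β ∈ sup Pl.U := mp_mem fund_mem3 Pl.ch_mem

theorem dd_β_mem : dd Pl.β ∈ sup (Pl.U \ Pl.K) := by
  rw [Pole.β, ← mp_dd fund_mem3 Pl.ch_cont]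
  refine mp_mem (dd_fund_mem n zero_le_two) fun x hx => ?_
  have hx3 : x ∈ Metric.ball (0 : Fin n → ℝ) 3 := sub_ball (by norm_num) (Metric.sphere_subset_closedBall hx)
  refine ⟨Pl.ch_mem hx3, ?_⟩
  rintro ⟨y, hy, e⟩
  have : y = x := by rw [← Pl.ci_ch y (sub_ball (by norm_num) hy), e, Pl.ci_ch x hx3]
  rw [this, mem_closedBall_zero_iff, mem_sphere_zero_iff_norm.1 hx] at hy
  norm_num at hy

theorem hom_β : Hom n Pl.β := (hom_fund n 2).mp _

theorem dd_β_mem' : dd Pl.β ∈ sup ({p}ᶜ : Set (M n)) :=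
  sup_mono (fun z hz h => hz.2 (by rw [h]; exact mem_K Pl)) (dd_β_mem Pl)

theorem cover : (univ : Set (M n)) ⊆ Pl.U ∪ {p}ᶜ := fun z _ => by
  by_cases h : z = p
  · exact Or.inl (by rw [h]; exact K_sub Pl (mem_K Pl))
  · exact Or.inr h

theorem ci_maps : MapsTo (fun z => (Pl.ci z, ())) (univ ∩ Pl.U) (Metric.ball 0 3 ×ˢ univ) :=
  fun z hz => ⟨Pl.ci_mem hz.2, trivial⟩

theorem ci_maps' : MapsTo (fun z => (Pl.ci z, ())) ({p}ᶜ ∩ Pl.U) (Low n 0 3 univ (univ ∩ ∅)) := by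
  refine fun z hz => Or.inr ⟨⟨Pl.ci_mem hz.2, fun h => hz.1 ?_⟩, trivial⟩
  rw [Metric.closedBall_zero, mem_singleton_iff] at h
  have h' : Pl.ci z = 0 := h
  rw [← Pl.ch_ci z hz.2, h', Pl.ch_zero]
  rfl

theorem ci_cont' : ContinuousOn (fun z => (Pl.ci z, ())) (univ ∩ Pl.U) :=
  (Pl.ci_cont.mono inter_subset_right).prodMk continuousOn_const

theorem ch_maps' : MapsTo (fun q : (Fin n → ℝ) × Unit => Pl.ch q.1) (Low n 0 3 univ (univ ∩ ∅)) {p}ᶜ := by
  rintro q (hq | hq)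
  · exact hq.2.2.elim
  · intro h
    refine hq.1.2 ?_
    have h' : Pl.ch q.1 = Pl.ch 0 := Eq.trans h Pl.ch_zero.symm
    rw [← Pl.ci_ch _ hq.1.1, h', Pl.ci_ch _ (Metric.mem_ball_self (by norm_num))]
    exact Metric.mem_closedBall_self le_rfl

/-- the local homology at `p` is generated by `β` -/
theorem loc_surj {c : Ch (M n)} (hc : c ∈ Cyc univ ({p}ᶜ : Set (M n))) :
    ∃ r : F2, c + r • Pl.β ∈ Bdy univ ({p}ᶜ : Set (M n)) := by
  obtain ⟨c', hc', h1⟩ := excise_surj Pl.U_open isOpen_compl_singleton (cover Pl) inter_subset_right hc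
  obtain ⟨y, -, h2⟩ := susp_surj n le_rfl zero_lt_two (by norm_num : (2 : ℝ) < 3) isOpen_empty
    (mp_Cyc (ci_cont' Pl) (ci_maps Pl) (ci_maps' Pl) hc')
  have h3 := mp_Bdy (f := fun q : (Fin n → ℝ) × Unit => Pl.ch q.1)
    (Pl.ch_cont.comp continuousOn_fst fun q hq => hq.1) (mapsTo_univ _ _) (ch_maps' Pl) h2
  rw [map_add, mp_comp hc'.1 (ci_cont' Pl), mp_congr (g := fun z => z) hc'.1 fun z hz => Pl.ch_ci z hz.2, mp_id,
    ← mp_comp' continuous_fst, mp_fst_cr, map_smul] at h3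
  refine ⟨aug y, ?_⟩
  have := add_mem h1 h3
  convert this using 1
  rw [Pole.β]
  ch2

/-- `β` is not zero in the local homology at `p` -/
theorem loc_ne : Pl.β ∉ Bdy univ ({p}ᶜ : Set (M n)) := by
  intro h
  have h1 := excise_inj Pl.U_open isOpen_compl_singleton (cover Pl) inter_subset_right (subset_univ _)
    (by rw [univ_inter]; exact β_mem Pl) h
  have h2 := mp_Bdy (ci_cont' Pl) (ci_maps Pl) (ci_maps' Pl) h1
  rw [Pole.β, mp_comp fund_mem3 Pl.ch_cont, mp_congr (g := fun x => (x, ())) fund_mem3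
    fun x hx => by rw [Pl.ci_ch x hx], ← cr_pt_right] at h2
  have h3 := susp_inj n le_rfl zero_lt_two (by norm_num : (2 : ℝ) < 3) isOpen_empty
    (mem_Cyc.2 ⟨mem_sup_univ _, by rw [dd_pt]; exact zero_mem _⟩) h2
  rw [inter_empty] at h3
  obtain ⟨w, -, e⟩ := mem_Bdy_empty.1 h3
  have := congrArg aug e
  rw [aug_dd, aug_pt] at this
  exact zero_ne_one this

theorem sphere_top (hn : 2 ≤ n) : ∃ w ∈ sup ({p}ᶜ : Set (M n)), Hom n w ∧
    dd (Pl.β + w) = 0 ∧ (¬ ∃ z, dd z = Pl.β + w) ∧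
    ∀ c : Ch (M n), Hom n c → dd c = 0 → (∃ z, dd z = c) ∨ ∃ z, dd z = c + (Pl.β + w) := by
  obtain ⟨w₀, hw₀, e₀⟩ := cyc_compl (dd_β_mem' Pl) (dd_dd _) (aug_dd _)
  have hd : dd (Pl.β + pr n w₀) = 0 := by
    obtain ⟨m, rfl⟩ : ∃ m, n = m + 1 := ⟨n - 1, by omega⟩
    rw [map_add, dd_pr, e₀, (hom_β Pl).dd, add_self]
  refine ⟨pr n w₀, pr_mem _ hw₀, hom_pr _ _, hd, ?_, fun c hc hdc => ?_⟩
  · rintro ⟨z, e⟩
    refine loc_ne Pl (mem_Bdy.2 ⟨z, mem_sup_univ _, ?_⟩)
    rw [e, ← add_assoc, add_self, zero_add]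
    exact pr_mem _ hw₀
  · obtain ⟨r, hr⟩ := loc_surj Pl (mem_Cyc.2 ⟨mem_sup_univ c, by rw [hdc]; exact zero_mem _⟩)
    obtain ⟨z, -, hz⟩ := mem_Bdy.1 hr
    have h1 : c + r • (Pl.β + pr n w₀) + dd z ∈ sup ({p}ᶜ : Set (M n)) := by
      have := add_mem hz (Submodule.smul_mem _ r (pr_mem n hw₀))
      convert this using 1
      rw [smul_add]
      abel
    obtain ⟨w', -, e'⟩ := cyc_compl h1 (by rw [map_add, map_add, map_smul, hd, hdc, dd_dd]; simp)
      (by rw [map_add, map_add, map_smul, aug_dd, hc.aug (by omega),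
        ((hom_β Pl).add (hom_pr _ _)).aug (by omega)]; simp)
    have e : dd (w' + z) = c + r • (Pl.β + pr n w₀) := by
      rw [map_add, e', add_assoc, add_self, add_zero]
    rcases F2_cases r with rfl | rfl
    · exact Or.inl ⟨_, by rw [e, zero_smul, add_zero]⟩
    · exact Or.inr ⟨_, by rw [e, one_smul]⟩

theorem exists_top (hn : 2 ≤ n) (Pl : Pole G p) : ∃ a : Ch (M n) →ₗ[F2] F2, Deg n a ∧ (∀ z, a (dd z) = 0) ∧
    ∀ c, Hom n c → dd c = 0 → (¬ ∃ z, dd z = c) → a c = 1 := by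
  obtain ⟨w, -, hw, -, hne, H⟩ := sphere_top Pl hn
  obtain ⟨a, h1, h2, h3⟩ := exists_functional (S := LinearMap.range (dd : Ch (M n) →ₗ[F2] Ch (M n)))
    (by rintro i _ ⟨z, rfl⟩; exact ⟨_, dd_pr i z⟩) ((hom_β Pl).add hw) hne
  refine ⟨a, h1, fun z => h2 _ ⟨z, rfl⟩, fun c hc hd hn => ?_⟩
  obtain ⟨z, e⟩ := (H c hc hd).resolve_left hn
  have := h2 _ ⟨z, rfl⟩
  rw [e, map_add, h3] at this
  linear_combination (norm := skip) this
  generalize a c = u
  revert u
  decide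

theorem exists_diag (hn : 2 ≤ n) (Pl₀ : Pole G p) : ∃ T, IsDiag G T := by
  obtain ⟨a, hdeg, hb, h1⟩ := exists_top hn Pl₀
  have hanti : ∀ c : Ch (M n), dd c = 0 → a (mp anti c) = a c := by
    intro c hc
    have hd : dd (pr n c) = 0 := by
      obtain ⟨m, rfl⟩ : ∃ m, n = m + 1 := ⟨n - 1, by omega⟩
      rw [dd_pr, hc, map_zero]
    rw [← hdeg, ← mp_pr, ← hdeg c]
    by_cases h : ∃ z, dd z = pr n c
    · obtain ⟨z, e⟩ := h
      rw [← e, mp_dd' Setup.continuous_anti, hb, hb]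
    · rw [h1 _ (hom_pr _ _) hd h, h1 _ ((hom_pr _ _).mp _) (by rw [← mp_dd' Setup.continuous_anti, hd, map_zero])]
      rintro ⟨z, e⟩
      refine h ⟨mp anti z, ?_⟩
      rw [← mp_dd' Setup.continuous_anti, e, mp_comp' Setup.continuous_anti]
      simp only [Setup.anti_anti, mp_id]
  let φ : Ch (M n × M n) →ₗ[F2] F2 := a ∘ₗ mp Prod.fst + a ∘ₗ mp Prod.snd
  have hφ : ∀ c, φ c = a (mp Prod.fst c) + a (mp Prod.snd c) := fun c => rfl
  have hφd : Deg n φ := fun c => by rw [hφ, hφ, mp_pr, mp_pr, hdeg, hdeg]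
  obtain ⟨ψ, hψ1, hψ2⟩ := exists_correction (A := {q : M n × M n | q.1 ≠ q.2}) hφd fun c hc hd => by
    have := dd_hty (H := HH) hc (HH_cont.mono fun q hq => hq.2)
    rw [hd, map_zero, add_zero] at this
    have h2 := congrArg a this
    have e0 : (fun x : M n × M n => HH (0, x)) = Prod.fst := funext fun x => HH_zero x.1 x.2
    have e1 : (fun x : M n × M n => HH (1, x)) = fun x => anti x.2 := funext fun x => HH_one x.1 x.2
    rw [hb, map_add, e0, e1, ← mp_comp' continuous_snd anti,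
      hanti _ (by rw [← mp_dd' continuous_snd, hd, map_zero])] at h2
    rw [hφ, ← h2]
  let T : Ch (M n × M n) →ₗ[F2] F2 := φ + ψ ∘ₗ dd
  have hT : ∀ c, T c = φ c + ψ (dd c) := fun c => rfl
  have hTd : Deg n T := fun c => by rw [hT, hT, hφd, hψ1]
  have hTc : ∀ c, T (dd c) = 0 := fun c => by
    rw [hT, hφ, dd_dd, map_zero, mp_dd' continuous_fst, mp_dd' continuous_snd, hb, hb, add_zero, add_zero]
  have key : ∀ (q : M n) (Pl : Pole G q) (ι : M n → M n × M n), Continuous ι →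
      MapsTo ι {q}ᶜ {q : M n × M n | q.1 ≠ q.2} → (∀ c, aug c = 0 → φ (mp ι c) = a c) → Pl.IsThom (T ∘ₗ mp ι) := by
    intro q Pl ι hι hm hv
    refine ⟨hTd.comp_mp _, fun c => ?_, fun c hc => hψ2 _ (mp_mem hc hm), ?_⟩
    · rw [LinearMap.comp_apply, mp_dd' hι, hTc]
    · obtain ⟨w, hw, hw', hd, hne, -⟩ := sphere_top Pl hn
      have hh := (hom_β Pl).add hw'
      have e1 : T (mp ι w) = 0 := hψ2 _ (mp_mem hw hm)
      have e2 : T (mp ι (Pl.β + w)) = 1 := by
        rw [hT, ← mp_dd' hι, hd, map_zero, map_zero, add_zero, hv _ (hh.aug (by omega)), h1 _ hh hd hne]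
      rw [map_add, map_add, e1, add_zero] at e2
      exact e2
  refine ⟨T, hTd, hTc, hψ2, fun q Pl => ⟨key q Pl _ (by fun_prop) (fun z hz => hz) fun c hc => ?_,
    key q Pl _ (by fun_prop) (fun z hz => Ne.symm hz) fun c hc => ?_⟩⟩
  · rw [hφ, mp_comp' (by fun_prop), mp_comp' (by fun_prop)]
    simp only [mp_id, mp_const, hc, zero_smul, map_zero, add_zero]
  · rw [hφ, mp_comp' (by fun_prop), mp_comp' (by fun_prop)]
    simp only [mp_id, mp_const, hc, zero_smul, map_zero, zero_add]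

end SphT
end Crest.Agent.R231
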