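import Crest.Agent.R231.O.Path
import Crest.Agent.R231.O.SphTop
import Crest.Agent.R231.O.Pole

/-! R231, block O: topology of the sphere.
`exists_pole`: take an isometry `e : EuclideanSpace ℝ (Fin n) ≃ p^⊥` (finrank), `ch x = normalise (p + ε e x)` (gnomonic chart),
`ci z = e⁻¹ (z / ⟪z,p⟫ - p) / ε`, `U = {z | ⟪z,p⟫ > 0, ci z ∈ ball 0 3}`, `ε` small.  `v z = (Cv, t ↦ normalise ((1-a)(-p) + a z))`,
`a = clamp (t / Cv)`; off the compact cube `K` (a neighbourhood of `p`) the norm of the segment is bounded below, so the path is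
`1`-Lipschitz for `ρ` when `Cv` is large; it stays outside `K` because `K` is star-shaped along meridians (in the chart the
meridian is the ray through `ci z`, traversed outwards).
`sphere_top`: `μ = β + w` with `dd w = dd β`, `w` in the contractible set `{p}ᶜ` (normalised segment to `-p`); an `n`-cycle is a
relative cycle of `(univ, {p}ᶜ)`; `excise_surj` to `U`, chart, `susp_surj` with `r = 0`, `A` a point; non-triviality by
`excise_inj`, `susp_inj`, `aug`.
`exists_diag`: `a` = functional of degree `n` killing boundaries with `a μ = 1` (`exists_functional`); `a ∘ mp anti = a` on cycles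
(involution of a two-element group); `φ = a ∘ mp fst + a ∘ mp snd` kills the cycles in `{x ≠ y}` (`fst ≃ anti ∘ snd` there);
`T = φ + ψ ∘ dd` (`exists_correction`). -/

set_option autoImplicit false
set_option linter.unusedVariables false
set_option linter.unusedSectionVars false
open Set
open scoped Classical

noncomputable section
namespace Crest.Agent.R231
namespace Setup
variable {n : ℕ} {G : Setup n}

theorem exists_pole (G : Setup n) (p : M n) : Nonempty (Pole G p) := exists_pole' G p

theorem _root_.Crest.Agent.R231.Pole.K_closed {p : M n} (Pl : Pole G p) : IsClosed Pl.K :=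
  SphT.K_closed Pl

theorem _root_.Crest.Agent.R231.Pole.K_sub {p : M n} (Pl : Pole G p) : Pl.K ⊆ Pl.U :=
  SphT.K_sub Pl

theorem _root_.Crest.Agent.R231.Pole.mem_K {p : M n} (Pl : Pole G p) : p ∈ Pl.K :=
  SphT.mem_K Pl

theorem _root_.Crest.Agent.R231.Pole.β_mem {p : M n} (Pl : Pole G p) : Pl.β ∈ sup Pl.U :=
  SphT.β_mem Pl

theorem _root_.Crest.Agent.R231.Pole.dd_β_mem {p : M n} (Pl : Pole G p) : dd Pl.β ∈ sup (Pl.U \ Pl.K) :=
  SphT.dd_β_mem Pl

theorem _root_.Crest.Agent.R231.Pole.hom_β {p : M n} (Pl : Pole G p) : Hom n Pl.β :=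
  SphT.hom_β Pl

/-- top homology of the sphere -/
theorem sphere_top (hn : 2 ≤ n) {p : M n} (Pl : Pole G p) : ∃ w ∈ sup ({p}ᶜ : Set (M n)), Hom n w ∧
    dd (Pl.β + w) = 0 ∧ (¬ ∃ z, dd z = Pl.β + w) ∧
    ∀ c : Ch (M n), Hom n c → dd c = 0 → (∃ z, dd z = c) ∨ ∃ z, dd z = c + (Pl.β + w) :=
  SphT.sphere_top Pl hn

theorem exists_diag (G : Setup n) (hn : 2 ≤ n) : ∃ T, IsDiag G T :=
  (exists_pole G (north n)).elim fun Pl => SphT.exists_diag hn Pl

end Setup
end Crest.Agent.R231
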