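import Crest.Agent.R231.O.Path

/-! R231, block O: Pontryagin product of chains of paths and transport of base points.
`trans_back`: `tr (rev u) (rev w) (tr u w x) = conc (conc (rev u) u) (conc x (conc w (rev w)))`; use `exists_cancel` for `rev u`
and `w` simultaneously. -/

set_option autoImplicit false
set_option linter.unusedVariables false
set_option linter.unusedSectionVars false
open Set
open scoped Classical

noncomputable section
namespace Crest.Agent.R231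
namespace Setup
variable {n : ℕ} {G : Setup n}

/-- Pontryagin product -/
def _root_.Crest.Agent.R231.cc (a b : Ch (Cur n)) : Ch (Cur n) := mp (fun q : Cur n × Cur n => conc q.1 q.2) (cr a b)

/-- transport along fixed paths -/
def _root_.Crest.Agent.R231.tr (u w x : Cur n) : Cur n := conc u (conc x w)

theorem continuousOn_conc_Om {x y z : M n} :
    ContinuousOn (fun q : Cur n × Cur n => conc q.1 q.2) (G.Om x y ×ˢ G.Om y z) :=
  continuousOn_conc.mono fun q hq => ⟨hq.1.1, hq.2.1, hq.1.2.2.trans hq.2.2.1.symm⟩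

theorem Lv_mono {l l' : ℝ} (h : l ≤ l') : Lv n l ⊆ Lv n l' := fun p hp => lt_of_lt_of_le hp h

theorem cc_add_left (a a' b : Ch (Cur n)) : cc (a + a') b = cc a b + cc a' b := by
  simp only [cc, map_add, LinearMap.add_apply]

theorem cc_add_right (a b b' : Ch (Cur n)) : cc a (b + b') = cc a b + cc a b' := by
  simp only [cc, map_add]

theorem cc_zero_left (b : Ch (Cur n)) : cc 0 b = 0 := by
  simp only [cc, map_zero, LinearMap.zero_apply]

theorem cc_zero_right (a : Ch (Cur n)) : cc a 0 = 0 := by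
  simp only [cc, map_zero]

theorem cc_mem {x y z : M n} {a b : Ch (Cur n)} (ha : a ∈ sup (G.Om x y)) (hb : b ∈ sup (G.Om y z)) :
    cc a b ∈ sup (G.Om x z) := by
  exact mp_mem (cr_mem ha hb) fun q hq => conc_mem hq.1 hq.2

theorem cc_mem_Lv {x y z : M n} {a b : Ch (Cur n)} {l l' : ℝ} (ha : a ∈ sup (G.Om x y ∩ Lv n l))
    (hb : b ∈ sup (G.Om y z ∩ Lv n l')) : cc a b ∈ sup (G.Om x z ∩ Lv n (l + l')) := by
  exact mp_mem (cr_mem ha hb) fun q hq => ⟨conc_mem hq.1.1 hq.2.1,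
    add_lt_add (show q.1.1 < l from hq.1.2) (show q.2.1 < l' from hq.2.2)⟩

theorem dd_cc {x y z : M n} {a b : Ch (Cur n)} (ha : a ∈ sup (G.Om x y)) (hb : b ∈ sup (G.Om y z)) :
    dd (cc a b) = cc (dd a) b + cc a (dd b) := by
  rw [cc, ← mp_dd (cr_mem ha hb) continuousOn_conc_Om, dd_cr, map_add]
  rfl

theorem cc_hom {i j : ℕ} {a b : Ch (Cur n)} (ha : Hom i a) (hb : Hom j b) : Hom (i + j) (cc a b) := by
  exact (ha.cr hb).mp _

theorem cc_assoc {x y z w : M n} {a b c : Ch (Cur n)} (ha : a ∈ sup (G.Om x y)) (hb : b ∈ sup (G.Om y z))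
    (hc : c ∈ sup (G.Om z w)) : cc (cc a b) c = cc a (cc b c) := by
  have h1 := mp_cr (f := fun q : Cur n × Cur n => conc q.1 q.2) (g := fun p : Cur n => p) (cr_mem ha hb) hc
    continuousOn_conc_Om continuousOn_id
  have h2 := mp_cr (f := fun p : Cur n => p) (g := fun q : Cur n × Cur n => conc q.1 q.2) ha (cr_mem hb hc)
    continuousOn_id continuousOn_conc_Om
  rw [mp_id] at h1 h2
  have m1 := cr_mem (cr_mem ha hb) hc
  have m2 := cr_mem ha (cr_mem hb hc)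
  have c1 : ContinuousOn (fun p : (Cur n × Cur n) × Cur n => (conc p.1.1 p.1.2, p.2))
      ((G.Om x y ×ˢ G.Om y z) ×ˢ G.Om z w) :=
    (continuousOn_conc_Om.comp continuousOn_fst fun q hq => hq.1).prodMk continuousOn_snd
  have c2 : ContinuousOn (fun p : Cur n × Cur n × Cur n => (p.1, conc p.2.1 p.2.2))
      (G.Om x y ×ˢ G.Om y z ×ˢ G.Om z w) :=
    continuousOn_fst.prodMk (continuousOn_conc_Om.comp continuousOn_snd fun q hq => hq.2)
  unfold cc
  rw [← h1, ← h2, mp_comp m1 c1, mp_comp m2 c2, ← cr_assoc, mp_comp m1 (by fun_prop)]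
  exact mp_congr m1 fun q hq => conc_assoc hq.1.1.1 hq.1.2.1 hq.2.1

theorem cc_pt_left {x y z : M n} {u : Cur n} {c : Ch (Cur n)} (hu : u ∈ G.Om x y) (hc : c ∈ sup (G.Om y z)) :
    cc (pt u) c = mp (tr u (cst z)) c := by
  rw [cc, cr_pt_left, mp_comp hc (by fun_prop)]
  refine mp_congr hc fun p hp => ?_
  rw [tr, ← hp.2.2, conc_cst hp.1]

theorem cc_pt_right {x y z : M n} {u : Cur n} {c : Ch (Cur n)} (hc : c ∈ sup (G.Om x y)) (hu : u ∈ G.Om y z) :
    cc c (pt u) = mp (tr (cst x) u) c := by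
  rw [cc, cr_pt_right, mp_comp hc (by fun_prop)]
  refine mp_congr hc fun p hp => ?_
  have h := conc_mem hp hu
  rw [tr, ← h.2.1, cst_conc h.1]

theorem tr_mem {x y x' y' : M n} {u w c : Cur n} (hu : u ∈ G.Om x' x) (hw : w ∈ G.Om y y') (hc : c ∈ G.Om x y) :
    tr u w c ∈ G.Om x' y' ∧ (tr u w c).1 = c.1 + u.1 + w.1 := by
  refine ⟨conc_mem hu (conc_mem hc hw), ?_⟩
  simp only [tr, conc_fst]
  ring

theorem continuousOn_tr {x y x' y' : M n} {u w : Cur n} (hu : u ∈ G.Om x' x) (hw : w ∈ G.Om y y') :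
    ContinuousOn (tr u w) (G.Om x y) := by
  have h1 : ContinuousOn (fun p : Cur n => conc p w) (G.Om x y) :=
    continuousOn_conc_Om.comp (f := fun p : Cur n => (p, w)) (by fun_prop) fun p hp => ⟨hp, hw⟩
  exact continuousOn_conc_Om.comp (f := fun p : Cur n => (u, conc p w)) (continuousOn_const.prodMk h1)
    fun p hp => ⟨hu, conc_mem hp hw⟩

theorem trans_mem {x y x' y' : M n} {u w : Cur n} (hu : u ∈ G.Om x' x) (hw : w ∈ G.Om y y') {l : ℝ} {c : Ch (Cur n)}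
    (hc : c ∈ sup (G.Om x y ∩ Lv n l)) : mp (tr u w) c ∈ sup (G.Om x' y' ∩ Lv n (l + u.1 + w.1)) := by
  refine mp_mem hc fun p hp => ⟨(tr_mem hu hw hp.1).1, ?_⟩
  have h : p.1 < l := hp.2
  change (tr u w p).1 < _
  rw [(tr_mem hu hw hp.1).2]
  linarith

theorem trans_back {x y x' y' : M n} {u w : Cur n} (hu : u ∈ G.Om x' x) (hw : w ∈ G.Om y y') {l : ℝ} {c : Ch (Cur n)}
    (hc : c ∈ sup (G.Om x y ∩ Lv n l)) (hd : dd c = 0) :
    ∃ z ∈ sup (G.Om x y ∩ Lv n (l + 2 * u.1 + 2 * w.1)), dd z = c + mp (tr (rev u) (rev w)) (mp (tr u w) c) := by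
  obtain ⟨K, hK, hK'⟩ := exists_cancel (G := G)
  have hu' := rev_mem hu
  have hw' := rev_mem hw
  obtain ⟨a0, a1, a2⟩ := hK' _ hu'.1
  obtain ⟨b0, b1, b2⟩ := hK' _ hw.1
  rw [hu'.2.1] at a1 a2
  rw [hw.2.1] at b1 b2
  rw [rev_rev] at a0
  let H : ℝ × Cur n → Cur n := fun q => conc (K (q.1, rev u)) (conc q.2 (K (q.1, w)))
  have c1 : ContinuousOn (fun q : ℝ × Cur n => K (q.1, rev u)) (Icc 0 1 ×ˢ (G.Om x y ∩ Lv n l)) :=
    hK.comp (f := fun q : ℝ × Cur n => (q.1, rev u)) (by fun_prop) fun q hq => ⟨hq.1, hu'.1⟩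
  have c2 : ContinuousOn (fun q : ℝ × Cur n => K (q.1, w)) (Icc 0 1 ×ˢ (G.Om x y ∩ Lv n l)) :=
    hK.comp (f := fun q : ℝ × Cur n => (q.1, w)) (by fun_prop) fun q hq => ⟨hq.1, hw.1⟩
  have c3 : ContinuousOn (fun q : ℝ × Cur n => conc q.2 (K (q.1, w))) (Icc 0 1 ×ˢ (G.Om x y ∩ Lv n l)) :=
    continuousOn_conc_Om.comp (f := fun q : ℝ × Cur n => (q.2, K (q.1, w))) (continuousOn_snd.prodMk c2)
      fun q hq => ⟨hq.2.1, (b2 _ hq.1).1⟩
  have hH : ContinuousOn H (Icc 0 1 ×ˢ (G.Om x y ∩ Lv n l)) :=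
    continuousOn_conc_Om.comp (f := fun q : ℝ × Cur n => (K (q.1, rev u), conc q.2 (K (q.1, w)))) (c1.prodMk c3)
      fun q hq => ⟨(a2 _ hq.1).1, conc_mem hq.2.1 (b2 _ hq.1).1⟩
  refine ⟨hty H c, hty_mem hc fun q hq => ⟨conc_mem (a2 _ hq.1).1 (conc_mem hq.2.1 (b2 _ hq.1).1), ?_⟩, ?_⟩
  · have h1 := (a2 _ hq.1).2
    have h2 := (b2 _ hq.1).2
    have h3 : q.2.1 < l := hq.2.2
    rw [rev_fst] at h1
    change (K (q.1, rev u)).1 + (q.2.1 + (K (q.1, w)).1) < _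
    linarith
  · have h := dd_hty hc hH
    rw [hd, map_zero, add_zero] at h
    rw [h, add_comm (mp _ c), mp_comp hc ((continuousOn_tr hu hw).mono inter_subset_left)]
    congr 1
    · rw [mp_congr hc (g := fun p => p), mp_id]
      intro p hp
      change conc (K (1, rev u)) (conc p (K (1, w))) = p
      rw [a1, b1, ← hp.1.2.2, conc_cst hp.1.1, ← hp.1.2.1, cst_conc hp.1.1]
    · refine mp_congr hc fun p hp => ?_
      change conc (K (0, rev u)) (conc p (K (0, w))) = _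
      have h1 := conc_mem hp.1 hw
      rw [a0, b0, tr, tr, conc_assoc hu.1 h1.1 hw'.1, conc_assoc hp.1.1 hw.1 hw'.1,
        conc_assoc hu'.1 hu.1 (conc_mem hp.1 (conc_mem hw hw')).1]

/-- a cycle whose transport bounds at level `l` bounds at level `l + 2 |u| + 2 |w|` -/
theorem trans_null {x y x' y' : M n} {u w : Cur n} (hu : u ∈ G.Om x' x) (hw : w ∈ G.Om y y') {l : ℝ}
    {c z : Ch (Cur n)} (hc : c ∈ sup (G.Om x y ∩ Lv n l)) (hd : dd c = 0) (hz : z ∈ sup (G.Om x' y' ∩ Lv n l))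
    (h : dd z = mp (tr u w) c) : ∃ z' ∈ sup (G.Om x y ∩ Lv n (l + 2 * u.1 + 2 * w.1)), dd z' = c := by
  obtain ⟨z₀, hz₀, h₀⟩ := trans_back hu hw hc hd
  have hu' := rev_mem hu
  have hw' := rev_mem hw
  refine ⟨z₀ + mp (tr (rev u) (rev w)) z, add_mem hz₀ (sup_mono (inter_subset_inter_right _ (Lv_mono ?_))
    (trans_mem hu' hw' hz)), ?_⟩
  · have h1 := hu.1.1
    have h2 := hw.1.1
    simp only [rev_fst]
    linarith
  · rw [map_add, ← mp_dd hz ((continuousOn_tr hu' hw').mono inter_subset_left), h, h₀, add_assoc, add_self, add_zero]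

theorem null_trans_iff {x y x' y' : M n} {u w : Cur n} (hu : u ∈ G.Om x' x) (hw : w ∈ G.Om y y') {c : Ch (Cur n)}
    (hc : c ∈ sup (G.Om x y)) (hd : dd c = 0) : G.Null x' y' (mp (tr u w) c) ↔ G.Null x y c := by
  constructor
  · rintro ⟨z, hz, h⟩
    obtain ⟨l, hl⟩ := exists_mem_Lv c
    obtain ⟨l', hl'⟩ := exists_mem_Lv z
    obtain ⟨z', hz', h'⟩ := trans_null hu hw (mem_sup_inter hc (sup_mono (Lv_mono (le_max_left l l')) hl)) hd
      (mem_sup_inter hz (sup_mono (Lv_mono (le_max_right l l')) hl')) h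
    exact ⟨z', sup_mono inter_subset_left hz', h'⟩
  · rintro ⟨z, hz, h⟩
    exact ⟨mp (tr u w) z, mp_mem hz fun p hp => (tr_mem hu hw hp).1, by rw [← mp_dd hz (continuousOn_tr hu hw), h]⟩

theorem Gen.trans {x y x' y' : M n} {u w : Cur n} (hu : u ∈ G.Om x' x) (hw : w ∈ G.Om y y') {k : ℕ} {θ : Ch (Cur n)}
    (h : G.Gen x y k θ) : G.Gen x' y' k (mp (tr u w) θ) := by
  obtain ⟨h1, h2, h3, h4⟩ := h
  exact ⟨mp_mem h1 fun p hp => (tr_mem hu hw hp).1, h2.mp _, by rw [← mp_dd h1 (continuousOn_tr hu hw), h3, map_zero],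
    fun h => h4 ((null_trans_iff hu hw h1 h3).1 h)⟩

theorem Null.add {x y : M n} {a b : Ch (Cur n)} (ha : G.Null x y a) (hb : G.Null x y b) : G.Null x y (a + b) := by
  obtain ⟨v, hv, rfl⟩ := ha
  obtain ⟨w, hw, rfl⟩ := hb
  exact ⟨v + w, add_mem hv hw, map_add _ _ _⟩

theorem Null.zero (x y : M n) : G.Null x y 0 := by
  exact ⟨0, zero_mem _, map_zero _⟩

theorem Null.pr {x y : M n} {a : Ch (Cur n)} (ha : G.Null x y a) (i : ℕ) : G.Null x y (pr i a) := by
  obtain ⟨v, hv, rfl⟩ := ha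
  exact ⟨R231.pr (i + 1) v, pr_mem _ hv, dd_pr i v⟩

theorem Null.cc_left {x y z : M n} {a b : Ch (Cur n)} (ha : G.Null x y a) (hb : b ∈ sup (G.Om y z)) (hd : dd b = 0) :
    G.Null x z (cc a b) := by
  obtain ⟨v, hv, rfl⟩ := ha
  exact ⟨cc v b, cc_mem hv hb, by rw [dd_cc hv hb, hd, cc_zero_right, add_zero]⟩

theorem Null.cc_right {x y z : M n} {a b : Ch (Cur n)} (ha : a ∈ sup (G.Om x y)) (hd : dd a = 0) (hb : G.Null y z b) :
    G.Null x z (cc a b) := by
  obtain ⟨v, hv, rfl⟩ := hb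
  exact ⟨cc a v, cc_mem ha hv, by rw [dd_cc ha hv, hd, cc_zero_left, zero_add]⟩

/-- the tail chain -/
theorem dd_hty_tl {b : M n} {x : Ch (Cur n)} (hx : x ∈ sup (G.pathFib b).P) :
    dd (hty (fun q => tl q.1 q.2) x) + hty (fun q => tl q.1 q.2) (dd x) = x + aug x • pt (cst b) := by
  rw [dd_hty hx (continuousOn_tl.mono fun q hq => ⟨hq.1, hq.2.1⟩), ← mp_const]
  congr 1
  · rw [mp_congr hx (g := fun p => p) fun p hp => tl_zero hp.1, mp_id]
  · exact mp_congr hx fun p hp => by rw [← hp.2]; exact tl_one hp.1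

theorem hty_tl_mem {b : M n} {l : ℝ} {x : Ch (Cur n)} (hx : x ∈ sup ((G.pathFib b).L univ l)) :
    hty (fun q => tl q.1 q.2) x ∈ sup ((G.pathFib b).L univ l) := by
  refine hty_mem hx fun q hq => ?_
  have h := tl_mem hq.2.1.1 hq.1
  refine ⟨⟨h.1, h.2.2.trans hq.2.1.2⟩, mem_univ _, ?_⟩
  have h1 : q.2.1 < l := hq.2.2.2
  have h2 := mul_nonneg hq.1.1 hq.2.1.1.1
  change (1 - q.1) * q.2.1 < l
  linarith

end Setup
end Crest.Agent.R231
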